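import Mathlib

/-!
Row 155.  Averages over finite types and over tables of independent coins.
-/

set_option autoImplicit false

namespace Crest.Agent.R155

/-- uniform average -/
noncomputable def av {C : Type} [Fintype C] (F : C → ℝ) : ℝ := (∑ c, F c) / Fintype.card C

section
variable {C : Type} [Fintype C]

lemma av_add (F G : C → ℝ) : av (fun c => F c + G c) = av F + av G := by
  simp only [av, Finset.sum_add_distrib, add_div]
lemma av_sub (F G : C → ℝ) : av (fun c => F c - G c) = av F - av G := by
  simp only [av, Finset.sum_sub_distrib, sub_div]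
lemma av_mul_left (a : ℝ) (F : C → ℝ) : av (fun c => a * F c) = a * av F := by
  simp only [av, ← Finset.mul_sum, mul_div_assoc]
lemma av_mul_right (a : ℝ) (F : C → ℝ) : av (fun c => F c * a) = av F * a := by
  simp only [mul_comm _ a, av_mul_left]
lemma av_const [Nonempty C] (a : ℝ) : av (fun _ : C => a) = a := by
  have : (Fintype.card C : ℝ) ≠ 0 := by exact_mod_cast Fintype.card_ne_zero
  simp only [av, Finset.sum_const, Finset.card_univ, nsmul_eq_mul]
  field_simp
lemma av_mono {F G : C → ℝ} (h : ∀ c, F c ≤ G c) : av F ≤ av G :=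
  div_le_div_of_nonneg_right (Finset.sum_le_sum fun c _ => h c) (by positivity)
lemma av_nonneg {F : C → ℝ} (h : ∀ c, 0 ≤ F c) : 0 ≤ av F :=
  div_nonneg (Finset.sum_nonneg fun c _ => h c) (by positivity)
lemma av_congr {F G : C → ℝ} (h : ∀ c, F c = G c) : av F = av G := by rw [funext h]
lemma av_sum {ι : Type} (s : Finset ι) (F : ι → C → ℝ) :
    av (fun c => ∑ i ∈ s, F i c) = ∑ i ∈ s, av (F i) := by
  simp only [av]
  rw [Finset.sum_comm, Finset.sum_div]
lemma av_comm {C' : Type} [Fintype C'] (F : C → C' → ℝ) :
    av (fun c => av (fun c' => F c c')) = av (fun c' => av (fun c => F c c')) := by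
  simp only [av, ← Finset.sum_div]
  rw [Finset.sum_comm, div_right_comm]
lemma av_equiv {C' : Type} [Fintype C'] (e : C ≃ C') (F : C' → ℝ) : av (fun c => F (e c)) = av F := by
  simp only [av, Equiv.sum_comp e F, Fintype.card_congr e]
lemma av_prod {C' : Type} [Fintype C'] (F : C × C' → ℝ) :
    av F = av (fun c => av (fun c' => F (c, c'))) := by
  simp only [av, Fintype.sum_prod_type, Fintype.card_prod, ← Finset.sum_div]
  push_cast
  rw [div_div, mul_comm]
lemma av_snoc (t : ℕ) (F : (Fin (t + 1) → C) → ℝ) :
    av F = av (fun cs : Fin t → C => av (fun c => F (Fin.snoc cs c))) := by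
  rw [← av_equiv (Fin.snocEquiv (fun _ => C)) F, av_prod, av_comm]
  rfl

/-- independence of functions of complementary sets of coordinates -/
lemma av_indep {ι L : Type} [Fintype ι] [DecidableEq ι] [Fintype L] [Nonempty L] (P : ι → Prop)
    (F G : (ι → L) → ℝ) (hF : ∀ f f', (∀ i, P i → f i = f' i) → F f = F f')
    (hG : ∀ f f', (∀ i, ¬ P i → f i = f' i) → G f = G f') :
    av (fun f => F f * G f) = av F * av G := by
  classical
  let e := Equiv.piEquivPiSubtypeProd P (fun _ => L)
  let l : L := Classical.arbitrary L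
  have h1 : ∀ a b, F (e.symm (a, b)) = F (e.symm (a, fun _ => l)) := fun a b =>
    hF _ _ fun i hi => by simp [e, Equiv.piEquivPiSubtypeProd, hi]
  have h2 : ∀ a b, G (e.symm (a, b)) = G (e.symm (fun _ => l, b)) := fun a b =>
    hG _ _ fun i hi => by simp [e, Equiv.piEquivPiSubtypeProd, hi]
  rw [← av_equiv e.symm (fun f => F f * G f), ← av_equiv e.symm F, ← av_equiv e.symm G, av_prod,
    av_prod, av_prod]
  simp only [fun a b => h1 a b, fun a b => h2 a b, av_mul_left, av_mul_right, av_const]

/-- the same for tables -/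
lemma av_indep₂ {ι κ L : Type} [Fintype ι] [DecidableEq ι] [Fintype κ] [DecidableEq κ] [Fintype L]
    [Nonempty L] (P : ι → κ → Prop) (F G : (ι → κ → L) → ℝ)
    (hF : ∀ f f', (∀ i k, P i k → f i k = f' i k) → F f = F f')
    (hG : ∀ f f', (∀ i k, ¬ P i k → f i k = f' i k) → G f = G f') :
    av (fun f => F f * G f) = av F * av G := by
  let e : (ι × κ → L) ≃ (ι → κ → L) := Equiv.curry ι κ L
  rw [← av_equiv e (fun f => F f * G f), ← av_equiv e F, ← av_equiv e G]
  exact av_indep (fun z : ι × κ => P z.1 z.2) (fun f => F (e f)) (fun f => G (e f))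
    (fun f f' h => hF _ _ fun i k hp => h (i, k) hp) (fun f f' h => hG _ _ fun i k hp => h (i, k) hp)

end

section
variable {C St : Type}

/-- iterate a random step along a table of coins -/
def iter (step : C → St → St) : (t : ℕ) → (Fin t → C) → St → St
  | 0, _, s => s
  | t + 1, cs, s => step (cs (Fin.last t)) (iter step t (fun i => cs i.castSucc) s)

lemma iter_snoc (step : C → St → St) (t : ℕ) (cs : Fin t → C) (c : C) (s : St) :
    iter step (t + 1) (Fin.snoc cs c) s = step c (iter step t cs s) := by
  simp only [iter, Fin.snoc_last, Fin.snoc_castSucc]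

lemma iter_inv {step : C → St → St} {I : St → Prop} (h : ∀ c s, I s → I (step c s)) :
    ∀ (t : ℕ) (cs : Fin t → C) (s : St), I s → I (iter step t cs s)
  | 0, _, _, hs => hs
  | t + 1, _, s, hs => h _ _ (iter_inv h t _ s hs)

variable [Fintype C]

/-- expectation after `t` steps -/
noncomputable def ex (step : C → St → St) (t : ℕ) (F : St → ℝ) (s : St) : ℝ :=
  av (fun cs : Fin t → C => F (iter step t cs s))

lemma ex_zero (step : C → St → St) (F : St → ℝ) (s : St) : ex step 0 F s = F s := by
  simp only [ex, iter, av_const]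
lemma ex_succ (step : C → St → St) (t : ℕ) (F : St → ℝ) (s : St) :
    ex step (t + 1) F s = ex step t (fun s' => av (fun c => F (step c s'))) s := by
  simp only [ex]
  rw [av_snoc]
  simp only [iter_snoc]
lemma ex_add_time (step : C → St → St) (t t' : ℕ) (F : St → ℝ) (s : St) :
    ex step (t + t') F s = ex step t (ex step t' F) s := by
  induction t' generalizing F with
  | zero => rw [Nat.add_zero]; congr 1; funext s'; rw [ex_zero]
  | succ t' ih => rw [← Nat.add_assoc, ex_succ, ih]; congr 1; funext s'; rw [ex_succ]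
lemma ex_one (step : C → St → St) (F : St → ℝ) (s : St) :
    ex step 1 F s = av (fun c => F (step c s)) := by
  rw [ex_succ, ex_zero]
lemma ex_mono {step : C → St → St} {I : St → Prop} (h : ∀ c s, I s → I (step c s)) {F G : St → ℝ}
    (hFG : ∀ s, I s → F s ≤ G s) (t : ℕ) {s : St} (hs : I s) : ex step t F s ≤ ex step t G s :=
  av_mono fun cs => hFG _ (iter_inv h t cs s hs)
lemma ex_congr {step : C → St → St} {I : St → Prop} (h : ∀ c s, I s → I (step c s)) {F G : St → ℝ}
    (hFG : ∀ s, I s → F s = G s) (t : ℕ) {s : St} (hs : I s) : ex step t F s = ex step t G s :=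
  av_congr fun cs => hFG _ (iter_inv h t cs s hs)
lemma ex_add (step : C → St → St) (t : ℕ) (F G : St → ℝ) (s : St) :
    ex step t (fun s => F s + G s) s = ex step t F s + ex step t G s := av_add _ _
lemma ex_mul_left (step : C → St → St) (t : ℕ) (a : ℝ) (F : St → ℝ) (s : St) :
    ex step t (fun s => a * F s) s = a * ex step t F s := av_mul_left _ _
lemma ex_const [Nonempty C] (step : C → St → St) (t : ℕ) (a : ℝ) (s : St) :
    ex step t (fun _ => a) s = a := av_const _
lemma ex_nonneg (step : C → St → St) (t : ℕ) {F : St → ℝ} (h : ∀ s, 0 ≤ F s) (s : St) :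
    0 ≤ ex step t F s := av_nonneg fun _ => h _

end

end Crest.Agent.R155
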