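import Crest.Agent.R155.Reg

/-!
Row 155.  The span of the small subrepresentations of the regular representation of a symmetric
group has polynomial dimension.
-/

set_option autoImplicit false

namespace Crest.Agent.R155

open Module Equiv
open scoped InnerProductSpace

section
variable {G : Type} [Group G] [Fintype G]

/-- a matrix coefficient -/
noncomputable def coef (u v : HS G) : HS G := WithLp.toLp 2 (fun g => ⟪Lt g u, v⟫_ℂ)

lemma coef_apply (u v : HS G) (g : G) : coef u v g = ⟪Lt g u, v⟫_ℂ := rfl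

/-- the span of the matrix coefficients of `V` -/
noncomputable def Coef (V : Submodule ℂ (HS G)) : Submodule ℂ (HS G) :=
  Submodule.span ℂ {f | ∃ u ∈ V, ∃ v ∈ V, f = coef u v}

/-- Plan: expand `u, v` in a basis `b` of `V`; `Coef V` is contained in the span of the range of
`(i, j) ↦ coef (b i) (b j)` (`finrank_range_le_card`). -/
lemma finrank_Coef (V : Submodule ℂ (HS G)) : finrank ℂ (Coef V) ≤ finrank ℂ V ^ 2 := by
  let b := Module.finBasis ℂ V
  have h1 : Coef V ≤ Submodule.span ℂ (Set.range fun p : Fin (finrank ℂ V) × Fin (finrank ℂ V) =>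
      coef (b p.1 : HS G) (b p.2 : HS G)) := by
    refine Submodule.span_le.2 ?_
    rintro _ ⟨u, hu, v, hv, rfl⟩
    have e1 : u = ∑ i, b.repr ⟨u, hu⟩ i • (b i : HS G) := by
      have := congrArg V.subtype (b.sum_repr ⟨u, hu⟩)
      rw [map_sum] at this
      exact this.symm
    have e2 : v = ∑ i, b.repr ⟨v, hv⟩ i • (b i : HS G) := by
      have := congrArg V.subtype (b.sum_repr ⟨v, hv⟩)
      rw [map_sum] at this
      exact this.symm
    have e3 : coef u v = ∑ i, ∑ j, ((starRingEnd ℂ) (b.repr ⟨u, hu⟩ i) * b.repr ⟨v, hv⟩ j) •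
        coef (b i : HS G) (b j : HS G) := by
      ext g
      conv_lhs => rw [coef_apply, e1, e2]
      simp only [map_sum, map_smul, sum_inner, inner_sum, inner_smul_left, inner_smul_right,
        WithLp.ofLp_sum, WithLp.ofLp_smul, Finset.sum_apply, Pi.smul_apply, coef_apply, smul_eq_mul,
        Finset.mul_sum]
      rw [Finset.sum_comm]
      refine Finset.sum_congr rfl fun i _ => Finset.sum_congr rfl fun j _ => ?_
      ring
    rw [SetLike.mem_coe, e3]
    exact Submodule.sum_mem _ fun i _ => Submodule.sum_mem _ fun j _ =>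
      Submodule.smul_mem _ _ (Submodule.subset_span ⟨(i, j), rfl⟩)
  refine (Submodule.finrank_mono h1).trans ((finrank_range_le_card _).trans (le_of_eq ?_))
  simp [sq]

/-- Non-orthogonal coefficient spaces.  Plan: some `coef u v` (`u, v ∈ V`) and `coef u' v'`
(`u', v' ∈ V'`) are not orthogonal.  `T x = ∑ g, ⟪Lt g u, x⟫ • Lt g u'` commutes with `Lt`, maps
`V` to `V'`, and `⟪v', T v⟫ ≠ 0`; the image `V.map T` is invariant and non-zero, so it is `V'`.
Finally `(T x) g = (T (Lt g⁻¹ x)) 1 = ⟪z, Lt g⁻¹ x⟫ = coef z x g` with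
`z = ∑ g, conj (Lt g u' 1) • Lt g u ∈ V`. -/
lemma le_Coef_of_not_orth {V V' : Submodule ℂ (HS G)} (hV : LInv V) (hV' : Irr V')
    (h : ¬ ∀ f ∈ Coef V, ∀ f' ∈ Coef V', ⟪f, f'⟫_ℂ = 0) : V' ≤ Coef V := by
  rw [← Submodule.isOrtho_iff_inner_eq, Coef, Coef, Submodule.isOrtho_span] at h
  push Not at h
  obtain ⟨_, ⟨u, hu, v, hv, rfl⟩, _, ⟨u', hu', v', hv', rfl⟩, h⟩ := h
  let T : Module.End ℂ (HS G) := ∑ g : G, ((innerₛₗ ℂ) (Lt g u)).smulRight (Lt g u')
  have hT : ∀ x, T x = ∑ g : G, ⟪Lt g u, x⟫_ℂ • Lt g u' := fun x => by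
    simp [T, LinearMap.sum_apply]
  have h1 : ∀ k x, T (Lt k x) = Lt k (T x) := fun k x => by
    rw [hT, hT, map_sum, ← Equiv.sum_comp (Equiv.mulLeft k)]
    refine Finset.sum_congr rfl fun g _ => ?_
    simp only [Equiv.coe_mulLeft, Lt_mul, inner_Lt, map_smul]
  have h2 : T v ≠ 0 := fun h0 => h (by
    have e : ⟪T v, v'⟫_ℂ = ⟪coef u v, coef u' v'⟫_ℂ := by
      rw [hT, sum_inner, PiLp.inner_apply]
      refine Finset.sum_congr rfl fun g _ => ?_
      rw [inner_smul_left, coef_apply, coef_apply, RCLike.inner_apply']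
    rw [← e, h0, inner_zero_left])
  have h3 : V.map T = V' := by
    refine (hV'.2.2 (V.map T) ?_ ?_).resolve_left fun h0 => h2 ?_
    · rintro _ ⟨x, -, rfl⟩
      rw [hT]
      exact V'.sum_mem fun g _ => V'.smul_mem _ (hV'.2.1 g u' hu')
    · rintro k _ ⟨x, hx, rfl⟩
      exact ⟨_, hV k x hx, h1 k x⟩
    · rw [← Submodule.mem_bot ℂ, ← h0]
      exact ⟨v, hv, rfl⟩
  rw [← h3]
  rintro _ ⟨x, hx, rfl⟩
  refine Submodule.subset_span ⟨∑ g : G, (starRingEnd ℂ) (u' g⁻¹) • Lt g u,
    V.sum_mem fun g _ => V.smul_mem _ (hV g u hu), x, hx, ?_⟩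
  ext k
  rw [coef_apply, hT, map_sum, sum_inner, ← Equiv.sum_comp (Equiv.mulLeft k)]
  simp only [WithLp.ofLp_sum, WithLp.ofLp_smul, Finset.sum_apply, Pi.smul_apply, smul_eq_mul,
    Equiv.coe_mulLeft, map_smul, inner_smul_left, Lt_apply, RingHomCompTriple.comp_apply,
    RingHom.id_apply, ← Lt_mul]
  refine Finset.sum_congr rfl fun g _ => ?_
  rw [mul_inv_rev, inv_mul_cancel_right, mul_comm]

end

end Crest.Agent.R155
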