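import Crest.Agent.R155.Model

/-!
Row 155.  Conditioning on the paths of the marked cards.
-/

set_option autoImplicit false

namespace Crest.Agent.R155

open Equiv

variable {m : ℕ}

/-- the cards of `M` have the same paths -/
def SameP (M : Finset (Pos m)) : (t : ℕ) → (Fin t → Coin m) → (Fin t → Coin m) → Prop
  | 0, _, _ => True
  | t + 1, cs, cs' => SameP M t (fun i => cs i.castSucc) (fun i => cs' i.castSucc) ∧
      ∀ a ∈ M, sig (t + 1) cs a = sig (t + 1) cs' a

lemma cond_sameP_refl (M : Finset (Pos m)) : ∀ {t : ℕ} (cs : Fin t → Coin m), SameP M t cs cs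
  | 0, _ => trivial
  | _ + 1, _ => ⟨cond_sameP_refl M _, fun _ _ => rfl⟩

/-- point mass -/
def dl (a : Pos m) : Pos m → ℝ := fun x => if x = a then 1 else 0

lemma SameP.mono {M M' : Finset (Pos m)} (hM : M' ⊆ M) :
    ∀ {t : ℕ} {cs cs' : Fin t → Coin m}, SameP M t cs cs' → SameP M' t cs cs'
  | 0, _, _, _ => trivial
  | _ + 1, _, _, h => ⟨SameP.mono hM h.1, fun a ha => h.2 a (hM ha)⟩

lemma SameP.sig_eq {M : Finset (Pos m)} {t : ℕ} {cs cs' : Fin t → Coin m} (h : SameP M t cs cs') :
    ∀ a ∈ M, sig t cs a = sig t cs' a := by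
  cases t with
  | zero => intro a _; rfl
  | succ t => exact h.2

lemma cond_coin_eq {c c' : Coin m} {S : Finset (Pos m)} (h : ∀ x ∈ S, stepE c x = stepE c' x)
    {u : Fin m} (hu : touch S u) : c u = c' u := by
  have hne := ev_ne_od u u
  rcases hu with hu | hu
  · have := h _ hu
    rw [stepE_lo, stepE_lo] at this
    cases h1 : c u <;> cases h2 : c' u <;> simp_all [hne.symm]
  · have := h _ hu
    rw [stepE_hi, stepE_hi] at this
    cases h1 : c u <;> cases h2 : c' u <;> simp_all [hne.symm]

lemma cond_stp_congr {c c' : Coin m} {s : St m} (h : ∀ x ∈ s.1, stepE c x = stepE c' x) :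
    stp c s = stp c' s := by
  refine Prod.ext (Finset.image_congr fun x hx => h x hx) (funext fun y => ?_)
  simp only [stp]
  split_ifs with ht
  · simp only [src, cond_coin_eq h ht]
  · rfl

/-- Plan: induction on `t`; the marked sets agree by `iter_fst`, and on a pair touching the marked set
the two coins agree because the marked card has the same image (`stepE_lo`, `stepE_hi`). -/
lemma SameP.iter_eq {M : Finset (Pos m)} (p : Pos m → ℝ) :
    ∀ {t : ℕ} {cs cs' : Fin t → Coin m}, SameP M t cs cs' →
      iter stp t cs (M, p) = iter stp t cs' (M, p)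
  | 0, _, _, _ => rfl
  | t + 1, cs, cs', h => by
    simp only [iter]
    rw [← SameP.iter_eq p h.1]
    refine cond_stp_congr fun x hx => ?_
    rw [iter_fst] at hx
    obtain ⟨a, ha, rfl⟩ := Finset.mem_image.1 hx
    have h2 := h.2 a ha
    simp only [sig, Perm.mul_apply] at h2
    rw [h2, h.1.sig_eq a ha]

lemma cond_sameP_snoc {M : Finset (Pos m)} {t : ℕ} {cs cs' : Fin t → Coin m} {c c' : Coin m}
    (h : SameP M t cs cs') (hc : ∀ a ∈ M, stepE c (sig t cs a) = stepE c' (sig t cs' a)) :
    SameP M (t + 1) (Fin.snoc cs c) (Fin.snoc cs' c') := by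
  refine ⟨by simpa only [Fin.snoc_castSucc] using h, fun a ha => ?_⟩
  rw [sig_snoc, sig_snoc]
  exact hc a ha

/-- flip one coin -/
def condFlip (u : Fin m) : Coin m ≃ Coin m :=
  Function.Involutive.toPerm (fun c => Function.update c u (!c u)) (fun c => by
    funext v
    by_cases h : v = u
    · subst h; simp
    · simp [h])

lemma condFlip_self (u : Fin m) (c : Coin m) : condFlip u c u = !c u := by
  simp [condFlip]
lemma condFlip_ne {u v : Fin m} (h : v ≠ u) (c : Coin m) : condFlip u c v = c v := by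
  simp [condFlip, h]

lemma cond_step_flip {S : Finset (Pos m)} {u : Fin m} (hu : ¬ touch S u) (c : Coin m) :
    ∀ x ∈ S, stepE (condFlip u c) x = stepE c x := by
  intro x hx
  rcases lo_or_hi x with ⟨v, rfl⟩ | ⟨v, rfl⟩
  · have : v ≠ u := fun e => hu (Or.inl (e ▸ hx))
    rw [stepE_lo, stepE_lo, condFlip_ne this]
  · have : v ≠ u := fun e => hu (Or.inr (e ▸ hx))
    rw [stepE_hi, stepE_hi, condFlip_ne this]

lemma cond_src_flip (c : Coin m) (y : Pos m) (p : Pos m → ℝ) :
    p (src (condFlip (half y) c) y) + p (src c y) = p (lo (half y)) + p (hi (half y)) := by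
  simp only [src, condFlip_self]
  cases c (half y) <;> cases decide (y.val % 2 = 1) <;> simp [add_comm]

lemma cond_one_step (s : St m) (y : Pos m) (Ψ : Coin m → ℝ)
    (hΨ : ∀ c c', (∀ x ∈ s.1, stepE c x = stepE c' x) → Ψ c = Ψ c') :
    av (fun c => Ψ c * s.2 (src c y)) = av (fun c => Ψ c * (stp c s).2 y) := by
  by_cases ht : touch s.1 (half y)
  · simp only [stp, ht, if_true]
  · simp only [stp, ht, if_false]
    have h1 := av_equiv (condFlip (half y)) (fun c => Ψ c * s.2 (src c y))
    have h2 : ∀ c, Ψ (condFlip (half y) c) = Ψ c := fun c => hΨ _ _ (cond_step_flip ht c)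
    simp only [h2] at h1
    have h3 := av_add (fun c => Ψ c * s.2 (src (condFlip (half y) c) y)) (fun c => Ψ c * s.2 (src c y))
    simp only [← mul_add, cond_src_flip] at h3
    have h4 := av_mul_left (1 / 2) (fun c => Ψ c * (s.2 (lo (half y)) + s.2 (hi (half y))))
    rw [av_congr (G := fun c => 1 / 2 * (Ψ c * (s.2 (lo (half y)) + s.2 (hi (half y)))))
      (F := fun c => Ψ c * ((s.2 (lo (half y)) + s.2 (hi (half y))) / 2)) fun c => by ring]
    linarith

/-- The weight is the conditional law of the card `a`.  Plan: induction on `t` generalising `Ψ, y`.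
`av_snoc`; `1 (stepE c (σ a) = y) = ∑ x, 1 (stepE c x = y) * 1 (σ a = x)`; apply the induction
hypothesis to `Ψ x cs = av fun c => Ψ (snoc cs c) * 1 (stepE c x = y)`; this gives
`av av (Ψ (snoc cs c) * p (src c y))`.  If the pair `half y` does not touch the marked set, flipping
the coin `half y` (`Function.update`, an involution, `av_equiv`) preserves `Ψ (snoc cs c)` and
exchanges `lo (half y)` and `hi (half y)`. -/
theorem cond_id (M : Finset (Pos m)) (a : Pos m) : ∀ (t : ℕ) (Ψ : (Fin t → Coin m) → ℝ),
    (∀ cs cs', SameP M t cs cs' → Ψ cs = Ψ cs') → ∀ y : Pos m,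
      av (fun cs => Ψ cs * if sig t cs a = y then 1 else 0) =
        av (fun cs => Ψ cs * (iter stp t cs (M, dl a)).2 y)
  | 0, Ψ, _, y => by
    refine av_congr fun cs => ?_
    congr 1
    exact if_congr eq_comm rfl rfl
  | t + 1, Ψ, hΨ, y => by
    rw [av_snoc, av_snoc]
    simp only [sig_snoc, iter_snoc, Perm.mul_apply]
    let Ψ' : Pos m → (Fin t → Coin m) → ℝ := fun x cs =>
      av (fun c => Ψ (Fin.snoc cs c) * if x = src c y then 1 else 0)
    have hΨ' : ∀ x cs cs', SameP M t cs cs' → Ψ' x cs = Ψ' x cs' := fun x cs cs' h =>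
      av_congr fun c => by
        rw [hΨ _ _ (cond_sameP_snoc (c := c) (c' := c) h fun b hb => by rw [h.sig_eq b hb])]
    have e1 : ∀ cs : Fin t → Coin m,
        av (fun c => Ψ (Fin.snoc cs c) * if stepE c (sig t cs a) = y then 1 else 0) =
          ∑ x, Ψ' x cs * if sig t cs a = x then 1 else 0 := by
      intro cs
      simp only [mul_ite, mul_one, mul_zero, Finset.sum_ite_eq, Finset.mem_univ, if_true, Ψ',
        stepE_eq_iff]
    have e2 : ∀ cs : Fin t → Coin m, ∑ x, Ψ' x cs * (iter stp t cs (M, dl a)).2 x =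
        av (fun c => Ψ (Fin.snoc cs c) * (stp c (iter stp t cs (M, dl a))).2 y) := by
      intro cs
      rw [← cond_one_step]
      · simp only [Ψ', ← av_mul_right]
        rw [← av_sum]
        refine av_congr fun c => ?_
        simp only [mul_ite, mul_one, mul_zero, ite_mul, zero_mul, Finset.sum_ite_eq', Finset.mem_univ,
          if_true]
      · intro c c' h
        refine hΨ _ _ (cond_sameP_snoc (cond_sameP_refl M cs) fun b hb => h _ ?_)
        rw [iter_fst]
        exact Finset.mem_image_of_mem _ hb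
    rw [av_congr e1, ← av_congr e2, av_sum, av_sum]
    exact Finset.sum_congr rfl fun x _ => cond_id M a t (Ψ' x) (hΨ' x) x

/-- the conditional law of `a` given the paths of `M` is nearly uniform -/
def Good (T : ℕ) (M : Finset (Pos m)) (a : Pos m) (cs : Fin T → Coin m) : Prop :=
  ∀ y, (iter stp T cs (M, dl a)).2 y ≤ (1 + 1 / (2 * m : ℝ)) / (2 * m - M.card)

def GoodL (T : ℕ) : List (Pos m) → (Fin T → Coin m) → Prop
  | [], _ => True
  | a :: l, cs => GoodL T l cs ∧ Good T l.toFinset a cs

lemma cond_goodL_congr (T : ℕ) {cs cs' : Fin T → Coin m} : ∀ (l : List (Pos m)),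
    SameP l.toFinset T cs cs' → (GoodL T l cs ↔ GoodL T l cs')
  | [], _ => Iff.rfl
  | a :: l, h => by
    have h' : SameP l.toFinset T cs cs' := h.mono (by simp)
    simp only [GoodL, Good, cond_goodL_congr T l h', h'.iter_eq]

open Classical in
/-- Plan: induction on `l`; for `a :: l` use `cond_id` with `M = l.toFinset` and `Ψ` the indicator of
`GoodL T l cs ∧ Good T M a cs ∧ ∀ b ∈ l, sig T cs b = τ b` (`SameP.mono`, `SameP.iter_eq`,
`SameP.sig_eq`); `List.toFinset_card_of_nodup`, `Finset.prod_range_succ`. -/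
theorem seq_bound (T : ℕ) (τ : Perm (Pos m)) : ∀ l : List (Pos m), l.Nodup →
    av (fun cs => if GoodL T l cs ∧ ∀ b ∈ l, sig T cs b = τ b then (1 : ℝ) else 0) ≤
      ∏ j ∈ Finset.range l.length, (1 + 1 / (2 * m : ℝ)) / (2 * m - j)
  | [], _ => by simp [GoodL, av_const]
  | a :: l, hl => by
    have hl' := (List.nodup_cons.1 hl).2
    have ih := seq_bound T τ l hl'
    have hlen : l.length + 1 ≤ 2 * m := by
      have := hl.length_le_card
      simpa using this
    have hcard : l.toFinset.card = l.length := List.toFinset_card_of_nodup hl'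
    set β : ℝ := (1 + 1 / (2 * m : ℝ)) / (2 * m - l.length) with hβ
    have hβ0 : 0 ≤ β := by
      have : (l.length : ℝ) + 1 ≤ 2 * m := by exact_mod_cast hlen
      exact div_nonneg (by positivity) (by linarith)
    let Ψ : (Fin T → Coin m) → ℝ := fun cs =>
      if GoodL T (a :: l) cs ∧ ∀ b ∈ l, sig T cs b = τ b then 1 else 0
    have hΨ : ∀ cs cs', SameP l.toFinset T cs cs' → Ψ cs = Ψ cs' := by
      intro cs cs' h
      have h1 : (∀ b ∈ l, sig T cs b = τ b) ↔ ∀ b ∈ l, sig T cs' b = τ b :=
        forall₂_congr fun b hb => by rw [h.sig_eq b (List.mem_toFinset.2 hb)]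
      refine if_congr (and_congr ?_ h1) rfl rfl
      simp only [GoodL, Good, cond_goodL_congr T l h, h.iter_eq]
    have e := cond_id l.toFinset a T Ψ hΨ (τ a)
    rw [List.length_cons, Finset.prod_range_succ, ← hβ]
    calc _ = av (fun cs => Ψ cs * if sig T cs a = τ a then 1 else 0) := by
          refine av_congr fun cs => ?_
          simp only [Ψ, List.forall_mem_cons]
          by_cases h1 : GoodL T (a :: l) cs <;> by_cases h2 : ∀ b ∈ l, sig T cs b = τ b <;>
            by_cases h3 : sig T cs a = τ a <;> simp [h1, h2, h3]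
      _ ≤ av (fun cs => (if GoodL T l cs ∧ ∀ b ∈ l, sig T cs b = τ b then (1 : ℝ) else 0) * β) := by
          rw [e]
          refine av_mono fun cs => ?_
          simp only [Ψ]
          by_cases h : GoodL T (a :: l) cs ∧ ∀ b ∈ l, sig T cs b = τ b
          · rw [if_pos h, if_pos ⟨h.1.1, h.2⟩, one_mul, one_mul, hβ, ← hcard]
            exact h.1.2 _
          · rw [if_neg h, zero_mul]
            exact mul_nonneg (by split_ifs <;> norm_num) hβ0
      _ ≤ _ := by
          rw [av_mul_right]
          exact mul_le_mul_of_nonneg_right ih hβ0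

end Crest.Agent.R155
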