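import Mathlib

/-!
Row 155.  Counting partitions, and functions on the symmetric group with many invariances.
-/

set_option autoImplicit false

namespace Crest.Agent.R155

open Equiv

private lemma part_le {j : ℕ} (P : Nat.Partition j) {a : ℕ} (ha : a ∈ P.parts) : a ≤ j := by
  rw [← P.parts_sum]
  exact Multiset.single_le_sum (fun _ _ => Nat.zero_le _) _ ha

private lemma part_sum {j : ℕ} (P : Nat.Partition j) :
    ∑ i : Fin j, (i.1 + 1) * P.parts.count (i.1 + 1) = j := by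
  have h := Finset.sum_multiset_count_of_subset P.parts (Finset.range (j + 1)) (fun a ha => by
    rw [Multiset.mem_toFinset] at ha
    exact Finset.mem_range.2 (Nat.lt_succ_of_le (part_le P ha)))
  rw [P.parts_sum, Finset.sum_range_succ'] at h
  rw [Fin.sum_univ_eq_sum_range (fun i => (i + 1) * P.parts.count (i + 1)) j]
  simp only [smul_eq_mul, mul_zero, add_zero] at h
  conv_rhs => rw [h]
  exact Finset.sum_congr rfl fun i _ => mul_comm _ _

private lemma part_geom {y : ℝ} (h0 : 0 ≤ y) (h1 : y ≤ 4 / 5) (n : ℕ) :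
    ∑ a ∈ Finset.range n, y ^ a ≤ Real.exp (5 * y) := by
  have h2 : (∑ a ∈ Finset.range n, y ^ a) * (1 - y) = 1 - y ^ n := geom_sum_mul_neg y n
  have h3 : 0 ≤ y ^ n := by positivity
  have h4 := Real.add_one_le_exp (5 * y)
  refine le_trans ?_ h4
  refine le_of_mul_le_mul_right ?_ (show (0 : ℝ) < 1 - y by linarith)
  rw [h2]
  nlinarith

/-- Plan: with `x = 4/5`, a partition of `j` is determined by its multiplicity function
`k : Fin j → Fin (j+1)` (`k i` = number of parts equal to `i+1`), and `∑ (i+1) k i = j`; hence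
`p(j) x^j ≤ ∑_k ∏_i x^((i+1) k i) = ∏_i ∑_a (x^(i+1))^a ≤ ∏_i 1/(1 - x^(i+1))`
(`Finset.prod_univ_sum`), and `1/(1-y) ≤ exp (5 y)` for `0 ≤ y ≤ 4/5`, `∑ x^(i+1) ≤ 4`. -/
theorem card_partition_le (j : ℕ) :
    (Fintype.card (Nat.Partition j) : ℝ) ≤ Real.exp 20 * (5 / 4) ^ j := by
  classical
  let k : Nat.Partition j → (Fin j → ℕ) := fun P i => P.parts.count (i.1 + 1)
  have hk : Function.Injective k := by
    intro P Q h
    refine Nat.Partition.ext (Multiset.ext.2 fun a => ?_)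
    by_cases h0 : 0 < a ∧ a ≤ j
    · have := congrFun h ⟨a - 1, by omega⟩
      simpa only [k, Nat.sub_add_cancel h0.1] using this
    · rw [Multiset.count_eq_zero.2 fun ha => h0 ⟨P.parts_pos ha, part_le P ha⟩,
        Multiset.count_eq_zero.2 fun ha => h0 ⟨Q.parts_pos ha, part_le Q ha⟩]
  have hmem : ∀ P, k P ∈ Fintype.piFinset fun _ : Fin j => Finset.range (j + 1) := by
    intro P
    rw [Fintype.mem_piFinset]
    intro i
    have h1 := Finset.single_le_sum (f := fun i : Fin j => (i.1 + 1) * P.parts.count (i.1 + 1))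
      (fun _ _ => Nat.zero_le _) (Finset.mem_univ i)
    rw [part_sum] at h1
    have h2 : P.parts.count (i.1 + 1) ≤ (i.1 + 1) * P.parts.count (i.1 + 1) :=
      Nat.le_mul_of_pos_left _ (Nat.succ_pos _)
    exact Finset.mem_range.2 (Nat.lt_succ_of_le (h2.trans h1))
  have h1 : (Fintype.card (Nat.Partition j) : ℝ) * (4 / 5) ^ j =
      ∑ P : Nat.Partition j, ∏ i : Fin j, ((4 / 5 : ℝ) ^ (i.1 + 1)) ^ k P i := by
    rw [Finset.sum_congr rfl (g := fun _ => (4 / 5 : ℝ) ^ j)]
    · simp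
    · intro P _
      simp only [← pow_mul]
      rw [Finset.prod_pow_eq_pow_sum, part_sum]
  have h2 : ∑ P : Nat.Partition j, ∏ i : Fin j, ((4 / 5 : ℝ) ^ (i.1 + 1)) ^ k P i ≤
      ∑ x ∈ Fintype.piFinset fun _ : Fin j => Finset.range (j + 1),
        ∏ i : Fin j, ((4 / 5 : ℝ) ^ (i.1 + 1)) ^ x i := by
    rw [← Finset.sum_image (s := Finset.univ) (g := k)
      (f := fun x => ∏ i : Fin j, ((4 / 5 : ℝ) ^ (i.1 + 1)) ^ x i) hk.injOn]
    refine Finset.sum_le_sum_of_subset_of_nonneg ?_ fun _ _ _ => by positivity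
    intro x hx
    obtain ⟨P, -, rfl⟩ := Finset.mem_image.1 hx
    exact hmem P
  rw [← Finset.prod_univ_sum (fun _ : Fin j => Finset.range (j + 1))
    (fun i a => ((4 / 5 : ℝ) ^ (i.1 + 1)) ^ a)] at h2
  have h3 : ∏ i : Fin j, ∑ a ∈ Finset.range (j + 1), ((4 / 5 : ℝ) ^ (i.1 + 1)) ^ a ≤
      ∏ i : Fin j, Real.exp (5 * (4 / 5 : ℝ) ^ (i.1 + 1)) := by
    refine Finset.prod_le_prod (fun _ _ => by positivity) fun i _ => part_geom (by positivity) ?_ _
    rw [pow_succ]
    exact mul_le_of_le_one_left (by norm_num) (pow_le_one₀ (by norm_num) (by norm_num))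
  rw [← Real.exp_sum] at h3
  have h4 : ∑ i : Fin j, 5 * (4 / 5 : ℝ) ^ (i.1 + 1) ≤ 20 := by
    rw [Fin.sum_univ_eq_sum_range (fun i => 5 * (4 / 5 : ℝ) ^ (i + 1)) j]
    have e := geom_sum_mul_neg (4 / 5 : ℝ) j
    have e2 : ∑ i ∈ Finset.range j, 5 * (4 / 5 : ℝ) ^ (i + 1) =
        4 * ∑ i ∈ Finset.range j, (4 / 5 : ℝ) ^ i := by
      rw [Finset.mul_sum]
      exact Finset.sum_congr rfl fun i _ => by ring
    have e3 : 0 ≤ (4 / 5 : ℝ) ^ j := by positivity
    rw [e2]
    linarith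
  have h5 : (Fintype.card (Nat.Partition j) : ℝ) * (4 / 5) ^ j ≤ Real.exp 20 := by
    rw [h1]
    exact h2.trans (h3.trans (Real.exp_le_exp.2 h4))
  calc (Fintype.card (Nat.Partition j) : ℝ)
      = (Fintype.card (Nat.Partition j) : ℝ) * (4 / 5) ^ j * (5 / 4) ^ j := by
        rw [mul_assoc, ← mul_pow]; norm_num
    _ ≤ _ := mul_le_mul_of_nonneg_right h5 (by positivity)

end Crest.Agent.R155
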