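import Crest.Agent.R155.Struct

/-!
Row 155.  Small representations of symmetric groups: vectors fixed by most three-cycles.
-/

set_option autoImplicit false
set_option linter.unusedSectionVars false

namespace Crest.Agent.R155

open Module Equiv
open Crest.Agent.R189 (cyc D3)

variable {β : Type} [Fintype β] [DecidableEq β]

private lemma st2_share {J : Finset β} {w : HS (Perm β)} (h : Fix3 J w) {x y z : β} (hxy : x ≠ y)
    (hxz : x ≠ z) (hx : x ∉ J) (hy : y ∉ J) (hz : z ∉ J) :
    Lt (swap x y) w = Lt (swap x z) w := by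
  by_cases e : y = z
  · rw [e]
  · have := h x y z ⟨hxy, hxz, e⟩ hx hy hz
    conv_rhs => rw [← this, ← Lt_mul, cyc, ← mul_assoc, swap_mul_self, one_mul]

/-- Plan: `swap x y * swap x' y'` fixes `w` whenever `x ≠ y`, `x' ≠ y'` are outside `J` (it is `1`, a
`cyc`, or a product of two such products sharing a point); so `Lt (swap x y) w = Lt (swap p q) w`. -/
lemma Fix3.swap_eq {J : Finset β} {w : HS (Perm β)} (h : Fix3 J w) {p q x y : β} (hpq : p ≠ q)
    (hp : p ∉ J) (hq : q ∉ J) (hxy : x ≠ y) (hx : x ∉ J) (hy : y ∉ J) :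
    Lt (swap x y) w = Lt (swap p q) w := by
  by_cases e : x = p
  · subst e
    exact st2_share h hxy hpq hx hy hq
  · rw [st2_share h hxy e hx hy hp, swap_comm]
    exact st2_share h (Ne.symm e) hpq hp hx hq

/-- If all transpositions outside `J` fix `w`, then all permutations fixing `J` pointwise do.
Plan: `Equiv.Perm.swap_induction_on` on `Perm {x // x ∉ J}` and `ofSubtype`, or induction on the
cardinality of the support. -/
lemma fix_of_swaps {J : Finset β} {w : HS (Perm β)}
    (h : ∀ x y, x ≠ y → x ∉ J → y ∉ J → Lt (swap x y) w = w) {g : Perm β}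
    (hg : ∀ x ∈ J, g x = x) : Lt g w = w := by
  induction hn : g.support.card using Nat.strong_induction_on generalizing g with
  | _ n ih =>
    by_cases h1 : g = 1
    · rw [h1, Lt_one]
    · obtain ⟨x, hx⟩ : ∃ x, g x ≠ x := by
        by_contra hc
        push Not at hc
        exact h1 (Equiv.ext hc)
      have hxJ : x ∉ J := fun hJ => hx (hg x hJ)
      have hgJ : g x ∉ J := fun hJ => hx (g.injective (hg _ hJ))
      have hlt := Perm.card_support_swap_mul hx
      have := ih _ (hn ▸ hlt) (g := swap x (g x) * g) (fun y hy => by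
        rw [Perm.mul_apply, hg y hy]
        exact swap_apply_of_ne_of_ne (fun e => hxJ (e ▸ hy)) (fun e => hgJ (e ▸ hy))) rfl
      have e : g = swap x (g x) * (swap x (g x) * g) := by
        rw [← mul_assoc, swap_mul_self, one_mul]
      rw [e, Lt_mul, this]
      exact h _ _ hx.symm hxJ hgJ

/-- Small dimension forces three-cycles to act trivially.  Plan: otherwise `struct` gives `w, J` and
`c = cyc p q r` in `J` with `Q3 c w = 0`, `J.card ≤ 3 l ≤ 3 d`.  Take an injection
`e : Fin (d+1) × J → β` and `g s : Perm β` with `g s x = e (s, x)` on `J`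
(`Equiv.Perm.exists_extending_pair`).  For `w s = Lt (g s) w`, `c s = g s * c * (g s)⁻¹`:
`Q3 (c s) (w s) = 0` and `Q3 (c s) (w s') = 3 • w s'` for `s' ≠ s` (`(g s')⁻¹ * c s * g s'` is a `cyc`
of points outside `J`), so the `d + 1` vectors `w s ∈ V` are linearly independent. -/
theorem small_dim {V : Submodule ℂ (HS (Perm β))} (hV : LInv V)
    (hd : 3 * finrank ℂ V * (finrank ℂ V + 1) ≤ Fintype.card β) : ∀ v ∈ V, Fix3 ∅ v := by
  classical
  by_cases h0 : V = ⊥
  · intro v hv p q r _ _ _ _
    rw [h0, Submodule.mem_bot] at hv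
    rw [hv, map_zero]
  obtain ⟨l, J, w, h1, h2, hw, hw0, hfix, h3 | ⟨p, hp, q, hq, r, hr, hD, hQ⟩⟩ := struct hV h0
  · exact h3
  exfalso
  set d := finrank ℂ V with hdd
  have hl : l ≤ d := (Nat.lt_two_pow_self.le).trans h2
  have hcard : Fintype.card (Fin (d + 1) × J) ≤ Fintype.card β := by
    rw [Fintype.card_prod, Fintype.card_fin, Fintype.card_coe]
    refine le_trans ?_ hd
    rw [mul_comm]
    exact Nat.mul_le_mul_right _ (by omega)
  obtain ⟨e⟩ := Function.Embedding.nonempty_of_card_le hcard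
  have hg : ∀ s : Fin (d + 1), ∃ g : Perm β, ∀ x : J, g x = e (s, x) := fun s =>
    Perm.exists_extending_pair (fun x : J => (x : β)) (fun x : J => e (s, x)) Subtype.val_injective
      (fun x y hxy => (Prod.ext_iff.1 (e.injective hxy)).2)
  choose g hg using hg
  have hout : ∀ s s', s' ≠ s → ∀ x ∈ J, ((g s')⁻¹ * g s) x ∉ J := by
    intro s s' hss x hx hJ
    have e1 := hg s' ⟨_, hJ⟩
    have e2 := hg s ⟨x, hx⟩
    have e3 : g s' (((g s')⁻¹ * g s) x) = g s x := by
      rw [← Perm.mul_apply, mul_inv_cancel_left]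
    exact hss (Prod.ext_iff.1 (e.injective (e1.symm.trans (e3.trans e2)))).1
  have hQ1 : ∀ s, Q3L (g s * cyc p q r * (g s)⁻¹) (Lt (g s) w) = 0 := by
    intro s
    rw [Q3L_apply, Q3_conj, hQ, map_zero]
  have hQ2 : ∀ s s', s' ≠ s →
      Q3L (g s * cyc p q r * (g s)⁻¹) (Lt (g s') w) = (3 : ℂ) • Lt (g s') w := by
    intro s s' hss
    have e1 : g s * cyc p q r * (g s)⁻¹ =
        g s' * (((g s')⁻¹ * g s) * cyc p q r * ((g s')⁻¹ * g s)⁻¹) * (g s')⁻¹ := by group
    rw [Q3L_apply, e1, Q3_conj, R189.cyc_conj, Q3_of_fix, map_smul]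
    exact hfix _ _ _ (hD.map (Equiv.injective _)) (hout s s' hss p hp) (hout s s' hss q hq)
      (hout s s' hss r hr)
  have hne : ∀ s, Lt (g s) w ≠ 0 := by
    intro s h
    apply hw0
    rw [← Lt_one w, ← inv_mul_cancel (g s), Lt_mul, h, map_zero]
  have hli : LinearIndependent ℂ (fun s : Fin (d + 1) => (⟨Lt (g s) w, hV _ _ hw⟩ : V)) := by
    refine LinearIndependent.of_comp V.subtype ?_
    rw [Fintype.linearIndependent_iff]
    intro a ha s
    have ha' : ∑ i, a i • Lt (g i) w = 0 := ha
    have h4 := congrArg (Q3L (g s * cyc p q r * (g s)⁻¹)) ha'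
    rw [map_zero, map_sum, ← Finset.add_sum_erase _ _ (Finset.mem_univ s), map_smul, hQ1,
      smul_zero, zero_add, Finset.sum_congr rfl (g := fun i => (3 : ℂ) • (a i • Lt (g i) w))
        (fun i hi => by rw [map_smul, hQ2 s i (Finset.ne_of_mem_erase hi), smul_comm]),
      ← Finset.smul_sum] at h4
    have h5 := (smul_eq_zero.1 h4).resolve_left (by norm_num)
    rw [← Finset.add_sum_erase _ _ (Finset.mem_univ s), h5, add_zero] at ha'
    exact (smul_eq_zero.1 ha').resolve_right (hne s)
  have := hli.fintype_card_le_finrank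
  rw [Fintype.card_fin] at this
  omega

end Crest.Agent.R155
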