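import Crest.Agent.R155.Plus
import Crest.Agent.R155.Part
import Crest.Agent.R155.Struct2

/-!
Row 155.  The span of the small subrepresentations of the regular representation of a symmetric
group has polynomial dimension.
-/

set_option autoImplicit false
set_option linter.unusedSectionVars false

namespace Crest.Agent.R155

open Module Equiv
open scoped InnerProductSpace

variable {β : Type} [Fintype β] [DecidableEq β]

/-- multiplication by the sign -/
def sgnMul : Module.End ℂ (HS (Perm β)) where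
  toFun f := WithLp.toLp 2 (fun g => (((Perm.sign g : ℤˣ) : ℤ) : ℂ) * f g)
  map_add' f f' := by ext g; simp [mul_add]
  map_smul' c f := by ext g; simp [mul_left_comm]

private lemma cnt_sq (g : Perm β) :
    (((Perm.sign g : ℤˣ) : ℤ) : ℂ) * (((Perm.sign g : ℤˣ) : ℤ) : ℂ) = 1 := by
  rw [← Int.cast_mul, ← Units.val_mul, Int.units_mul_self]
  simp

private lemma cnt_invol (f : HS (Perm β)) : sgnMul (sgnMul f) = f := by
  ext g
  show (((Perm.sign g : ℤˣ) : ℤ) : ℂ) * ((((Perm.sign g : ℤˣ) : ℤ) : ℂ) * f g) = f g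
  rw [← mul_assoc, cnt_sq, one_mul]

private lemma cnt_Lt (g : Perm β) (f : HS (Perm β)) :
    Lt g (sgnMul f) = (((Perm.sign g : ℤˣ) : ℤ) : ℂ) • sgnMul (Lt g f) := by
  ext x
  show (((Perm.sign (g⁻¹ * x) : ℤˣ) : ℤ) : ℂ) * f (g⁻¹ * x) =
    (((Perm.sign g : ℤˣ) : ℤ) : ℂ) * ((((Perm.sign x : ℤˣ) : ℤ) : ℂ) * f (g⁻¹ * x))
  rw [Perm.sign_mul, Perm.sign_inv, Units.val_mul, Int.cast_mul, mul_assoc]

private lemma cnt_map_map (U : Submodule ℂ (HS (Perm β))) : (U.map sgnMul).map sgnMul = U := by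
  rw [← Submodule.map_comp]
  have : (sgnMul : Module.End ℂ (HS (Perm β))) ∘ₗ sgnMul = LinearMap.id :=
    LinearMap.ext cnt_invol
  rw [this, Submodule.map_id]

private lemma cnt_linv {U : Submodule ℂ (HS (Perm β))} (h : LInv U) : LInv (U.map sgnMul) := by
  rintro g _ ⟨u, hu, rfl⟩
  rw [cnt_Lt]
  exact Submodule.smul_mem _ _ ⟨_, h g u hu, rfl⟩

private lemma cnt_irr {U : Submodule ℂ (HS (Perm β))} (h : Irr U) : Irr (U.map sgnMul) := by
  refine ⟨fun h0 => h.1 ?_, cnt_linv h.2.1, fun U' hU' hi => ?_⟩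
  · rw [← cnt_map_map U, h0, Submodule.map_bot]
  · have h1 : U'.map sgnMul ≤ U := by
      rw [← cnt_map_map U]
      exact Submodule.map_mono hU'
    rcases h.2.2 _ h1 (cnt_linv hi) with e | e
    · left
      rw [← cnt_map_map U', e, Submodule.map_bot]
    · right
      rw [← cnt_map_map U', e]

private lemma cnt_key {X : ℕ} {J₀ : Finset β}
    (hJ : J₀.card = min (3 * Nat.log 2 X) (Fintype.card β))
    {V : Submodule ℂ (HS (Perm β))} (hV : Irr V) (hX : finrank ℂ V ≤ X) :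
    V ∈ Plus J₀ X ∨ V.map sgnMul ∈ Plus J₀ X := by
  obtain ⟨l, J, w, h1, h2, hw, hw0, hfix, -⟩ := struct hV.2.1 hV.1
  have hl : l ≤ Nat.log 2 X := Nat.le_log_of_pow_le (by norm_num) (h2.trans hX)
  have hc : Fintype.card J ≤ Fintype.card J₀ := by
    rw [Fintype.card_coe, Fintype.card_coe, hJ]
    exact le_min (by omega) (Finset.card_le_univ _)
  obtain ⟨e⟩ := Function.Embedding.nonempty_of_card_le hc
  obtain ⟨g, hg⟩ := Perm.exists_extending_pair (fun x : J => (x : β)) (fun x : J => (e x : β))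
    Subtype.val_injective (Subtype.val_injective.comp e.injective)
  have hout : ∀ x, x ∉ J₀ → g⁻¹ x ∉ J := by
    intro x hx hx'
    have := hg ⟨_, hx'⟩
    simp only [← Perm.mul_apply, mul_inv_cancel, Perm.one_apply] at this
    exact hx (this ▸ (e _).2)
  have hfix' : Fix3 J₀ (Lt g w) := by
    intro p q r hd hp hq hr
    have e1 := hfix _ _ _ (hd.map (g⁻¹).injective) (hout p hp) (hout q hq) (hout r hr)
    rw [← R189.cyc_conj] at e1
    conv_rhs => rw [← e1]
    rw [← Lt_mul, ← Lt_mul]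
    congr 2
    group
  have hw' : Lt g w ∈ V := hV.2.1 _ _ hw
  have hw0' : Lt g w ≠ 0 := by
    intro h
    apply hw0
    rw [← Lt_one w, ← inv_mul_cancel g, Lt_mul, h, map_zero]
  generalize Lt g w = v at hfix' hw' hw0'
  by_cases hpq : ∃ p q, p ≠ q ∧ p ∉ J₀ ∧ q ∉ J₀
  · obtain ⟨p, q, hpq, hp, hq⟩ := hpq
    by_cases hplus : v + Lt (swap p q) v = 0
    · right
      refine ⟨cnt_irr hV, (Submodule.finrank_map_le _ _).trans hX, sgnMul v, ⟨v, hw', rfl⟩,
        fun h => hw0' ?_, fun g' hg' => fix_of_swaps (J := J₀) ?_ hg'⟩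
      · rw [← cnt_invol v, h, map_zero]
      · intro x y hxy hx hy
        rw [cnt_Lt, hfix'.swap_eq hpq hp hq hxy hx hy, Perm.sign_swap hxy,
          (eq_neg_of_add_eq_zero_right hplus), map_neg]
        simp
    · left
      refine ⟨hV, hX, v + Lt (swap p q) v, V.add_mem hw' (hV.2.1 _ _ hw'), hplus,
        fun g' hg' => fix_of_swaps (J := J₀) ?_ hg'⟩
      intro x y hxy hx hy
      rw [map_add, ← hfix'.swap_eq hpq hp hq hxy hx hy, ← Lt_mul, swap_mul_self, Lt_one, add_comm]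
  · left
    exact ⟨hV, hX, v, hw', hw0', fun g' hg' =>
      fix_of_swaps (J := J₀) (fun x y hxy hx hy => absurd ⟨x, y, hxy, hx, hy⟩ hpq) hg'⟩

/-- Plan: if `X = 0` the space is `⊥`.  Let `l = Nat.log 2 X` and fix `J₀` with
`J₀.card = min (3 l) (card β)`.  By `decomp`, `Low` is spanned by irreducible `V` of dimension `≤ X`.
`struct` gives `w, J` with `J.card ≤ 3 l`; a permutation `g` maps `J` into `J₀`, `Lt g w` satisfies
`Fix3 J₀`.  If there are no two points outside `J₀` then `V ∈ Plus J₀ X`; otherwise with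
`t = swap p q` one of `w ± Lt t w` is non-zero (`Fix3.swap_eq`, `fix_of_swaps`), so `V ∈ Plus J₀ X` or
`V.map sgnMul ∈ Plus J₀ X` (`Lt g (sgnMul f) = sign g • sgnMul (Lt g f)`, `sgnMul` is an involution).
Hence `Low ≤ P ⊔ P.map sgnMul` with `P = sSup (Plus J₀ X)`, and
`p(j) 2^j ≤ e^20 (5/2)^(3 l) ≤ e^20 16^l ≤ e^20 X^4`. -/
theorem finrank_low (β : Type) [Fintype β] [DecidableEq β] (X : ℕ) :
    (finrank ℂ (Low (Perm β) X) : ℝ) ≤ 2 * Real.exp 20 * (X : ℝ) ^ 6 := by
  rcases Nat.eq_zero_or_pos X with rfl | hX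
  · have : Low (Perm β) 0 = ⊥ := by
      rw [eq_bot_iff]
      refine sSup_le fun U hU => ?_
      rw [Submodule.finrank_eq_zero.1 (Nat.le_zero.1 hU.2)]
    rw [this]
    simp
  obtain ⟨J₀, -, hJ⟩ := Finset.exists_subset_card_eq (s := (Finset.univ : Finset β))
    (n := min (3 * Nat.log 2 X) (Fintype.card β)) (min_le_right _ _)
  set P : Submodule ℂ (HS (Perm β)) := sSup (Plus J₀ X) with hP
  have hle : Low (Perm β) X ≤ P ⊔ P.map sgnMul := by
    refine sSup_le fun U hU f hf => ?_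
    obtain ⟨k, V, v, h1, -, rfl⟩ := decomp hU.1 hf
    refine Submodule.sum_mem _ fun a _ => ?_
    obtain ⟨h2, h3, h4⟩ := h1 a
    rcases cnt_key hJ h2 ((Submodule.finrank_mono h3).trans hU.2) with h | h
    · exact Submodule.mem_sup_left (le_sSup h h4)
    · refine Submodule.mem_sup_right ⟨sgnMul (v a), ?_, cnt_invol _⟩
      exact (le_sSup h : _ ≤ P) ⟨_, h4, rfl⟩
  have h1 : finrank ℂ (Low (Perm β) X) ≤ 2 * finrank ℂ P := by
    have a1 := Submodule.finrank_mono hle
    have a2 := Submodule.finrank_add_le_finrank_add_finrank P (P.map sgnMul)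
    have a3 := Submodule.finrank_map_le sgnMul P
    omega
  have h2 := finrank_plus J₀ X
  rw [← hP] at h2
  have h3 := card_partition_le J₀.card
  have h4 : (2 : ℝ) ^ Nat.log 2 X ≤ X := by exact_mod_cast Nat.pow_log_le_self 2 hX.ne'
  have h5 : (5 / 2 : ℝ) ^ J₀.card ≤ (X : ℝ) ^ 4 := by
    calc (5 / 2 : ℝ) ^ J₀.card ≤ (5 / 2 : ℝ) ^ (3 * Nat.log 2 X) :=
          pow_le_pow_right₀ (by norm_num) (hJ ▸ min_le_left _ _)
      _ ≤ ((2 : ℝ) ^ Nat.log 2 X) ^ 4 := by
          rw [pow_mul, ← pow_mul 2, mul_comm _ 4, pow_mul]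
          exact pow_le_pow_left₀ (by norm_num) (by norm_num) _
      _ ≤ _ := pow_le_pow_left₀ (by positivity) h4 _
  have h6 : (finrank ℂ (Low (Perm β) X) : ℝ) ≤
      2 * ((Fintype.card (Nat.Partition J₀.card) : ℝ) * 2 ^ J₀.card * (X : ℝ) ^ 2) := by
    exact_mod_cast h1.trans (Nat.mul_le_mul_left 2 h2)
  refine h6.trans ?_
  have h7 : (Fintype.card (Nat.Partition J₀.card) : ℝ) * 2 ^ J₀.card ≤
      Real.exp 20 * (X : ℝ) ^ 4 := by
    calc _ ≤ Real.exp 20 * (5 / 4) ^ J₀.card * 2 ^ J₀.card :=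
          mul_le_mul_of_nonneg_right h3 (by positivity)
      _ = Real.exp 20 * (5 / 2) ^ J₀.card := by
          rw [mul_assoc, ← mul_pow]; norm_num
      _ ≤ _ := mul_le_mul_of_nonneg_left h5 (by positivity)
  calc _ ≤ 2 * (Real.exp 20 * (X : ℝ) ^ 4 * (X : ℝ) ^ 2) := by gcongr
    _ = _ := by ring

end Crest.Agent.R155
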