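import Crest.Agent.R155.Model

/-!
Row 155.  The partner comes from the other parity class.
-/

set_option autoImplicit false

namespace Crest.Agent.R155

open Equiv

/-- number of marked positions of parity `b` -/
def cnt {m : ℕ} (S : Finset (Pos m)) (b : ℕ) : ℕ := (S.filter fun x => x.val % 2 = b).card

/-- Locality.  Plan: induction on `τ`; for `y` at time `τ + 1` put `u = half y`, then
`u / 2^τ % 2 = b`, and `lo u`, `hi u` have the same bit `τ` because `τ < d`; `mem_stp`, `src_cases`. -/
lemma local_dep {d : ℕ} (σ : St (2 ^ d)) (b : ℕ) : ∀ (τ : ℕ), τ ≤ d →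
    ∀ cs cs' : Fin τ → Coin (2 ^ d),
      (∀ (i : Fin τ) (u : Fin (2 ^ d)), u.val / 2 ^ i.val % 2 = b → cs i u = cs' i u) →
      ∀ x : Pos (2 ^ d), x.val / 2 ^ τ % 2 = b →
        (iter stp τ cs σ).2 x = (iter stp τ cs' σ).2 x ∧
          (x ∈ (iter stp τ cs σ).1 ↔ x ∈ (iter stp τ cs' σ).1)
  | 0, _, _, _, _, _, _ => ⟨rfl, Iff.rfl⟩
  | τ + 1, hτ, cs, cs', h, y, hy => by
    have ih := local_dep σ b τ (by omega) (fun i => cs i.castSucc) (fun i => cs' i.castSucc)
      (fun i u hu => h i.castSucc u hu)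
    have h1 : (half y).val / 2 ^ τ % 2 = b := by
      rw [half_val, Nat.div_div_eq_div_mul, ← pow_succ' (2 : ℕ) τ, hy]
    have h2 : (hi (half y)).val / 2 ^ τ % 2 = b := by
      obtain ⟨k, hk⟩ : ∃ k, d = τ + (k + 1) := ⟨d - τ - 1, by omega⟩
      have : ∀ a : ℕ, (a + 2 ^ d) / 2 ^ τ % 2 = a / 2 ^ τ % 2 := by
        intro a
        rw [hk, pow_add, Nat.add_mul_div_left _ _ (by positivity), pow_succ]
        omega
      rw [hi_val, this, h1]
    have hc : cs (Fin.last τ) (half y) = cs' (Fin.last τ) (half y) := h (Fin.last τ) _ h1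
    have hlo := ih (lo (half y)) h1
    have hhi := ih (hi (half y)) h2
    have hs : src (cs (Fin.last τ)) y = src (cs' (Fin.last τ)) y := by simp only [src, hc]
    have hsrc := ih (src (cs' (Fin.last τ)) y) (by
      rcases src_cases (cs' (Fin.last τ)) y with e | e <;> rw [e] <;> assumption)
    simp only [iter, mem_stp, hs, hsrc.2, and_true]
    simp only [stp, touch, hlo.1, hlo.2, hhi.1, hhi.2, hs, hsrc.1]

/-- Plan: induction on `t` generalising nothing: `ex_succ`, `mem_stp`, `src_ev`, `src_od`; the average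
over the last coin of `1 (src c y ∈ S)` is the mean of the indicators of `lo (half y)` and
`hi (half y)`; `Function.iterate_succ_apply'`. -/
lemma ex_mem {m : ℕ} (σ : St m) (t : ℕ) (y : Pos m) :
    ex stp t (fun s => if y ∈ s.1 then 1 else 0) σ =
      Pm^[t] (fun x => if x ∈ σ.1 then 1 else 0) y := by
  induction t generalizing y with
  | zero => rw [ex_zero]; rfl
  | succ t ih =>
    rw [ex_succ, Function.iterate_succ_apply', Pm, ← ih, ← ih, ← ex_add, div_eq_inv_mul,
      ← ex_mul_left]
    congr 1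
    funext s
    let e : Coin m ≃ Coin m :=
      Function.Involutive.toPerm (fun c => Function.update c (half y) (!c (half y))) (fun c => by
        funext v
        by_cases h : v = half y
        · subst h; simp
        · simp [h])
    have h1 := av_equiv e (fun c => if y ∈ (stp c s).1 then (1 : ℝ) else 0)
    have h2 := av_add (fun c => if y ∈ (stp (e c) s).1 then (1 : ℝ) else 0)
      (fun c => if y ∈ (stp c s).1 then (1 : ℝ) else 0)
    rw [av_congr (G := fun _ => (if lo (half y) ∈ s.1 then (1 : ℝ) else 0) +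
      if hi (half y) ∈ s.1 then 1 else 0), av_const] at h2
    · linarith
    · intro c
      have : e c (half y) = !c (half y) := Function.update_self _ _ _
      simp only [mem_stp, src, this]
      cases c (half y) <;> cases decide (y.val % 2 = 1) <;> simp [add_comm]

/-- Plan: `Hq` is a sum over `x` of `(s.2 x)² * 1 (partner x ∈ s.1)`; with `b = x / 2^d % 2` the first
factor depends on the coins of class `b`, the second on the coins of the other class (`local_dep`,
`av_indep₂`); `ex_mem` and `Pm_iter` at `s = d` give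
`cnt σ.1 (partner x / 2^d) / 2^d ≤ θ` for the second factor. -/
theorem half_bound {d : ℕ} (σ : St (2 ^ d)) {θ : ℝ} (h0 : (cnt σ.1 0 : ℝ) ≤ θ * 2 ^ d)
    (h1 : (cnt σ.1 1 : ℝ) ≤ θ * 2 ^ d) : ex stp d Hq σ ≤ θ * ex stp d nsq σ := by
  have hp : (0 : ℝ) < 2 ^ d := by positivity
  simp only [ex, Hq, nsq]
  rw [av_sum, av_sum, Finset.mul_sum]
  refine Finset.sum_le_sum fun x _ => ?_
  have hx := x.isLt
  have hpar : (partner x).val / 2 ^ d % 2 ≠ x.val / 2 ^ d % 2 := by
    rcases lo_or_hi x with ⟨u, rfl⟩ | ⟨u, rfl⟩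
    · rw [partner_lo, hi_val, lo_val, Nat.add_div_right _ (by positivity)]; omega
    · rw [partner_hi, hi_val, lo_val, Nat.add_div_right _ (by positivity)]; omega
  have e := av_indep₂ (fun (i : Fin d) (u : Fin (2 ^ d)) => u.val / 2 ^ i.val % 2 = x.val / 2 ^ d % 2)
    (fun cs => (iter stp d cs σ).2 x ^ 2)
    (fun cs => if partner x ∈ (iter stp d cs σ).1 then (1 : ℝ) else 0)
    (fun f f' h => by rw [(local_dep σ _ d le_rfl f f' h x rfl).1])
    (fun f f' h => if_congr (local_dep σ _ d le_rfl f f'
      (fun i u hu => h i u (by rw [hu]; exact hpar)) (partner x) rfl).2 rfl rfl)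
  rw [av_congr (G := fun cs => (iter stp d cs σ).2 x ^ 2 *
    if partner x ∈ (iter stp d cs σ).1 then (1 : ℝ) else 0) (fun cs => by split_ifs <;> simp), e,
    mul_comm]
  refine mul_le_mul_of_nonneg_right ?_ (av_nonneg fun _ => sq_nonneg _)
  have h2 := ex_mem σ d (partner x)
  rw [Pm_iter _ (by omega)] at h2
  simp only [ex] at h2
  rw [h2, show d + 1 - d = 1 by omega, pow_one]
  have h3 : ∀ b, ∑ z : Pos (2 ^ d), (if z.val % 2 = b then (if z ∈ σ.1 then (1 : ℝ) else 0) else 0) =
      cnt σ.1 b := by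
    intro b
    simp only [← ite_and, Finset.sum_boole, cnt]
    congr 2
    ext z
    simp [and_comm]
  have h4 : (partner x).val / 2 ^ d < 2 := by
    rw [Nat.div_lt_iff_lt_mul (by positivity)]; exact (partner x).isLt
  rw [h3, one_div, inv_mul_le_iff₀ hp, mul_comm ((2 : ℝ) ^ d)]
  generalize (partner x).val / 2 ^ d = b at h4
  interval_cases b
  · exact h0
  · exact h1

end Crest.Agent.R155
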