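import Crest.Agent.R155.L2a

/-!
Row 155.  The `L²` estimate for ten rounds of a weight with nearly uniform marginals.
-/

set_option autoImplicit false

namespace Crest.Agent.R155

open Module Equiv
open scoped InnerProductSpace

private lemma l2_pyth {E ι : Type} [NormedAddCommGroup E] [InnerProductSpace ℂ E] (u : ι → E)
    (h : ∀ a b, a ≠ b → ⟪u a, u b⟫_ℂ = 0) (s : Finset ι) :
    ‖∑ a ∈ s, u a‖ ^ 2 = ∑ a ∈ s, ‖u a‖ ^ 2 := by
  classical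
  induction s using Finset.induction_on with
  | empty => simp
  | insert a s ha ih =>
    rw [Finset.sum_insert ha, Finset.sum_insert ha, ← ih, sq, sq, sq]
    refine norm_add_sq_eq_norm_sq_add_norm_sq_of_inner_eq_zero (𝕜 := ℂ) _ _ ?_
    rw [inner_sum]
    exact Finset.sum_eq_zero fun b hb => h a b fun e => ha (e ▸ hb)

private lemma l2_root {x₀ d : ℕ} (h : x₀ ^ 16 ≤ d) :
    ∃ X, x₀ ≤ X ∧ X ^ 16 ≤ d ∧ d < (X + 1) ^ 16 := by
  have h1 : ∀ y : ℕ, y ^ 16 ≤ d → y ≤ Nat.findGreatest (fun x => x ^ 16 ≤ d) d := fun y hy =>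
    Nat.le_findGreatest ((Nat.le_self_pow (by norm_num) y).trans hy) hy
  refine ⟨Nat.findGreatest (fun x => x ^ 16 ≤ d) d, h1 _ h,
    Nat.findGreatest_spec (P := fun x => x ^ 16 ≤ d) (Nat.zero_le d) (by simp), ?_⟩
  by_contra hc
  have := h1 _ (not_lt.1 hc)
  omega

private lemma l2_low {G : Type} [Group G] [Fintype G] {L : Submodule ℂ (HS G)} (hL : LInv L)
    {w : HS G} (hw : w ∈ L) {f₀ : G → ℝ} (h0 : ∀ g, 0 ≤ f₀ g) (h1 : ∑ g, f₀ g = 1)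
    (h2 : ⟪w, w⟫_ℂ = ⟪w, (WithLp.toLp 2 fun g => (f₀ g : ℂ) : HS G)⟫_ℂ) :
    ‖w‖ ^ 2 ≤ (finrank ℂ L : ℝ) / Fintype.card G := by
  set N : ℝ := (finrank ℂ L : ℝ) / Fintype.card G with hN
  have hN0 : 0 ≤ N := by positivity
  have a1 : ∀ g, ‖w g‖ ≤ √N * ‖w‖ := fun g => by
    refine abs_le_of_sq_le_sq' ?_ (by positivity) |>.2
    rw [mul_pow, Real.sq_sqrt hN0]
    exact rk_bound hL hw g
  have a2 : ‖w‖ ^ 2 ≤ √N * ‖w‖ := by
    calc ‖w‖ ^ 2 = ‖⟪w, w⟫_ℂ‖ := by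
          rw [inner_self_eq_norm_sq_to_K, norm_pow]; simp
      _ = ‖∑ g, ⟪w g, (f₀ g : ℂ)⟫_ℂ‖ := by rw [h2, PiLp.inner_apply]
      _ ≤ ∑ g, ‖⟪w g, (f₀ g : ℂ)⟫_ℂ‖ := norm_sum_le _ _
      _ ≤ ∑ g, √N * ‖w‖ * f₀ g := Finset.sum_le_sum fun g _ => by
          refine (norm_inner_le_norm _ _).trans ?_
          rw [Complex.norm_real, Real.norm_of_nonneg (h0 g)]
          exact mul_le_mul_of_nonneg_right (a1 g) (h0 g)
      _ = √N * ‖w‖ := by rw [← Finset.mul_sum, h1, mul_one]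
  nlinarith [Real.sq_sqrt hN0, sq_nonneg (√N - ‖w‖)]

/-- Plan.  `g₀ = f₀ - 1/|G| ∈ (FixS)ᗮ`; `decomp` gives `g₀ = ∑ v a`, `v a ∈ V a ≤ (FixS)ᗮ`.  By
`small_dim`, `card α < 3 d (d+1)` for `d = finrank (V a)` (otherwise `V a ≤ FixS ⊓ FixSᗮ = ⊥`), hence
`x₀^16 ≤ d` because `3 x₀^16 (x₀^16 + 1) ≤ card α`.  Let `X a ≥ x₀` be such that
`(X a)^16 ≤ d < (X a + 1)^16`.  `‖(Cv μ)^[10] g₀‖² = ∑ a, ‖(Cv μ)^[10] (v a)‖²` (orthogonality) is
bounded by `irr_bound`; group by the value `x` of `X a` (`Finset.sum_fiberwise_of_maps_to`):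
`w x = ∑_{X a = x} v a ∈ Low ((x+1)^16)`, `‖w x‖² = ⟪w x, g₀⟫ = ⟪w x, f₀⟫ ≤ max ‖w x g‖` (constants lie
in `FixS`), so `‖w x‖² ≤ finrank Low / |G| ≤ 2 e^20 (x+1)^96 / |G|` by `rk_bound`, `finrank_low`.
`(x+1)^96 / x^100 ≤ 2^96 / x^4 ≤ 2^96 / x^2` and `∑_{x ≥ x₀} 1/x² ≤ 2 / x₀` (`sum_Ioo_inv_sq_le` or
telescoping). -/
theorem l2_main {α : Type} [Fintype α] [DecidableEq α] (x₀ : ℕ) (hx₀ : 1 ≤ x₀)
    (hn : 3 * x₀ ^ 16 * (x₀ ^ 16 + 1) ≤ Fintype.card α) (blk : Fin 16 → Finset α)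
    (hd : ∀ i j, i ≠ j → Disjoint (blk i) (blk j)) {μ : Perm α → ℝ} (hμ : ∀ g, 0 ≤ μ g)
    (hB : ∀ i, Marg μ (blk i)) {f₀ : Perm α → ℝ} (h0 : ∀ g, 0 ≤ f₀ g) (h1 : ∑ g, f₀ g = 1)
    {p q : α} (hpq : p ≠ q) (hs : ∀ g, f₀ (swap p q * g) = f₀ g) :
    (Fintype.card (Perm α) : ℝ) *
      ‖(Cv μ)^[10] (WithLp.toLp 2 fun g => ((f₀ g - 1 / Fintype.card (Perm α) : ℝ) : ℂ))‖ ^ 2 ≤
      (48 ^ 2 * (2 * Real.exp 20)) ^ 10 * (2 * Real.exp 20) * 2 ^ 97 / x₀ := by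
  classical
  set K : ℝ := (48 ^ 2 * (2 * Real.exp 20)) ^ 10 with hK
  have hK0 : 0 ≤ K := by positivity
  have hG : (0 : ℝ) < Fintype.card (Perm α) := by exact_mod_cast Fintype.card_pos
  set g₀ : HS (Perm α) :=
    WithLp.toLp 2 fun g => ((f₀ g - 1 / Fintype.card (Perm α) : ℝ) : ℂ) with hg₀
  have hmem : g₀ ∈ (FixS α)ᗮ := by
    refine mem_fixS_orth hpq ?_ ?_
    · ext g
      simp only [hg₀, Lt_apply, swap_inv, hs]
    · simp only [hg₀]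
      rw [← Complex.ofReal_sum, Finset.sum_sub_distrib, h1, Finset.sum_const, Finset.card_univ,
        nsmul_eq_mul, mul_one_div_cancel hG.ne', sub_self, Complex.ofReal_zero]
  obtain ⟨k, V, v, hV, horth, hsum⟩ := decomp (fixS_linv α).orth hmem
  have hdim : ∀ a, x₀ ^ 16 ≤ finrank ℂ (V a) := by
    intro a
    by_contra hc
    have hle : finrank ℂ (V a) ≤ x₀ ^ 16 := by omega
    have h3 := small_dim (hV a).1.2.1 (le_trans
      (Nat.mul_le_mul (Nat.mul_le_mul_left 3 hle) (Nat.add_le_add_right hle 1)) hn)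
    apply (hV a).1.1
    rw [eq_bot_iff]
    intro u hu
    have := Submodule.inner_right_of_mem_orthogonal (K := FixS α) (h3 u hu) ((hV a).2.1 hu)
    exact inner_self_eq_zero.1 this
  choose X hX1 hX2 hX3 using fun a => l2_root (hdim a)
  have hit : ∀ (n : ℕ) a, (Cv μ)^[n] (v a) ∈ V a := by
    intro n a
    induction n with
    | zero => exact (hV a).2.2
    | succ n ih => rw [Function.iterate_succ_apply']; exact (hV a).1.2.1.cv μ ih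
  have e1 : ‖(Cv μ)^[10] g₀‖ ^ 2 = ∑ a, ‖(Cv μ)^[10] (v a)‖ ^ 2 := by
    rw [← l2_pyth _ fun a b hab => horth a b hab _ (hit 10 a) _ (hit 10 b), hsum,
      ← Module.End.pow_apply, map_sum]
    simp only [Module.End.pow_apply]
  have e2 : ∑ a, ‖(Cv μ)^[10] (v a)‖ ^ 2 ≤ ∑ a, K / (X a : ℝ) ^ 100 * ‖v a‖ ^ 2 :=
    Finset.sum_le_sum fun a _ =>
      irr_bound blk hd hμ hB (hV a).1 (hx₀.trans (hX1 a)) (hX2 a) (hX3 a) (hV a).2.2
  set n := Finset.univ.sup X + 1 with hn'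
  have hmaps : ∀ a ∈ (Finset.univ : Finset (Fin k)), X a ∈ Finset.Ioo (x₀ - 1) n := by
    intro a ha
    have := Finset.le_sup (f := X) ha
    have := hX1 a
    rw [Finset.mem_Ioo]
    omega
  have e3 : ∀ x : ℕ, ∑ a ∈ Finset.univ.filter (fun a => X a = x), ‖v a‖ ^ 2 ≤
      2 * Real.exp 20 * ((x : ℝ) + 1) ^ 96 / Fintype.card (Perm α) := by
    intro x
    rw [← l2_pyth v fun a b hab => horth a b hab _ (hV a).2.2 _ (hV b).2.2]
    set w := ∑ a ∈ Finset.univ.filter (fun a => X a = x), v a with hw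
    have hwL : w ∈ Low (Perm α) ((x + 1) ^ 16) := by
      refine Submodule.sum_mem _ fun a ha => le_low (hV a).1.2.1 ?_ (hV a).2.2
      rw [← (Finset.mem_filter.1 ha).2]
      exact (hX3 a).le
    have hwO : w ∈ (FixS α)ᗮ := Submodule.sum_mem _ fun a _ => (hV a).2.1 (hV a).2.2
    have b1 : ⟪w, w⟫_ℂ = ⟪w, g₀⟫_ℂ := by
      rw [hsum, ← Finset.sum_filter_add_sum_filter_not Finset.univ (fun a => X a = x) v, ← hw,
        inner_add_right, left_eq_add, hw, sum_inner]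
      refine Finset.sum_eq_zero fun a ha => ?_
      rw [inner_sum]
      refine Finset.sum_eq_zero fun b hb => horth a b ?_ _ (hV a).2.2 _ (hV b).2.2
      rintro rfl
      exact (Finset.mem_filter.1 hb).2 (Finset.mem_filter.1 ha).2
    have b2 : g₀ = (WithLp.toLp 2 fun g => (f₀ g : ℂ) : HS (Perm α)) -
        (WithLp.toLp 2 fun _ => ((1 / Fintype.card (Perm α) : ℝ) : ℂ) : HS (Perm α)) := by
      ext g
      simp only [hg₀, PiLp.sub_apply, Complex.ofReal_sub]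
    have b3 : (WithLp.toLp 2 fun _ => ((1 / Fintype.card (Perm α) : ℝ) : ℂ) : HS (Perm α)) ∈
        FixS α := fun _ _ _ _ _ _ _ => rfl
    rw [b2, inner_sub_right, Submodule.inner_left_of_mem_orthogonal b3 hwO, sub_zero] at b1
    refine (l2_low (low_linv _) hwL h0 h1 b1).trans (div_le_div_of_nonneg_right ?_ hG.le)
    refine (finrank_low α _).trans (le_of_eq ?_)
    push_cast
    ring
  have e4 : ∑ a, K / (X a : ℝ) ^ 100 * ‖v a‖ ^ 2 ≤ ∑ x ∈ Finset.Ioo (x₀ - 1) n,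
      K * (2 * Real.exp 20) * 2 ^ 96 / Fintype.card (Perm α) * ((x : ℝ) ^ 2)⁻¹ := by
    rw [← Finset.sum_fiberwise_of_maps_to hmaps]
    refine Finset.sum_le_sum fun x hx => ?_
    rw [Finset.sum_congr rfl (g := fun a => K / (x : ℝ) ^ 100 * ‖v a‖ ^ 2)
      (fun a ha => by rw [(Finset.mem_filter.1 ha).2]), ← Finset.mul_sum]
    refine (mul_le_mul_of_nonneg_left (e3 x) (by positivity)).trans ?_
    have hx1 : (1 : ℝ) ≤ x := by
      have := (Finset.mem_Ioo.1 hx).1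
      exact_mod_cast (show 1 ≤ x by omega)
    have c1 : ((x : ℝ) + 1) ^ 96 ≤ 2 ^ 96 * (x : ℝ) ^ 98 := by
      calc ((x : ℝ) + 1) ^ 96 ≤ (2 * x) ^ 96 := pow_le_pow_left₀ (by positivity) (by linarith) _
        _ = 2 ^ 96 * (x : ℝ) ^ 96 := mul_pow _ _ _
        _ ≤ _ := mul_le_mul_of_nonneg_left (pow_le_pow_right₀ hx1 (by norm_num)) (by positivity)
    calc K / (x : ℝ) ^ 100 * (2 * Real.exp 20 * ((x : ℝ) + 1) ^ 96 / Fintype.card (Perm α))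
        ≤ K / (x : ℝ) ^ 100 *
          (2 * Real.exp 20 * (2 ^ 96 * (x : ℝ) ^ 98) / Fintype.card (Perm α)) := by gcongr
      _ = _ := by field_simp
  rw [← Finset.mul_sum] at e4
  have e5 := sum_Ioo_inv_sq_le (α := ℝ) (x₀ - 1) n
  have e6 : (((x₀ - 1 : ℕ) : ℝ) + 1) = x₀ := by
    rw [Nat.cast_sub hx₀]; push_cast; ring
  rw [e6] at e5
  have hx0 : (0 : ℝ) < x₀ := by exact_mod_cast hx₀
  calc _ ≤ (Fintype.card (Perm α) : ℝ) *
        (K * (2 * Real.exp 20) * 2 ^ 96 / Fintype.card (Perm α) * (2 / x₀)) := by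
        refine mul_le_mul_of_nonneg_left ?_ hG.le
        rw [e1]
        exact e2.trans (e4.trans (mul_le_mul_of_nonneg_left e5 (by positivity)))
    _ = _ := by field_simp

theorem l1_bound {ε : ℝ} (hε : 0 < ε) : ∃ n₀ : ℕ, ∀ (α : Type) [Fintype α] [DecidableEq α],
    n₀ ≤ Fintype.card α → ∀ (blk : Fin 16 → Finset α),
    (∀ i j, i ≠ j → Disjoint (blk i) (blk j)) → ∀ μ : Perm α → ℝ, (∀ g, 0 ≤ μ g) →
    (∀ i, Marg μ (blk i)) → ∀ f₀ : Perm α → ℝ, (∀ g, 0 ≤ f₀ g) → ∑ g, f₀ g = 1 →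
    ∀ p q : α, p ≠ q → (∀ g, f₀ (swap p q * g) = f₀ g) →
    ∑ g, |(conv μ)^[10] (fun g => f₀ g - 1 / Fintype.card (Perm α)) g| ≤ ε := by
  set K : ℝ := (48 ^ 2 * (2 * Real.exp 20)) ^ 10 * (2 * Real.exp 20) * 2 ^ 97 with hK
  obtain ⟨x₀, hx⟩ := exists_nat_ge (K / ε ^ 2 + 1)
  have hK0 : 0 ≤ K := by positivity
  have hx1 : (1 : ℝ) ≤ x₀ := le_trans (le_add_of_nonneg_left (by positivity)) hx
  refine ⟨3 * x₀ ^ 16 * (x₀ ^ 16 + 1), fun α _ _ hn blk hd μ hμ hB f₀ h0 h1 p q hpq hs => ?_⟩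
  have h2 := l2_main x₀ (by exact_mod_cast hx1) hn blk hd hμ hB h0 h1 hpq hs
  have h3 := (l1_le_l2 μ (fun g => f₀ g - 1 / Fintype.card (Perm α)) 10).trans h2
  refine abs_le_of_sq_le_sq' (h3.trans ?_) hε.le |>.2
  rw [← hK, div_le_iff₀ (by linarith)]
  have : K / ε ^ 2 ≤ x₀ := by linarith
  rw [div_le_iff₀ (by positivity)] at this
  linarith

end Crest.Agent.R155
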