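import Crest.Agent.R155.LemA
import Crest.Agent.R155.Count

/-!
Row 155.  The `L²` estimate for ten rounds of a weight with nearly uniform marginals.
-/

set_option autoImplicit false

namespace Crest.Agent.R155

open Module Equiv
open scoped InnerProductSpace

/-- real left convolution -/
noncomputable def conv {G : Type} [Group G] [Fintype G] (μ f : G → ℝ) : G → ℝ :=
  fun g => ∑ τ, μ τ * f (τ⁻¹ * g)

section
variable {G : Type} [Group G] [Fintype G]

lemma l2a_sum_conv (μ f : G → ℝ) : ∑ g, conv μ f g = (∑ g, μ g) * ∑ g, f g := by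
  unfold conv
  rw [Finset.sum_comm, Finset.sum_mul]
  refine Finset.sum_congr rfl fun τ _ => ?_
  rw [← Finset.mul_sum]
  congr 1
  exact Equiv.sum_comp (Equiv.mulLeft τ⁻¹) f

lemma l2a_sum_iter (μ f : G → ℝ) (k : ℕ) :
    ∑ g, (conv μ)^[k] f g = (∑ g, μ g) ^ k * ∑ g, f g := by
  induction k with
  | zero => simp
  | succ k ih => rw [Function.iterate_succ_apply', l2a_sum_conv, ih, pow_succ', mul_assoc]

lemma l2a_iter_sub (μ f : G → ℝ) (c : ℝ) (k : ℕ) :
    (conv μ)^[k] (fun g => f g - c) = fun g => (conv μ)^[k] f g - (∑ g, μ g) ^ k * c := by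
  induction k with
  | zero => simp
  | succ k ih =>
    rw [Function.iterate_succ_apply', Function.iterate_succ_apply', ih]
    funext g
    simp only [conv, mul_sub, Finset.sum_sub_distrib, ← Finset.sum_mul]
    ring

lemma l2a_iter_le {μ μ' f : G → ℝ} (h0 : ∀ g, 0 ≤ μ' g) (h1 : ∀ g, μ' g ≤ μ g) (h3 : ∀ g, 0 ≤ f g)
    (k : ℕ) : ∀ g, 0 ≤ (conv μ')^[k] f g ∧ (conv μ')^[k] f g ≤ (conv μ)^[k] f g := by
  induction k with
  | zero => exact fun g => ⟨h3 g, le_rfl⟩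
  | succ k ih =>
    intro g
    rw [Function.iterate_succ_apply', Function.iterate_succ_apply']
    exact ⟨Finset.sum_nonneg fun τ _ => mul_nonneg (h0 τ) (ih _).1,
      Finset.sum_le_sum fun τ _ => mul_le_mul (h1 τ) (ih _).2 (ih _).1 ((h0 τ).trans (h1 τ))⟩

lemma l2a_cv_iter (μ f : G → ℝ) (k : ℕ) :
    (Cv μ)^[k] (WithLp.toLp 2 fun g => (f g : ℂ)) =
      WithLp.toLp 2 fun g => (((conv μ)^[k] f g : ℝ) : ℂ) := by
  induction k with
  | zero => rfl
  | succ k ih =>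
    rw [Function.iterate_succ_apply', Function.iterate_succ_apply', ih, Cv_apply]
    ext g
    simp [conv]

end

/-- the marginal hypothesis for the block `b` -/
def Marg {α : Type} [Fintype α] [DecidableEq α] (μ : Perm α → ℝ) (b : Finset α) : Prop :=
  ∀ τ : Perm α, ∑ h : Perm {x // x ∈ b}, μ (τ * Perm.ofSubtype h) ≤
    3 * Fintype.card (Perm {x // x ∈ b}) / Fintype.card (Perm α)

/-- Norm bound on an irreducible piece: `lemA` with `r = 16`, `H i = Perm {x // x ∈ blk i}`,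
`ι i = Perm.ofSubtype` (disjoint supports commute), `N = 2 e^20 X^6` (`finrank_low`), `B = 3`;
`‖Cv μ v‖² ≤ 48² N / d ‖v‖²` and `d ≥ X^16`; iterate ten times (`LInv.cv`). -/
lemma irr_bound {α : Type} [Fintype α] [DecidableEq α] (blk : Fin 16 → Finset α)
    (hd : ∀ i j, i ≠ j → Disjoint (blk i) (blk j)) {μ : Perm α → ℝ} (hμ : ∀ g, 0 ≤ μ g)
    (hB : ∀ i, Marg μ (blk i)) {V : Submodule ℂ (HS (Perm α))} (hV : Irr V) {X : ℕ} (hX : 1 ≤ X)
    (h1 : X ^ 16 ≤ finrank ℂ V) (h2 : finrank ℂ V < (X + 1) ^ 16) {v : HS (Perm α)} (hv : v ∈ V) :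
    ‖(Cv μ)^[10] v‖ ^ 2 ≤ (48 ^ 2 * (2 * Real.exp 20)) ^ 10 / (X : ℝ) ^ 100 * ‖v‖ ^ 2 := by
  have hX' : (0 : ℝ) < X := by exact_mod_cast hX
  have hd' : ((X : ℝ)) ^ 16 ≤ finrank ℂ V := by exact_mod_cast h1
  have step : ∀ v ∈ V, ‖Cv μ v‖ ^ 2 ≤ 48 ^ 2 * (2 * Real.exp 20) / (X : ℝ) ^ 10 * ‖v‖ ^ 2 := by
    intro v hv
    have h := lemA (r := 16) (H := fun i => Perm {x // x ∈ blk i}) (fun i => Perm.ofSubtype)
      (fun i j hij a b => Perm.Disjoint.commute fun x => by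
        by_cases hx : x ∈ blk i
        · exact Or.inr (Perm.ofSubtype_apply_of_not_mem b
            (Finset.disjoint_left.1 (hd i j hij) hx))
        · exact Or.inl (Perm.ofSubtype_apply_of_not_mem a hx))
      (fun i => finrank_low _ X) (B := 3) (by norm_num) hμ hB hV h2 hv
    refine (pow_le_pow_left₀ (norm_nonneg _) h 2).trans ?_
    rw [mul_pow, mul_pow, Real.sq_sqrt (by positivity)]
    refine mul_le_mul_of_nonneg_right ?_ (by positivity)
    have e : (2 * Real.exp 20 * (X : ℝ) ^ 6) / finrank ℂ V ≤ 2 * Real.exp 20 / (X : ℝ) ^ 10 := by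
      refine (div_le_div_of_nonneg_left (by positivity) (by positivity) hd').trans (le_of_eq ?_)
      field_simp
    rw [mul_div_assoc ((48 : ℝ) ^ 2)]
    refine mul_le_mul (le_of_eq ?_) e (by positivity) (by positivity)
    norm_num
  have it : ∀ k : ℕ, (Cv μ)^[k] v ∈ V ∧
      ‖(Cv μ)^[k] v‖ ^ 2 ≤ (48 ^ 2 * (2 * Real.exp 20) / (X : ℝ) ^ 10) ^ k * ‖v‖ ^ 2 := by
    intro k
    induction k with
    | zero => exact ⟨hv, by simp⟩
    | succ k ih =>
      rw [Function.iterate_succ_apply', pow_succ' _ k, mul_assoc]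
      exact ⟨hV.2.1.cv μ ih.1, (step _ ih.1).trans (mul_le_mul_of_nonneg_left ih.2 (by positivity))⟩
  have := (it 10).2
  rwa [div_pow, ← pow_mul] at this

/-- the functions fixed by all three-cycles -/
def FixS (α : Type) [Fintype α] [DecidableEq α] : Submodule ℂ (HS (Perm α)) where
  carrier := {w | Fix3 ∅ w}
  add_mem' := fun ha hb p q r h hp hq hr => by rw [map_add, ha p q r h hp hq hr, hb p q r h hp hq hr]
  zero_mem' := fun p q r _ _ _ _ => map_zero _
  smul_mem' := fun c w hw p q r h hp hq hr => by rw [map_smul, hw p q r h hp hq hr]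

/-- `cyc_conj` -/
lemma fixS_linv (α : Type) [Fintype α] [DecidableEq α] : LInv (FixS α) := by
  intro g w hw p q r h _ _ _
  have e : Crest.Agent.R189.cyc p q r * g = g * Crest.Agent.R189.cyc (g⁻¹ p) (g⁻¹ q) (g⁻¹ r) := by
    rw [← Crest.Agent.R189.cyc_conj]
    group
  rw [← Lt_mul, e, Lt_mul, hw _ _ _ (h.map g⁻¹.injective) (by simp) (by simp) (by simp)]

/-- Plan: for `w ∈ FixS`, `w + Lt t w` (`t = swap p q`) is fixed by all permutations
(`Fix3.swap_eq`, `fix_of_swaps` with `J = ∅`), hence constant; `2 ⟪w, g₀⟫ = ⟪w + Lt t w, g₀⟫ = 0`. -/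
lemma mem_fixS_orth {α : Type} [Fintype α] [DecidableEq α] {g₀ : HS (Perm α)} {p q : α} (hpq : p ≠ q)
    (h1 : Lt (swap p q) g₀ = g₀) (h2 : ∑ g, g₀ g = 0) : g₀ ∈ (FixS α)ᗮ := by
  rw [Submodule.mem_orthogonal]
  intro w hw
  have hw' : Lt (swap p q) w ∈ FixS α := fixS_linv α _ w hw
  have h3 : ∀ g : Perm α, Lt g (w + Lt (swap p q) w) = w + Lt (swap p q) w := fun g =>
    fix_of_swaps (J := ∅) (fun x y hxy hx hy => by
      rw [map_add, Fix3.swap_eq hw hpq (by simp) (by simp) hxy hx hy,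
        Fix3.swap_eq hw' hpq (by simp) (by simp) hxy hx hy, ← Lt_mul, swap_mul_self, Lt_one,
        add_comm]) (by simp)
  have h4 : ∀ g : Perm α, (w + Lt (swap p q) w) g = (w + Lt (swap p q) w) 1 := fun g => by
    conv_rhs => rw [← h3 g⁻¹, Lt_apply, inv_inv, mul_one]
  have h5 : ⟪w + Lt (swap p q) w, g₀⟫_ℂ = 0 := by
    rw [PiLp.inner_apply]
    simp only [h4, RCLike.inner_apply']
    rw [← Finset.mul_sum, h2, mul_zero]
  rw [inner_add_left, inner_Lt_left, swap_inv, h1, ← two_mul] at h5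
  exact (mul_eq_zero.1 h5).resolve_left two_ne_zero

/-- `Cv` on real functions is `conv`; Cauchy–Schwarz. -/
lemma l1_le_l2 {G : Type} [Group G] [Fintype G] (μ f : G → ℝ) (k : ℕ) :
    (∑ g, |(conv μ)^[k] f g|) ^ 2 ≤
      (Fintype.card G : ℝ) * ‖(Cv μ)^[k] (WithLp.toLp 2 fun g => (f g : ℂ))‖ ^ 2 := by
  rw [l2a_cv_iter, EuclideanSpace.norm_sq_eq]
  refine sq_sum_le_card_mul_sum_sq.trans (le_of_eq ?_)
  simp only [Finset.card_univ, Complex.norm_real, Real.norm_eq_abs]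

/-- Truncation.  Plan: `0 ≤ (conv μ')^[k] f₀ ≤ (conv μ)^[k] f₀` pointwise; with `a = ∑ μ'`,
`∑ (conv μ)^[k] f₀ = 1`, `∑ (conv μ')^[k] f₀ = a^k`, `(conv μ')^[k] (const c) = a^k c`, `conv` is
additive in `f`, and `1 - a^k ≤ k (1 - a)` (Bernoulli, `one_add_mul_le_pow`). -/
theorem trunc {G : Type} [Group G] [Fintype G] {μ μ' f₀ : G → ℝ} (h0 : ∀ g, 0 ≤ μ' g)
    (h1 : ∀ g, μ' g ≤ μ g) (h2 : ∑ g, μ g = 1) (h3 : ∀ g, 0 ≤ f₀ g) (h4 : ∑ g, f₀ g = 1) (k : ℕ) :
    ∑ g, |(conv μ)^[k] f₀ g - 1 / Fintype.card G| ≤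
      2 * k * (1 - ∑ g, μ' g) + ∑ g, |(conv μ')^[k] (fun g => f₀ g - 1 / Fintype.card G) g| := by
  have hG : (0 : ℝ) < Fintype.card G := by exact_mod_cast Fintype.card_pos
  set a := ∑ g, μ' g with ha
  have a0 : 0 ≤ a := Finset.sum_nonneg fun g _ => h0 g
  have a1 : a ≤ 1 := h2 ▸ Finset.sum_le_sum fun g _ => h1 g
  have a2 : a ^ k ≤ 1 := pow_le_one₀ a0 a1
  have a3 : 1 - a ^ k ≤ k * (1 - a) := by
    have := one_add_mul_le_pow (a := a - 1) (by linarith) k
    rw [add_sub_cancel] at this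
    linarith
  rw [l2a_iter_sub]
  have key : ∀ g, |(conv μ)^[k] f₀ g - 1 / Fintype.card G| ≤
      ((conv μ)^[k] f₀ g - (conv μ')^[k] f₀ g) + (1 - a ^ k) * (1 / Fintype.card G) +
        |(conv μ')^[k] f₀ g - a ^ k * (1 / Fintype.card G)| := fun g => by
    have b1 := (l2a_iter_le h0 h1 h3 k g).2
    have b2 : 0 ≤ (1 - a ^ k) * (1 / Fintype.card G) := mul_nonneg (by linarith) (by positivity)
    have b3 := le_abs_self ((conv μ')^[k] f₀ g - a ^ k * (1 / Fintype.card G))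
    have b4 := neg_abs_le ((conv μ')^[k] f₀ g - a ^ k * (1 / Fintype.card G))
    rw [abs_le]
    constructor <;> linarith
  refine (Finset.sum_le_sum fun g _ => key g).trans ?_
  rw [Finset.sum_add_distrib, Finset.sum_add_distrib, Finset.sum_sub_distrib, l2a_sum_iter,
    l2a_sum_iter, h2, h4, Finset.sum_const, Finset.card_univ, nsmul_eq_mul, ← ha]
  have e : (Fintype.card G : ℝ) * ((1 - a ^ k) * (1 / Fintype.card G)) = 1 - a ^ k := by
    field_simp
  rw [e, one_pow]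
  linarith

end Crest.Agent.R155
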