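import Crest.Agent.R155.LemA2

/-!
Row 155.  A weight with nearly uniform marginals on the cosets of several commuting subgroups is
small on every irreducible representation of large dimension.
-/

set_option autoImplicit false

namespace Crest.Agent.R155

open Module
open scoped InnerProductSpace

variable {G : Type} [Group G] [Fintype G]

theorem lemA {r : ℕ} {H : Fin r → Type} [∀ i, Group (H i)] [∀ i, Fintype (H i)] (ι : ∀ i, H i →* G)
    (hc : ∀ i j, i ≠ j → ∀ a b, Commute (ι i a) (ι j b)) {X : ℕ} {N B : ℝ}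
    (hN : ∀ i, (finrank ℂ (Low (H i) X) : ℝ) ≤ N) (hB0 : 0 ≤ B) {μ : G → ℝ} (hμ : ∀ g, 0 ≤ μ g)
    (hB : ∀ i τ, ∑ h : H i, μ (τ * ι i h) ≤ B * Fintype.card (H i) / Fintype.card G)
    {V : Submodule ℂ (HS G)} (hV : Irr V) (hd : finrank ℂ V < (X + 1) ^ r) {v : HS G} (hv : v ∈ V) :
    ‖Cv μ v‖ ≤ r * B * √(N / finrank ℂ V) * ‖v‖ := by
  obtain ⟨w, hw, e⟩ := lemA_split ι hc hV.2.1 hd hv
  have h1 : ‖Cv μ v‖ ≤ ∑ i, ‖Cv μ (w i)‖ := by
    conv_lhs => rw [e, map_sum]
    exact norm_sum_le _ _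
  refine h1.trans ?_
  have h2 : ∀ i, ‖Cv μ (w i)‖ ≤ B * √(N / finrank ℂ V) * ‖v‖ := fun i =>
    (lemA_one (ι i) (hN i) hB0 hμ (hB i) hV (hw i).1).trans
      (mul_le_mul_of_nonneg_left (hw i).2 (by positivity))
  refine (Finset.sum_le_sum fun i _ => h2 i).trans (le_of_eq ?_)
  simp only [Finset.sum_const, Finset.card_univ, Fintype.card_fin, nsmul_eq_mul]
  ring

end Crest.Agent.R155
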