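import Crest.Agent.R155.Reg

/-!
Row 155.  A weight with nearly uniform marginals on the cosets of several commuting subgroups is
small on every irreducible representation of large dimension.
-/

set_option autoImplicit false

namespace Crest.Agent.R155

open Module
open scoped InnerProductSpace

variable {G : Type} [Group G] [Fintype G]

/-- the span of the `H`-invariant subspaces of `V` of dimension at most `X` -/
def LowIn {H : Type} [Group H] (ι : H →* G) (V : Submodule ℂ (HS G)) (X : ℕ) :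
    Submodule ℂ (HS G) :=
  sSup {U | U ≤ V ∧ (∀ h : H, ∀ u ∈ U, Lt (ι h) u ∈ U) ∧ finrank ℂ U ≤ X}

omit [Fintype G] in
lemma lowIn_le {H : Type} [Group H] (ι : H →* G) (V : Submodule ℂ (HS G)) (X : ℕ) :
    LowIn ι V X ≤ V := sSup_le fun _ hU => hU.1

/-- matrix coefficients along a subgroup -/
noncomputable def lemA1_Θ {H : Type} [Group H] (ι : H →* G) (w : HS G) : HS G →ₗ[ℂ] HS H where
  toFun v := WithLp.toLp 2 (fun h => ⟪w, Lt (ι h⁻¹) v⟫_ℂ)
  map_add' x y := by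
    ext h
    simp [inner_add_right]
  map_smul' c x := by
    ext h
    simp [inner_smul_right]

lemma lemA1_Θ_apply {H : Type} [Group H] (ι : H →* G) (w v : HS G) (h : H) :
    lemA1_Θ ι w v h = ⟪w, Lt (ι h⁻¹) v⟫_ℂ := rfl

lemma lemA1_low {H : Type} [Group H] [Fintype H] (ι : H →* G) (w : HS G) {X : ℕ}
    {V : Submodule ℂ (HS G)} {v : HS G} (hv : v ∈ LowIn ι V X) : lemA1_Θ ι w v ∈ Low H X := by
  have : LowIn ι V X ≤ (Low H X).comap (lemA1_Θ ι w) := by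
    refine sSup_le fun U hU => Submodule.map_le_iff_le_comap.1 (le_low ?_ ?_)
    · rintro k _ ⟨u, hu, rfl⟩
      refine ⟨Lt (ι k) u, hU.2.1 k u hu, ?_⟩
      ext h
      rw [Lt_apply, lemA1_Θ_apply, lemA1_Θ_apply, ← Lt_mul, ← map_mul, mul_inv_rev, inv_inv]
    · exact (Submodule.finrank_map_le _ _).trans hU.2.2
  exact this hv

/-- One subgroup.  Plan: for `w : HS G` the linear map `Θ w : HS G → HS H`,
`Θ w v h = ⟪w, Lt (ι h⁻¹) v⟫`, is equivariant, so it maps `LowIn ι V X` into `Low H X`; `rk_bound`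
gives `‖φ (τ * ι h)‖² ≤ N / |H| * ∑ h', ‖φ (τ * ι h')‖²` for `φ g = ⟪u, Lt g v⟫` (take
`w = Lt τ⁻¹ u`).  With `M τ = √(N / |H| * ∑ h', ‖φ (τ * ι h')‖²)`:
`|H| * ∑ τ, μ τ ‖φ τ‖ = ∑ τ h, μ (τ ι h) ‖φ (τ ι h)‖ ≤ B |H| / |G| * ∑ τ, M τ`, Cauchy–Schwarz and
`schur_orth` give `∑ τ, M τ ≤ |G| √(N/d) ‖u‖ ‖v‖`.  Apply with `u = Cv μ v ∈ V`. -/
lemma lemA_one {H : Type} [Group H] [Fintype H] (ι : H →* G) {X : ℕ} {N B : ℝ}
    (hN : (finrank ℂ (Low H X) : ℝ) ≤ N) (hB0 : 0 ≤ B) {μ : G → ℝ} (hμ : ∀ g, 0 ≤ μ g)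
    (hB : ∀ τ, ∑ h : H, μ (τ * ι h) ≤ B * Fintype.card H / Fintype.card G)
    {V : Submodule ℂ (HS G)} (hV : Irr V) {v : HS G} (hv : v ∈ LowIn ι V X) :
    ‖Cv μ v‖ ≤ B * √(N / finrank ℂ V) * ‖v‖ := by
  have hG : (0 : ℝ) < Fintype.card G := by exact_mod_cast Fintype.card_pos
  have hH : (0 : ℝ) < Fintype.card H := by exact_mod_cast Fintype.card_pos
  have hd : (0 : ℝ) < finrank ℂ V := by exact_mod_cast Submodule.one_le_finrank_iff.2 hV.1
  have hN0 : 0 ≤ N := le_trans (Nat.cast_nonneg _) hN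
  have hvV : v ∈ V := lowIn_le ι V X hv
  set u := Cv μ v with hu
  have huV : u ∈ V := hV.2.1.cv μ hvV
  set a : G → ℝ := fun g => ‖⟪u, Lt g v⟫_ℂ‖ with ha
  set M : G → ℝ := fun τ => √(N / Fintype.card H * ∑ h : H, a (τ * ι h) ^ 2) with hM
  have h1 : ∀ τ h, a (τ * ι h) ≤ M τ := fun τ h => by
    have e : ∀ k : H, lemA1_Θ ι (Lt τ⁻¹ u) v k⁻¹ = ⟪u, Lt (τ * ι k) v⟫_ℂ := fun k => by
      rw [lemA1_Θ_apply, inner_Lt_left, inv_inv, inv_inv, Lt_mul]
    have b := rk_bound (low_linv X) (lemA1_low ι (Lt τ⁻¹ u) hv) h⁻¹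
    rw [EuclideanSpace.norm_sq_eq, ← Equiv.sum_comp (Equiv.inv H)] at b
    simp only [Equiv.inv_apply, e] at b
    refine Real.le_sqrt_of_sq_le (b.trans ?_)
    gcongr
  have sh : ∀ F : G → ℝ, ∑ τ, ∑ h : H, F (τ * ι h) = Fintype.card H * ∑ τ, F τ := fun F => by
    rw [Finset.sum_comm]
    have e : ∀ h : H, ∑ τ, F (τ * ι h) = ∑ τ, F τ := fun h =>
      Equiv.sum_comp (Equiv.mulRight (ι h)) F
    simp [e]
  have h2 : Fintype.card H * ∑ τ, μ τ * a τ ≤ B * Fintype.card H / Fintype.card G * ∑ τ, M τ := by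
    rw [← sh fun τ => μ τ * a τ, Finset.mul_sum]
    refine Finset.sum_le_sum fun τ _ => ?_
    refine (Finset.sum_le_sum fun h _ => mul_le_mul_of_nonneg_left (h1 τ h) (hμ _)).trans ?_
    rw [← Finset.sum_mul]
    exact mul_le_mul_of_nonneg_right (hB τ) (Real.sqrt_nonneg _)
  have h3 : ∑ τ, M τ ≤ Fintype.card G * (√(N / finrank ℂ V) * (‖u‖ * ‖v‖)) := by
    refine le_of_sq_le_sq (sq_sum_le_card_mul_sum_sq.trans (le_of_eq ?_)) (by positivity)
    have e : ∀ τ, M τ ^ 2 = N / Fintype.card H * ∑ h : H, a (τ * ι h) ^ 2 := fun τ =>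
      Real.sq_sqrt (by positivity)
    simp only [e]
    rw [← Finset.mul_sum, sh fun g => a g ^ 2, schur_orth hV huV hvV, mul_pow, mul_pow,
      Real.sq_sqrt (by positivity), Finset.card_univ]
    field_simp
  have h4 : ‖u‖ ^ 2 ≤ ∑ τ, μ τ * a τ := by
    have e : ⟪u, u⟫_ℂ = ∑ τ, (μ τ : ℂ) * ⟪u, Lt τ v⟫_ℂ := by
      conv_lhs => rw [hu, Cv_apply, inner_sum, ← Cv_apply, ← hu]
      simp only [inner_smul_right]
    rw [← @inner_self_eq_norm_sq ℂ, e]
    refine (RCLike.re_le_norm _).trans ((norm_sum_le _ _).trans (le_of_eq ?_))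
    refine Finset.sum_congr rfl fun τ _ => ?_
    rw [norm_mul, Complex.norm_real, Real.norm_of_nonneg (hμ τ)]
  have h5 : ∑ τ, μ τ * a τ ≤ B * (√(N / finrank ℂ V) * (‖u‖ * ‖v‖)) := by
    refine le_of_mul_le_mul_left (h2.trans ?_) hH
    refine (mul_le_mul_of_nonneg_left h3 (by positivity)).trans (le_of_eq ?_)
    field_simp
  rcases (norm_nonneg u).eq_or_lt with h0 | h0
  · rw [← h0]
    positivity
  · refine le_of_mul_le_mul_left ?_ h0
    nlinarith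

end Crest.Agent.R155
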