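import Crest.Agent.R155.LemA1

/-!
Row 155.  A weight with nearly uniform marginals on the cosets of several commuting subgroups is
small on every irreducible representation of large dimension.
-/

set_option autoImplicit false

namespace Crest.Agent.R155

open Module
open scoped InnerProductSpace

variable {G : Type} [Group G] [Fintype G]

omit [Fintype G] in
/-- a map commuting with the subgroup and preserving `V` preserves `LowIn` -/
lemma lemA2_map {H : Type} [Group H] (ι : H →* G) {V : Submodule ℂ (HS G)} (X : ℕ) [Finite G]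
    {T : Module.End ℂ (HS G)} (h1 : ∀ u ∈ V, T u ∈ V)
    (h2 : ∀ h u, T (Lt (ι h) u) = Lt (ι h) (T u)) : ∀ u ∈ LowIn ι V X, T u ∈ LowIn ι V X := by
  have := Fintype.ofFinite G
  have : LowIn ι V X ≤ (LowIn ι V X).comap T := by
    refine sSup_le fun U hU => Submodule.map_le_iff_le_comap.1 (le_sSup ⟨?_, ?_, ?_⟩)
    · rintro _ ⟨u, hu, rfl⟩
      exact h1 u (hU.1 hu)
    · rintro h _ ⟨u, hu, rfl⟩
      exact ⟨_, hU.2.1 h u hu, h2 h u⟩
    · exact (Submodule.finrank_map_le _ _).trans hU.2.2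
  exact fun u hu => this hu

omit [Fintype G] in
lemma lemA2_self {H : Type} [Group H] (ι : H →* G) (V : Submodule ℂ (HS G)) (X : ℕ) (h : H) :
    ∀ u ∈ LowIn ι V X, Lt (ι h) u ∈ LowIn ι V X := by
  have : LowIn ι V X ≤ (LowIn ι V X).comap (Lt (ι h)) :=
    sSup_le fun U hU u hu => (le_sSup (s := {U | U ≤ V ∧ (∀ h : H, ∀ u ∈ U, Lt (ι h) u ∈ U) ∧
      finrank ℂ U ≤ X}) hU) (hU.2.1 h u hu)
  exact fun u hu => this hu

/-- Splitting.  Plan: `W i = LowIn (ι i) V X` is invariant under every `Lt (ι j h)` (the image of a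
small `H i`-invariant subspace under a commuting injective map is again one), so the orthogonal
projection `P i` onto `W i` commutes with all `Lt (ι j h)` and therefore maps `W l` into `W l` and
`(W l)ᗮ` into `(W l)ᗮ`.  By induction over finsets `s`, `v = ∑ i ∈ s, w i + ρ` with `w i ∈ W i`,
`‖w i‖ ≤ ‖v‖`, `‖ρ‖ ≤ ‖v‖`, `ρ ∈ (W i)ᗮ` for `i ∈ s`.  `V ⊓ ⨅ i, (W i)ᗮ = ⊥` by `prod_dim` with
`X + 1` and `𝒜 i = Set.range (fun h => Lt (ι i h))`. -/
lemma lemA_split {r : ℕ} {H : Fin r → Type} [∀ i, Group (H i)] (ι : ∀ i, H i →* G)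
    (hc : ∀ i j, i ≠ j → ∀ a b, Commute (ι i a) (ι j b)) {X : ℕ} {V : Submodule ℂ (HS G)}
    (hV : LInv V) (hd : finrank ℂ V < (X + 1) ^ r) {v : HS G} (hv : v ∈ V) :
    ∃ w : Fin r → HS G, (∀ i, w i ∈ LowIn (ι i) V X ∧ ‖w i‖ ≤ ‖v‖) ∧ v = ∑ i, w i := by
  classical
  set W : Fin r → Submodule ℂ (HS G) := fun i => LowIn (ι i) V X with hW
  have hWV : ∀ i, W i ≤ V := fun i => lowIn_le _ _ _
  have h1 : ∀ i j h, ∀ u ∈ W i, Lt (ι j h) u ∈ W i := fun i j h => by
    by_cases e : i = j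
    · subst e
      exact lemA2_self _ _ _ h
    · exact lemA2_map (ι i) X (hV _) fun k u => by
        rw [← Lt_mul, ← Lt_mul, (hc i j e k h).eq]
  have h2 : ∀ i j h, ∀ u ∈ (W i)ᗮ, Lt (ι j h) u ∈ (W i)ᗮ := fun i j h u hu => by
    rw [Submodule.mem_orthogonal] at hu ⊢
    intro w hw
    have := inner_Lt_left (ι j h⁻¹) w u
    rw [map_inv, inv_inv] at this
    rw [← this, ← map_inv]
    exact hu _ (h1 i j _ w hw)
  have h3 : ∀ i l, ∀ u ∈ W l, (W i).starProjection u ∈ W l := fun i l =>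
    lemA2_map (ι l) X (T := ((W i).starProjection : HS G →ₗ[ℂ] HS G))
      (fun u _ => hWV i ((W i).starProjection_apply_mem u))
      fun h u => reg_proj_comm (h1 i l h) (h2 i l h) u
  have h4 : ∀ i l, ∀ u ∈ (W l)ᗮ, (W i).starProjection u ∈ (W l)ᗮ := fun i l u hu => by
    rw [Submodule.mem_orthogonal] at hu ⊢
    intro w hw
    rw [← Submodule.inner_starProjection_left_eq_right]
    exact hu _ (h3 i l w hw)
  have h5 : V ⊓ ⨅ i, (W i)ᗮ = ⊥ := by
    by_contra hn
    have := prod_dim (X + 1) Finset.univ (HS G) (fun i => Set.range fun h => Lt (ι i h)) _ hn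
      (by
        rintro i - _ ⟨h, rfl⟩ u ⟨hu1, hu2⟩
        refine ⟨hV _ u hu1, ?_⟩
        simp only [SetLike.mem_coe, Submodule.mem_iInf] at hu2 ⊢
        exact fun l => h2 l i h u (hu2 l))
      (by
        rintro i - j - hij _ ⟨h, rfl⟩ _ ⟨k, rfl⟩
        refine LinearMap.ext fun u => ?_
        show Lt (ι i h) (Lt (ι j k) u) = Lt (ι j k) (Lt (ι i h) u)
        rw [← Lt_mul, ← Lt_mul, (hc i j hij h k).eq])
      (by
        intro i _ U hU hU0 hUi
        by_contra hlt
        have a1 : U ≤ W i :=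
          le_sSup ⟨hU.trans inf_le_left, fun h => hUi _ ⟨h, rfl⟩, by omega⟩
        have a2 : U ≤ (W i)ᗮ := hU.trans (inf_le_right.trans (iInf_le _ i))
        exact hU0 (le_bot_iff.1 ((W i).inf_orthogonal_eq_bot ▸ le_inf a1 a2)))
    rw [Finset.card_univ, Fintype.card_fin] at this
    exact absurd (this.trans (Submodule.finrank_mono inf_le_left)) (not_le.2 hd)
  have h6 : ∀ s : Finset (Fin r), ∃ (w : Fin r → HS G) (ρ : HS G),
      (∀ i, w i ∈ W i ∧ ‖w i‖ ≤ ‖v‖) ∧ ρ ∈ V ∧ ‖ρ‖ ≤ ‖v‖ ∧ (∀ i ∈ s, ρ ∈ (W i)ᗮ) ∧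
        v = ∑ i ∈ s, w i + ρ := by
    intro s
    induction s using Finset.induction_on with
    | empty => exact ⟨0, v, fun i => ⟨(W i).zero_mem, by simp⟩, hv, le_rfl, by simp, by simp⟩
    | insert a s ha ih =>
      obtain ⟨w, ρ, a1, a2, a3, a4, a5⟩ := ih
      refine ⟨Function.update w a ((W a).starProjection ρ), ρ - (W a).starProjection ρ,
        fun i => ?_, V.sub_mem a2 (hWV a ((W a).starProjection_apply_mem ρ)), ?_, fun i hi => ?_, ?_⟩
      · by_cases e : i = a
        · subst e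
          rw [Function.update_self]
          exact ⟨(W i).starProjection_apply_mem ρ, ((W i).norm_starProjection_apply_le ρ).trans a3⟩
        · rw [Function.update_of_ne e]
          exact a1 i
      · rw [← Submodule.starProjection_orthogonal_val]
        exact (Submodule.norm_starProjection_apply_le _ ρ).trans a3
      · rcases Finset.mem_insert.1 hi with rfl | hi
        · exact Submodule.sub_starProjection_mem_orthogonal ρ
        · exact Submodule.sub_mem _ (a4 i hi) (h4 a i ρ (a4 i hi))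
      · rw [Finset.sum_insert ha, Function.update_self,
          Finset.sum_congr rfl fun i hi => Function.update_of_ne (ne_of_mem_of_not_mem hi ha) _ _]
        conv_lhs => rw [a5]
        abel
  obtain ⟨w, ρ, a1, a2, -, a4, a5⟩ := h6 Finset.univ
  have : ρ ∈ V ⊓ ⨅ i, (W i)ᗮ :=
    ⟨a2, (Submodule.mem_iInf _).2 fun i => a4 i (Finset.mem_univ i)⟩
  rw [h5, Submodule.mem_bot] at this
  exact ⟨w, a1, by rw [a5, this, add_zero]⟩

end Crest.Agent.R155
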