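import Mathlib

/-!
Row 155.  Linear algebra: Schur's lemma and the product bound for commuting families.
-/

set_option autoImplicit false

namespace Crest.Agent.R155

open Module

/-- `U` is invariant under all members of `𝒜` -/
def Inv {V : Type} [AddCommGroup V] [Module ℂ V] (𝒜 : Set (Module.End ℂ V)) (U : Submodule ℂ V) :
    Prop := ∀ a ∈ 𝒜, ∀ u ∈ U, a u ∈ U

/-- Schur's lemma.  Plan: if `U ≠ ⊥`, `A.restrict` has an eigenvalue `c`
(`Module.End.exists_eigenvalue`); `U ⊓ ker (A - c)` is invariant and non-zero. -/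
lemma schur {V : Type} [AddCommGroup V] [Module ℂ V] [FiniteDimensional ℂ V]
    {𝒜 : Set (Module.End ℂ V)} {U : Submodule ℂ V} (hU : Inv 𝒜 U)
    (hirr : ∀ U' ≤ U, Inv 𝒜 U' → U' = ⊥ ∨ U' = U) (A : Module.End ℂ V) (hA : ∀ u ∈ U, A u ∈ U)
    (hc : ∀ a ∈ 𝒜, ∀ u ∈ U, A (a u) = a (A u)) : ∃ c : ℂ, ∀ u ∈ U, A u = c • u := by
  by_cases h0 : U = ⊥
  · refine ⟨0, fun u hu => ?_⟩
    rw [h0, Submodule.mem_bot] at hu
    rw [hu, map_zero, smul_zero]
  · haveI : Nontrivial U := Submodule.nontrivial_iff_ne_bot.2 h0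
    obtain ⟨c, hc'⟩ := Module.End.exists_eigenvalue (A.restrict hA)
    obtain ⟨v, hv⟩ := hc'.exists_hasEigenvector
    have hv1 : A v = c • (v : V) := congrArg Subtype.val hv.apply_eq_smul
    rcases hirr (U ⊓ A.eigenspace c) inf_le_left (fun a ha u hu => ⟨hU a ha u hu.1, by
      have := Module.End.mem_eigenspace_iff.1 hu.2
      refine Module.End.mem_eigenspace_iff.2 ?_
      rw [hc a ha u hu.1, this, map_smul]⟩) with h | h
    · have : (v : V) ∈ U ⊓ A.eigenspace c := ⟨v.2, Module.End.mem_eigenspace_iff.2 hv1⟩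
      rw [h, Submodule.mem_bot] at this
      exact absurd (Subtype.ext this) hv.2
    · refine ⟨c, fun u hu => ?_⟩
      rw [← h] at hu
      exact Module.End.mem_eigenspace_iff.1 hu.2

/-- a non-zero invariant subspace contains a minimal non-zero invariant subspace -/
lemma exists_minimal {V : Type} [AddCommGroup V] [Module ℂ V] [FiniteDimensional ℂ V]
    {𝒜 : Set (Module.End ℂ V)} {W : Submodule ℂ V} (hW : W ≠ ⊥) (hi : Inv 𝒜 W) :
    ∃ U ≤ W, U ≠ ⊥ ∧ Inv 𝒜 U ∧ ∀ U' ≤ U, Inv 𝒜 U' → U' = ⊥ ∨ U' = U := by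
  obtain ⟨U, ⟨h1, h2, h3⟩, h4⟩ := IsArtinian.set_has_minimal
    {U : Submodule ℂ V | U ≤ W ∧ U ≠ ⊥ ∧ Inv 𝒜 U} ⟨W, le_rfl, hW, hi⟩
  refine ⟨U, h1, h2, h3, fun U' hU' hi' => ?_⟩
  by_cases h : U' = ⊥
  · exact Or.inl h
  · exact Or.inr (by_contra fun hne => h4 U' ⟨hU'.trans h1, h, hi'⟩ (lt_of_le_of_ne hU' hne))

lemma lin_rank_map {V V' : Type} [AddCommGroup V] [Module ℂ V] [FiniteDimensional ℂ V]
    [AddCommGroup V'] [Module ℂ V'] (L : V →ₗ[ℂ] V') (W : Submodule ℂ V) :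
    finrank ℂ (W.map L) + finrank ℂ (W ⊓ LinearMap.ker L : Submodule ℂ V) = finrank ℂ W := by
  have h := LinearMap.finrank_range_add_finrank_ker (L.domRestrict W)
  rw [LinearMap.range_domRestrict, LinearMap.ker_domRestrict] at h
  rw [← h]
  congr 1
  have e : (LinearMap.ker L).comap W.subtype = (W ⊓ LinearMap.ker L).comap W.subtype := by
    ext x
    simp
  rw [e]
  exact (Submodule.comapSubtypeEquivOfLe inf_le_left).finrank_eq.symm

lemma lin_inj {κ U V : Type} [AddCommGroup U] [Module ℂ U] [AddCommGroup V] [Module ℂ V]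
    {aU : κ → Module.End ℂ U} {aV : κ → Module.End ℂ V}
    (hs : ∀ U' : Submodule ℂ U, (∀ k, ∀ u ∈ U', aU k u ∈ U') → U' = ⊥ ∨ U' = ⊤)
    {f : U →ₗ[ℂ] V} (h0 : f ≠ 0) (hf : ∀ k u, f (aU k u) = aV k (f u)) : Function.Injective f := by
  rcases hs (LinearMap.ker f) (fun k u hu => by
    rw [LinearMap.mem_ker] at hu ⊢
    rw [hf, hu, map_zero]) with h | h
  · exact LinearMap.ker_eq_bot.1 h
  · exact absurd (LinearMap.ker_eq_top.1 h) h0

lemma lin_hom_dim {κ U : Type} [AddCommGroup U] [Module ℂ U] [FiniteDimensional ℂ U]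
    (aU : κ → Module.End ℂ U)
    (hs : ∀ U' : Submodule ℂ U, (∀ k, ∀ u ∈ U', aU k u ∈ U') → U' = ⊥ ∨ U' = ⊤) (n : ℕ) :
    ∀ (V : Type) [AddCommGroup V] [Module ℂ V] [FiniteDimensional ℂ V] (aV : κ → Module.End ℂ V)
      (W : Submodule ℂ V) (W' : Submodule ℂ (U →ₗ[ℂ] V)), finrank ℂ W' = n →
      (∀ f ∈ W', ∀ u, f u ∈ W) → (∀ f ∈ W', ∀ k u, f (aU k u) = aV k (f u)) →
      finrank ℂ U * n ≤ finrank ℂ W := by
  induction n with
  | zero => intros; simp
  | succ n ih =>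
    intro V _ _ _ aV W W' hn h1 h2
    have hW' : W' ≠ ⊥ := by
      rintro rfl
      simp at hn
    obtain ⟨f₀, hf₀, h0⟩ := (Submodule.ne_bot_iff W').1 hW'
    have inj := lin_inj hs h0 (h2 f₀ hf₀)
    set Y := LinearMap.range f₀ with hY
    have hYW : Y ≤ W := by
      rintro _ ⟨u, rfl⟩
      exact h1 f₀ hf₀ u
    have hYi : ∀ k, Y ≤ Y.comap (aV k) := by
      rintro k _ ⟨u, rfl⟩
      exact ⟨aU k u, h2 f₀ hf₀ k u⟩
    let L : (U →ₗ[ℂ] V) →ₗ[ℂ] (U →ₗ[ℂ] V ⧸ Y) := LinearMap.llcomp ℂ U V (V ⧸ Y) Y.mkQ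
    have hL : ∀ f u, L f u = Y.mkQ (f u) := fun _ _ => rfl
    have hk : W' ⊓ LinearMap.ker L = Submodule.span ℂ {f₀} := by
      apply le_antisymm
      · rintro f ⟨hf, hf'⟩
        have hfY : ∀ u, f u ∈ Y := fun u => by
          have : L f u = 0 := by rw [LinearMap.mem_ker.1 hf']; rfl
          rwa [hL, Submodule.mkQ_apply, Submodule.Quotient.mk_eq_zero] at this
        let g : Module.End ℂ U :=
          (LinearEquiv.ofInjective f₀ inj).symm.toLinearMap ∘ₗ f.codRestrict Y hfY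
        have hg : ∀ u, f₀ (g u) = f u := fun u =>
          LinearEquiv.ofInjective_symm_apply f₀ (h := inj) _
        obtain ⟨c, hc⟩ := schur (𝒜 := Set.range aU) (U := ⊤) (fun _ _ _ _ => trivial)
          (fun U' _ hU' => hs U' fun k u hu => hU' _ ⟨k, rfl⟩ u hu) g (fun _ _ => trivial)
          (by
            rintro _ ⟨k, rfl⟩ u -
            apply inj
            rw [hg, h2 f hf, h2 f₀ hf₀, hg])
        refine Submodule.mem_span_singleton.2 ⟨c, LinearMap.ext fun u => ?_⟩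
        rw [← hg u, hc u trivial, map_smul, LinearMap.smul_apply]
      · rw [Submodule.span_singleton_le_iff_mem]
        refine ⟨hf₀, LinearMap.mem_ker.2 (LinearMap.ext fun u => ?_)⟩
        rw [hL, Submodule.mkQ_apply, LinearMap.zero_apply, Submodule.Quotient.mk_eq_zero]
        exact ⟨u, rfl⟩
    have r1 := lin_rank_map L W'
    rw [hk, finrank_span_singleton h0, hn] at r1
    have r2 := lin_rank_map Y.mkQ W
    rw [Submodule.ker_mkQ, inf_eq_right.2 hYW, hY, LinearMap.finrank_range_of_inj inj] at r2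
    have r3 := ih (V ⧸ Y) (fun k => Y.mapQ Y (aV k) (hYi k)) (W.map Y.mkQ) (W'.map L) (by omega)
      (by
        rintro _ ⟨f, hf, rfl⟩ u
        exact ⟨f u, h1 f hf u, rfl⟩)
      (by
        rintro _ ⟨f, hf, rfl⟩ k u
        rw [hL, hL, h2 f hf]
        rfl)
    rw [Nat.mul_succ, ← r2]
    exact Nat.add_le_add_right r3 _

/-- Product bound.  Plan: induction on `s`, generalising `V, 𝒜, W`.  For `insert i₀ s` take a minimal
`𝒜 i₀`-invariant `U ≤ W` (`exists_minimal`), `V' = (U →ₗ[ℂ] V)`,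
`W' = {f | range f ≤ W, f (a u) = a (f u) for a ∈ 𝒜 i₀}` (contains the inclusion), and
`𝒜' j = {f ↦ b ∘ f | b ∈ 𝒜 j}` (`LinearMap.llcomp`).  A non-zero `f ∈ W'` is injective (kernel is
invariant), so a non-zero `𝒜' j`-invariant `M ≤ W'` maps injectively onto the `𝒜 j`-invariant
`{f u₀ | f ∈ M} ≤ W` (`u₀ ≠ 0` in `U`), hence `X ≤ finrank M`.  Finally
`finrank U * finrank W' ≤ finrank W`: for linearly independent `f₁ … f_k ∈ W'` the map
`(Fin k → U) → W`, `u ↦ ∑ fᵢ (uᵢ)` is injective (induction on `k`: if the range of `f_k` meets the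
range `Y` of the previous map then it is contained in `Y` by minimality, the components of
`F⁻¹ ∘ f_k` are scalars by `schur`, contradiction with independence). -/
theorem prod_dim {ι : Type} [DecidableEq ι] (X : ℕ) (s : Finset ι) :
    ∀ (V : Type) [AddCommGroup V] [Module ℂ V] [FiniteDimensional ℂ V]
      (𝒜 : ι → Set (Module.End ℂ V)) (W : Submodule ℂ V), W ≠ ⊥ → (∀ i ∈ s, Inv (𝒜 i) W) →
      (∀ i ∈ s, ∀ j ∈ s, i ≠ j → ∀ a ∈ 𝒜 i, ∀ b ∈ 𝒜 j, Commute a b) →
      (∀ i ∈ s, ∀ U ≤ W, U ≠ ⊥ → Inv (𝒜 i) U → X ≤ finrank ℂ U) →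
      X ^ s.card ≤ finrank ℂ W := by
  induction s using Finset.induction_on with
  | empty =>
    intro V _ _ _ 𝒜 W hW _ _ _
    rw [Finset.card_empty, pow_zero]
    exact Submodule.one_le_finrank_iff.2 hW
  | insert i₀ s hi₀ ih =>
    intro V _ _ _ 𝒜 W hW h1 h2 h3
    have m0 := Finset.mem_insert_self i₀ s
    have m1 : ∀ j ∈ s, j ∈ insert i₀ s := fun j hj => Finset.mem_insert_of_mem hj
    obtain ⟨U, hUW, hU0, hUi, hUm⟩ := exists_minimal hW (h1 i₀ m0)
    let aU : 𝒜 i₀ → Module.End ℂ U := fun a => a.1.restrict (hUi a.1 a.2)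
    have hs : ∀ U' : Submodule ℂ U, (∀ k, ∀ u ∈ U', aU k u ∈ U') → U' = ⊥ ∨ U' = ⊤ := by
      intro U' hU'
      rcases hUm (U'.map U.subtype) (Submodule.map_subtype_le _ _) (by
        rintro a ha _ ⟨u, hu, rfl⟩
        exact ⟨_, hU' ⟨a, ha⟩ u hu, rfl⟩) with h | h
      · exact Or.inl (Submodule.map_injective_of_injective U.injective_subtype
          (by rw [h, Submodule.map_bot]))
      · exact Or.inr (Submodule.map_injective_of_injective U.injective_subtype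
          (by rw [h, Submodule.map_subtype_top]))
    let W' : Submodule ℂ (U →ₗ[ℂ] V) :=
      { carrier := {f | (∀ u, f u ∈ W) ∧ ∀ (k : 𝒜 i₀) u, f (aU k u) = k.1 (f u)}
        add_mem' := fun {f g} hf hg => ⟨fun u => W.add_mem (hf.1 u) (hg.1 u), fun k u => by
          rw [LinearMap.add_apply, LinearMap.add_apply, map_add, hf.2, hg.2]⟩
        zero_mem' := ⟨fun _ => W.zero_mem, fun k u => by simp⟩
        smul_mem' := fun c f hf => ⟨fun u => W.smul_mem c (hf.1 u), fun k u => by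
          rw [LinearMap.smul_apply, LinearMap.smul_apply, map_smul, hf.2]⟩ }
    have r1 := lin_hom_dim aU hs _ V (fun k => k.1) W W' rfl (fun f hf => hf.1) (fun f hf => hf.2)
    obtain ⟨u₀, hu₀, hu₀'⟩ := (Submodule.ne_bot_iff U).1 hU0
    have r2 := ih (U →ₗ[ℂ] V) (fun j => LinearMap.llcomp ℂ U V V '' 𝒜 j) W'
      ((Submodule.ne_bot_iff W').2 ⟨U.subtype, ⟨fun u => hUW u.2, fun k u => rfl⟩, fun h =>
        hu₀' (LinearMap.congr_fun h ⟨u₀, hu₀⟩)⟩)
      (by
        rintro j hj _ ⟨b, hb, rfl⟩ f hf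
        refine ⟨fun u => h1 j (m1 j hj) b hb _ (hf.1 u), fun k u => ?_⟩
        show b (f (aU k u)) = k.1 (b (f u))
        rw [hf.2]
        exact (LinearMap.congr_fun (h2 i₀ m0 j (m1 j hj) (fun e => hi₀ (e ▸ hj)) k.1 k.2 b hb).eq
          (f u)).symm)
      (by
        rintro i hi j hj hij _ ⟨a, ha, rfl⟩ _ ⟨b, hb, rfl⟩
        refine LinearMap.ext fun f => LinearMap.ext fun u => ?_
        exact LinearMap.congr_fun (h2 i (m1 i hi) j (m1 j hj) hij a ha b hb).eq (f u))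
      (by
        intro j hj M hM hM0 hMi
        let ev : (U →ₗ[ℂ] V) →ₗ[ℂ] V := LinearMap.applyₗ ⟨u₀, hu₀⟩
        have hev : ∀ f ∈ W', ev f = 0 → f = 0 := fun f hf h => by
          by_contra hn
          have := lin_inj hs hn hf.2 (h.trans (map_zero f).symm)
          exact hu₀' (congrArg Subtype.val this)
        refine (h3 j (m1 j hj) (M.map ev) ?_ ?_ ?_).trans (Submodule.finrank_map_le _ _)
        · rintro _ ⟨f, hf, rfl⟩
          exact (hM hf).1 _
        · obtain ⟨f, hf, hf0⟩ := (Submodule.ne_bot_iff M).1 hM0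
          exact (Submodule.ne_bot_iff _).2 ⟨ev f, ⟨f, hf, rfl⟩, fun h => hf0 (hev f (hM hf) h)⟩
        · rintro b hb _ ⟨f, hf, rfl⟩
          exact ⟨_, hMi _ ⟨b, hb, rfl⟩ f hf, rfl⟩)
    rw [Finset.card_insert_of_notMem hi₀, pow_succ']
    exact (Nat.mul_le_mul (h3 i₀ m0 U hUW hU0 hUi) r2).trans r1

end Crest.Agent.R155
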