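import Crest.Agent.R155.Av
import Crest.Prelude.Def_Shuffle

/-!
Row 155.  The shuffle as a random permutation; the conditional law of one more card.
-/

set_option autoImplicit false

namespace Crest.Agent.R155

open Equiv
open Crest.ProbabilityR.Shuffle (stepPos iterPos)

abbrev Pos (m : ℕ) := Fin (2 * m)
abbrev Coin (m : ℕ) := Fin m → Bool

variable {m : ℕ}

def half (y : Pos m) : Fin m := ⟨y.val / 2, by have := y.isLt; omega⟩
def lo (u : Fin m) : Pos m := ⟨u.val, by have := u.isLt; omega⟩
def hi (u : Fin m) : Pos m := ⟨u.val + m, by have := u.isLt; omega⟩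
def ev (u : Fin m) : Pos m := ⟨2 * u.val, by have := u.isLt; omega⟩
def od (u : Fin m) : Pos m := ⟨2 * u.val + 1, by have := u.isLt; omega⟩
def partner (x : Pos m) : Pos m :=
  if h : x.val < m then ⟨x.val + m, by omega⟩ else ⟨x.val - m, by have := x.isLt; omega⟩

@[simp] lemma half_val (y : Pos m) : (half y).val = y.val / 2 := rfl
@[simp] lemma lo_val (u : Fin m) : (lo u).val = u.val := rfl
@[simp] lemma hi_val (u : Fin m) : (hi u).val = u.val + m := rfl
@[simp] lemma ev_val (u : Fin m) : (ev u).val = 2 * u.val := rfl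
@[simp] lemma od_val (u : Fin m) : (od u).val = 2 * u.val + 1 := rfl
@[simp] lemma half_ev (u : Fin m) : half (ev u) = u := by ext; simp
@[simp] lemma half_od (u : Fin m) : half (od u) = u := by ext; simp; omega
@[simp] lemma partner_lo (u : Fin m) : partner (lo u) = hi u := by
  have := u.isLt
  ext; simp [partner, this]
@[simp] lemma partner_hi (u : Fin m) : partner (hi u) = lo u := by
  ext; simp [partner]
lemma lo_ne_hi (u v : Fin m) : lo u ≠ hi v := by
  intro h; have := congrArg Fin.val h; have := u.isLt; simp at *; omega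
lemma ev_ne_od (u v : Fin m) : ev u ≠ od v := by
  intro h; have := congrArg Fin.val h; simp at *; omega
lemma lo_inj {u v : Fin m} : lo u = lo v ↔ u = v := by simp [Fin.ext_iff]
lemma hi_inj {u v : Fin m} : hi u = hi v ↔ u = v := by simp [Fin.ext_iff]
lemma ev_inj {u v : Fin m} : ev u = ev v ↔ u = v := by simp [Fin.ext_iff]
lemma od_inj {u v : Fin m} : od u = od v ↔ u = v := by simp [Fin.ext_iff]
lemma lo_or_hi (x : Pos m) : (∃ u, x = lo u) ∨ ∃ u, x = hi u := by
  have := x.isLt
  by_cases h : x.val < m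
  · exact Or.inl ⟨⟨x.val, h⟩, rfl⟩
  · exact Or.inr ⟨⟨x.val - m, by omega⟩, by ext; simp; omega⟩
lemma ev_or_od (y : Pos m) : y = ev (half y) ∨ y = od (half y) := by
  rcases Nat.mod_two_eq_zero_or_one y.val with h | h
  · left; ext; simp; omega
  · right; ext; simp; omega

lemma sum_lo_hi (F : Pos m → ℝ) : ∑ x, F x = ∑ u : Fin m, (F (lo u) + F (hi u)) := by
  rw [Finset.sum_add_distrib]
  refine Eq.trans ?_ (Fintype.sum_sum_type (fun z : Fin m ⊕ Fin m => F (z.elim lo hi)))
  symm
  refine Fintype.sum_bijective (fun z : Fin m ⊕ Fin m => z.elim lo hi) ⟨?_, ?_⟩ _ _ fun _ => rfl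
  · rintro (u | u) (v | v) h
    · exact congrArg _ (lo_inj.1 h)
    · exact absurd h (lo_ne_hi _ _)
    · exact absurd h.symm (lo_ne_hi _ _)
    · exact congrArg _ (hi_inj.1 h)
  · intro x
    rcases lo_or_hi x with ⟨u, rfl⟩ | ⟨u, rfl⟩
    · exact ⟨Sum.inl u, rfl⟩
    · exact ⟨Sum.inr u, rfl⟩
lemma sum_ev_od (F : Pos m → ℝ) : ∑ y, F y = ∑ u : Fin m, (F (ev u) + F (od u)) := by
  rw [Finset.sum_add_distrib]
  refine Eq.trans ?_ (Fintype.sum_sum_type (fun z : Fin m ⊕ Fin m => F (z.elim ev od)))
  symm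
  refine Fintype.sum_bijective (fun z : Fin m ⊕ Fin m => z.elim ev od) ⟨?_, ?_⟩ _ _ fun _ => rfl
  · rintro (u | u) (v | v) h
    · exact congrArg _ (ev_inj.1 h)
    · exact absurd h (ev_ne_od _ _)
    · exact absurd h.symm (ev_ne_od _ _)
    · exact congrArg _ (od_inj.1 h)
  · intro y
    rcases ev_or_od y with h | h
    · exact ⟨Sum.inl _, h.symm⟩
    · exact ⟨Sum.inr _, h.symm⟩

lemma stepPos_lo (c : Coin m) (u : Fin m) : stepPos m c (lo u) = if c u then od u else ev u := by
  have hu := u.isLt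
  have h1 : u.val % m = u.val := Nat.mod_eq_of_lt hu
  have h2 : ¬ m ≤ u.val := by omega
  ext
  simp only [stepPos, lo_val, h1, h2, decide_false, Bool.false_xor, Fin.eta]
  cases c u <;> simp
lemma stepPos_hi (c : Coin m) (u : Fin m) : stepPos m c (hi u) = if c u then ev u else od u := by
  have hu := u.isLt
  have h1 : (u.val + m) % m = u.val := by rw [Nat.add_mod_right, Nat.mod_eq_of_lt hu]
  have h2 : m ≤ u.val + m := by omega
  ext
  simp only [stepPos, hi_val, h1, h2, decide_true, Bool.true_xor, Fin.eta]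
  cases c u <;> simp

/-- the position before the step -/
def src (c : Coin m) (y : Pos m) : Pos m :=
  if xor (decide (y.val % 2 = 1)) (c (half y)) then hi (half y) else lo (half y)

lemma src_ev (c : Coin m) (u : Fin m) : src c (ev u) = if c u then hi u else lo u := by
  simp [src]
lemma src_od (c : Coin m) (u : Fin m) : src c (od u) = if c u then lo u else hi u := by
  have : (2 * u.val + 1) % 2 = 1 := by omega
  simp only [src, od_val, this, half_od, decide_true, Bool.true_xor]
  cases c u <;> simp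

/-- one shuffle -/
def stepE (c : Coin m) : Perm (Pos m) where
  toFun := stepPos m c
  invFun := src c
  left_inv x := by
    rcases lo_or_hi x with ⟨u, rfl⟩ | ⟨u, rfl⟩
    · rw [stepPos_lo]; cases h : c u <;> simp [src_ev, src_od, h]
    · rw [stepPos_hi]; cases h : c u <;> simp [src_ev, src_od, h]
  right_inv y := by
    rcases ev_or_od y with h | h <;> rw [h]
    · rw [src_ev]; cases h : c (half y) <;> simp [stepPos_lo, stepPos_hi, h]
    · rw [src_od]; cases h : c (half y) <;> simp [stepPos_lo, stepPos_hi, h]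

lemma stepE_lo (c : Coin m) (u : Fin m) : stepE c (lo u) = if c u then od u else ev u :=
  stepPos_lo c u
lemma stepE_hi (c : Coin m) (u : Fin m) : stepE c (hi u) = if c u then ev u else od u :=
  stepPos_hi c u
lemma stepE_src (c : Coin m) (y : Pos m) : stepE c (src c y) = y := (stepE c).right_inv y
lemma src_stepE (c : Coin m) (x : Pos m) : src c (stepE c x) = x := (stepE c).left_inv x
lemma stepE_eq_iff (c : Coin m) (x y : Pos m) : stepE c x = y ↔ x = src c y :=
  ⟨fun h => by rw [← h, src_stepE], fun h => by rw [h, stepE_src]⟩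

/-- `t` shuffles -/
def sig : (t : ℕ) → (Fin t → Coin m) → Perm (Pos m)
  | 0, _ => 1
  | t + 1, cs => stepE (cs (Fin.last t)) * sig t (fun i => cs i.castSucc)

lemma sig_snoc (t : ℕ) (cs : Fin t → Coin m) (c : Coin m) :
    sig (t + 1) (Fin.snoc cs c) = stepE c * sig t cs := by
  simp only [sig, Fin.snoc_last, Fin.snoc_castSucc]

lemma coe_sig : ∀ (t : ℕ) (cs : Fin t → Coin m), ⇑(sig t cs) = iterPos m t cs
  | 0, _ => rfl
  | t + 1, cs => by
    funext x
    simp only [sig, iterPos, Perm.mul_apply, coe_sig t]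
    rfl

/-- states: the positions of the marked cards, and a weight on positions -/
abbrev St (m : ℕ) := Finset (Pos m) × (Pos m → ℝ)

/-- the pair `u` contains a marked card -/
def touch (S : Finset (Pos m)) (u : Fin m) : Prop := lo u ∈ S ∨ hi u ∈ S

instance (S : Finset (Pos m)) (u : Fin m) : Decidable (touch S u) := by
  unfold touch; infer_instance

/-- one step of the state: the weight follows the coin on pairs with a marked card and is averaged on
the other pairs -/
noncomputable def stp (c : Coin m) (s : St m) : St m :=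
  (s.1.image (stepE c), fun y =>
    if touch s.1 (half y) then s.2 (src c y) else (s.2 (lo (half y)) + s.2 (hi (half y))) / 2)

/-- the weight vanishes on the marked positions -/
def Van (s : St m) : Prop := ∀ x ∈ s.1, s.2 x = 0

noncomputable def nsq (s : St m) : ℝ := ∑ x, s.2 x ^ 2

/-- the mass of the positions whose partner is marked -/
noncomputable def Hq (s : St m) : ℝ := ∑ x, if partner x ∈ s.1 then s.2 x ^ 2 else 0

/-- the mean one-step operator -/
noncomputable def Pm (f : Pos m → ℝ) : Pos m → ℝ :=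
  fun y => (f (lo (half y)) + f (hi (half y))) / 2

lemma mem_stp (c : Coin m) (s : St m) (y : Pos m) : y ∈ (stp c s).1 ↔ src c y ∈ s.1 := by
  simp only [stp, Finset.mem_image]
  exact ⟨fun ⟨x, hx, e⟩ => by rw [← e, src_stepE]; exact hx, fun h => ⟨_, h, stepE_src c y⟩⟩
lemma card_stp (c : Coin m) (s : St m) : (stp c s).1.card = s.1.card :=
  Finset.card_image_of_injective _ (stepE c).injective
lemma src_cases (c : Coin m) (y : Pos m) : src c y = lo (half y) ∨ src c y = hi (half y) := by
  unfold src; split_ifs <;> simp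
lemma Van.stp {s : St m} (h : Van s) (c : Coin m) : Van (stp c s) := by
  intro y hy
  rw [mem_stp] at hy
  have ht : touch s.1 (half y) := by
    rcases src_cases c y with e | e
    · exact Or.inl (e ▸ hy)
    · exact Or.inr (e ▸ hy)
  simp only [R155.stp, ht, if_true]
  exact h _ hy
lemma stp_ev (c : Coin m) (s : St m) (u : Fin m) : (stp c s).2 (ev u) =
    if touch s.1 u then (if c u then s.2 (hi u) else s.2 (lo u)) else (s.2 (lo u) + s.2 (hi u)) / 2 := by
  simp only [stp, half_ev, src_ev]
  split_ifs <;> rfl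
lemma stp_od (c : Coin m) (s : St m) (u : Fin m) : (stp c s).2 (od u) =
    if touch s.1 u then (if c u then s.2 (lo u) else s.2 (hi u)) else (s.2 (lo u) + s.2 (hi u)) / 2 := by
  simp only [stp, half_od, src_od]
  split_ifs <;> rfl
lemma sum_stp (c : Coin m) (s : St m) : ∑ y, (stp c s).2 y = ∑ x, s.2 x := by
  rw [sum_ev_od, sum_lo_hi]
  refine Finset.sum_congr rfl fun u _ => ?_
  rw [stp_ev, stp_od]
  split_ifs <;> ring
lemma nsq_stp (c : Coin m) (s : St m) : nsq (stp c s) ≤ nsq s := by
  unfold nsq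
  rw [sum_ev_od, sum_lo_hi]
  refine Finset.sum_le_sum fun u _ => ?_
  rw [stp_ev, stp_od]
  split_ifs
  · linarith
  · linarith
  · nlinarith [sq_nonneg (s.2 (lo u) - s.2 (hi u))]
lemma nsq_nonneg (s : St m) : 0 ≤ nsq s := Finset.sum_nonneg fun _ _ => sq_nonneg _
lemma Hq_nonneg (s : St m) : 0 ≤ Hq s :=
  Finset.sum_nonneg fun _ _ => by split_ifs <;> positivity
lemma Hq_le_nsq (s : St m) : Hq s ≤ nsq s :=
  Finset.sum_le_sum fun _ _ => by split_ifs <;> [exact le_rfl; positivity]
lemma iter_fst : ∀ (t : ℕ) (cs : Fin t → Coin m) (s : St m),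
    (iter stp t cs s).1 = s.1.image (sig t cs)
  | 0, _, s => by simp [iter, sig]
  | t + 1, cs, s => by
    simp only [iter, sig, stp, iter_fst t, Finset.image_image]
    rfl

/-- admissible centred states -/
def Adm (j : ℕ) (s : St m) : Prop := Van s ∧ ∑ x, s.2 x = 0 ∧ nsq s ≤ 1 ∧ s.1.card = j

lemma Adm.stp {j : ℕ} (c : Coin m) (s : St m) (h : Adm j s) : Adm j (stp c s) :=
  ⟨h.1.stp c, by rw [sum_stp, h.2.1], (nsq_stp c s).trans h.2.2.1, by rw [card_stp, h.2.2.2]⟩

/-- explicit form of the powers of the mean operator -/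
lemma Pm_iter {d : ℕ} (f : Pos (2 ^ d) → ℝ) {s : ℕ} (hs : s ≤ d + 1) (y : Pos (2 ^ d)) :
    Pm^[s] f y = (1 / 2 ^ s) * ∑ x : Pos (2 ^ d),
      if x.val % 2 ^ (d + 1 - s) = y.val / 2 ^ s then f x else 0 := by
  induction s generalizing y with
  | zero =>
    have h : ∀ x : Pos (2 ^ d), (x.val % 2 ^ (d + 1 - 0) = y.val / 2 ^ 0) ↔ x = y := by
      intro x
      have := x.isLt
      rw [Nat.sub_zero, Nat.mod_eq_of_lt (by rw [pow_succ]; omega), pow_zero, Nat.div_one, Fin.ext_iff]
    simp only [h, Function.iterate_zero, id, Finset.sum_ite_eq', Finset.mem_univ, if_true]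
    simp
  | succ s ih =>
    obtain ⟨k, rfl⟩ : ∃ k, d = s + k := ⟨d - s, by omega⟩
    rw [Function.iterate_succ_apply', Pm, ih (by omega), ih (by omega), ← mul_add,
      ← Finset.sum_add_distrib, pow_succ]
    have e1 : s + k + 1 - s = k + 1 := by omega
    have e2 : s + k + 1 - (s + 1) = k := by omega
    have hy := y.isLt
    have h1' : ∀ a : ℕ, a / 2 / 2 ^ s = a / (2 ^ s * 2) := fun a => by
      rw [Nat.div_div_eq_div_mul, mul_comm]
    have h1 := h1' y.val
    have h2' : ∀ a : ℕ, (a / 2 + 2 ^ (s + k)) / 2 ^ s = a / (2 ^ s * 2) + 2 ^ k := fun a => by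
      rw [pow_add, Nat.add_mul_div_left _ _ (by positivity), h1']
    have h2 := h2' y.val
    have h3 : y.val / (2 ^ s * 2) < 2 ^ k := by
      rw [Nat.div_lt_iff_lt_mul (by positivity)]
      calc y.val < 2 * 2 ^ (s + k) := hy
        _ = _ := by ring
    simp only [lo_val, hi_val, half_val, e1, e2, h1, h2, show (2 : ℕ) ^ (s + 1) = 2 ^ s * 2 from pow_succ _ _]
    generalize y.val / (2 ^ s * 2) = ρ at h3 ⊢
    rw [show (1 / 2 ^ s * ∑ x : Pos (2 ^ (s + k)), ((if x.val % 2 ^ (k + 1) = ρ then f x else 0) +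
      if x.val % 2 ^ (k + 1) = ρ + 2 ^ k then f x else 0)) / 2 = 1 / (2 ^ s * 2) *
      ∑ x : Pos (2 ^ (s + k)), ((if x.val % 2 ^ (k + 1) = ρ then f x else 0) +
      if x.val % 2 ^ (k + 1) = ρ + 2 ^ k then f x else 0) by ring]
    congr 1
    refine Finset.sum_congr rfl fun x _ => ?_
    have h4 : x.val % 2 ^ k = x.val % 2 ^ (k + 1) % 2 ^ k :=
      (Nat.mod_mod_of_dvd _ (pow_dvd_pow 2 (by omega))).symm
    have h5 : x.val % 2 ^ (k + 1) < 2 ^ k * 2 := by
      rw [← pow_succ]; exact Nat.mod_lt _ (by positivity)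
    rw [h4]
    generalize x.val % 2 ^ (k + 1) = r at h5 ⊢
    generalize 2 ^ k = K at h3 h5 ⊢
    by_cases hr : r < K
    · rw [Nat.mod_eq_of_lt hr, if_neg (show ¬ r = ρ + K by omega), add_zero]
    · have : r % K = r - K := by
        rw [Nat.mod_eq_sub_mod (by omega), Nat.mod_eq_of_lt (by omega)]
      rw [this, if_neg (show ¬ r = ρ by omega), zero_add]
      by_cases h6 : r = ρ + K
      · rw [if_pos h6, if_pos (by omega)]
      · rw [if_neg h6, if_neg (by omega)]

end Crest.Agent.R155
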