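import Crest.Agent.R155.Model

/-!
Row 155.  The renewal identity for the squared norm of the centred weight.
-/

set_option autoImplicit false

namespace Crest.Agent.R155

open Equiv

/-- squared norm after `s` mean steps -/
noncomputable def Phi {m : ℕ} (s : ℕ) (σ : St m) : ℝ := ∑ y, (Pm^[s] σ.2 y) ^ 2

/-- the sign of a coin -/
def phiS (b : Bool) : ℝ := if b then -1 else 1

lemma phi_av_flip {m : ℕ} (u : Fin m) (F : Coin m → ℝ)
    (hF : ∀ c : Coin m, F (Function.update c u (!c u)) = F c) :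
    av (fun c => phiS (c u) * F c) = 0 := by
  let e : Coin m ≃ Coin m :=
    Function.Involutive.toPerm (fun c => Function.update c u (!c u)) (fun c => by
      funext v
      by_cases h : v = u
      · subst h; simp
      · simp [h])
  have h1 := av_equiv e (fun c => phiS (c u) * F c)
  have h2 : ∀ c, phiS (e c u) * F (e c) = -1 * (phiS (c u) * F c) := by
    intro c
    have : e c = Function.update c u (!c u) := rfl
    rw [this, hF, Function.update_self]
    cases c u <;> simp [phiS]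
  rw [av_congr h2, av_mul_left] at h1
  linarith

lemma phi_av_sq {m : ℕ} (a : ℝ) (b : Fin m → ℝ) :
    av (fun c : Coin m => (a + ∑ u, phiS (c u) * b u) ^ 2) = a ^ 2 + ∑ u, b u ^ 2 := by
  have h1 : ∀ c : Coin m, (a + ∑ u, phiS (c u) * b u) ^ 2 =
      a ^ 2 + (∑ u, phiS (c u) * (2 * a * b u) +
        ∑ u, ∑ v, phiS (c u) * (phiS (c v) * (b u * b v))) := by
    intro c
    rw [add_sq, sq (∑ u, phiS (c u) * b u), Finset.sum_mul_sum, Finset.mul_sum, add_assoc]
    congr 2
    · exact Finset.sum_congr rfl fun u _ => by ring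
    · exact Finset.sum_congr rfl fun u _ => Finset.sum_congr rfl fun v _ => by ring
  rw [av_congr h1, av_add, av_add, av_const, av_sum, av_sum]
  congr 1
  rw [Finset.sum_eq_zero fun u _ => phi_av_flip u _ fun _ => rfl, zero_add]
  refine Finset.sum_congr rfl fun u _ => ?_
  rw [av_sum, Finset.sum_eq_single u]
  · rw [av_congr (G := fun _ => b u ^ 2), av_const]
    intro c
    cases c u <;> simp [phiS] <;> ring
  · intro v _ hv
    exact phi_av_flip u _ fun c => by rw [Function.update_of_ne hv]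
  · simp

/-- the difference of the two point masses of a pair -/
def phiD {m : ℕ} (u : Fin m) : Pos m → ℝ :=
  fun x => (if x = ev u then 1 else 0) - if x = od u then 1 else 0

lemma phi_lin {m : ℕ} (s : ℕ) (f : Pos m → ℝ) (a : Fin m → ℝ) (g : Fin m → Pos m → ℝ) :
    Pm^[s] (fun x => f x + ∑ u, a u * g u x) = fun y => Pm^[s] f y + ∑ u, a u * Pm^[s] (g u) y := by
  induction s with
  | zero => rfl
  | succ s ih =>
    funext y
    simp only [Function.iterate_succ_apply', ih, Pm]
    rw [show ∀ A B C D : ℝ, (A + B + (C + D)) / 2 = (A + C) / 2 + (B + D) / 2 from fun _ _ _ _ => by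
      ring, ← Finset.sum_add_distrib, Finset.sum_div]
    congr 1
    exact Finset.sum_congr rfl fun u _ => by ring

lemma phi_stp {m : ℕ} (c : Coin m) (σ : St m) : (stp c σ).2 = fun y => Pm σ.2 y +
    ∑ u, (phiS (c u) * if touch σ.1 u then (σ.2 (lo u) - σ.2 (hi u)) / 2 else 0) * phiD u y := by
  funext y
  rw [Finset.sum_eq_single (half y)]
  · rcases ev_or_od y with h | h <;> rw [h]
    · simp only [stp_ev, Pm, half_ev, phiD, if_true, ev_ne_od, if_false, phiS]
      split_ifs <;> ring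
    · simp only [stp_od, Pm, half_od, phiD, if_true, (ev_ne_od _ _).symm, if_false, phiS]
      split_ifs <;> ring
  · intro v _ hv
    have h1 : y ≠ ev v := fun e => hv (by rw [e, half_ev])
    have h2 : y ≠ od v := fun e => hv (by rw [e, half_od])
    simp [phiD, h1, h2]
  · simp

lemma phi_fiber {d s : ℕ} (hs : s ≤ d + 1) {ρ : ℕ} (hρ : ρ < 2 ^ (d + 1 - s)) :
    ∑ y : Pos (2 ^ d), (if ρ = y.val / 2 ^ s then (1 : ℝ) else 0) = 2 ^ s := by
  have h1 : (Finset.univ.filter fun y : Pos (2 ^ d) => ρ = y.val / 2 ^ s).card = 2 ^ s := by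
    have hp : 0 < 2 ^ s := by positivity
    have hn : 2 * 2 ^ d = 2 ^ (d + 1 - s) * 2 ^ s := by
      rw [← pow_add, Nat.sub_add_cancel hs, pow_succ, mul_comm]
    refine Eq.trans ?_ (Finset.card_range (2 ^ s))
    refine Finset.card_bij (fun y _ => y.val % 2 ^ s) (fun y _ => Finset.mem_range.2 (Nat.mod_lt _ hp))
      (fun y hy y' hy' e => ?_) (fun r hr => ?_)
    · simp only [Finset.mem_filter, Finset.mem_univ, true_and] at hy hy'
      ext
      rw [← Nat.div_add_mod y.val (2 ^ s), ← Nat.div_add_mod y'.val (2 ^ s), ← hy, ← hy', e]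
    · have hr' := Finset.mem_range.1 hr
      refine ⟨⟨2 ^ s * ρ + r, ?_⟩, ?_, ?_⟩
      · rw [hn]; nlinarith
      · simp only [Finset.mem_filter, Finset.mem_univ, true_and]
        rw [Nat.mul_add_div hp, Nat.div_eq_of_lt hr', add_zero]
      · simp only [Nat.mul_add_mod, Nat.mod_eq_of_lt hr']
  rw [Finset.sum_boole, h1]
  push_cast
  rfl

lemma phi_D_norm {d s : ℕ} (hs : s ≤ d) (u : Fin (2 ^ d)) :
    ∑ y, (Pm^[s] (phiD u) y) ^ 2 = 2 / 2 ^ s := by
  obtain ⟨k, hk⟩ : ∃ k, d + 1 - s = k + 1 := ⟨d - s, by omega⟩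
  have hne : (2 * u.val) % 2 ^ (d + 1 - s) ≠ (2 * u.val + 1) % 2 ^ (d + 1 - s) := by
    intro e
    have := congrArg (· % 2) e
    simp only [hk, Nat.mod_mod_of_dvd _ (dvd_pow_self 2 (Nat.succ_ne_zero k))] at this
    omega
  have h1 : ∀ y : Pos (2 ^ d), (Pm^[s] (phiD u) y) ^ 2 = (1 / 2 ^ s) ^ 2 *
      ((if (2 * u.val) % 2 ^ (d + 1 - s) = y.val / 2 ^ s then (1 : ℝ) else 0) +
        if (2 * u.val + 1) % 2 ^ (d + 1 - s) = y.val / 2 ^ s then (1 : ℝ) else 0) := by
    intro y
    rw [Pm_iter _ (by omega), mul_pow]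
    congr 1
    have : ∀ x : Pos (2 ^ d), (if x.val % 2 ^ (d + 1 - s) = y.val / 2 ^ s then phiD u x else 0) =
        (if x = ev u then (if (2 * u.val) % 2 ^ (d + 1 - s) = y.val / 2 ^ s then (1 : ℝ) else 0)
          else 0) - if x = od u then
            (if (2 * u.val + 1) % 2 ^ (d + 1 - s) = y.val / 2 ^ s then (1 : ℝ) else 0) else 0 := by
      intro x
      by_cases h1 : x = ev u
      · subst h1; simp [phiD, ev_ne_od]
      · by_cases h2 : x = od u
        · subst h2; simp only [phiD, h1, if_false, if_true, od_val]; split_ifs <;> simp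
        · simp [phiD, h1, h2]
    simp only [this, Finset.sum_sub_distrib, Finset.sum_ite_eq', Finset.mem_univ, if_true]
    split_ifs with a b b
    · exact absurd (a.trans b.symm) hne
    all_goals norm_num
  simp only [h1, ← Finset.mul_sum, Finset.sum_add_distrib]
  rw [phi_fiber (by omega) (Nat.mod_lt _ (by positivity)),
    phi_fiber (by omega) (Nat.mod_lt _ (by positivity))]
  field_simp
  ring

lemma phi_kappa {m : ℕ} {σ : St m} (h : Van σ) :
    ∑ u, (if touch σ.1 u then (σ.2 (lo u) - σ.2 (hi u)) / 2 else 0) ^ 2 = Hq σ / 4 := by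
  rw [Hq, sum_lo_hi, Finset.sum_div]
  refine Finset.sum_congr rfl fun u _ => ?_
  simp only [partner_lo, partner_hi, touch]
  by_cases h1 : lo u ∈ σ.1 <;> by_cases h2 : hi u ∈ σ.1
  · simp [h1, h2, h _ h1, h _ h2]
  · simp only [h1, h2, h _ h1, true_or, if_true, if_false]; ring
  · simp only [h1, h2, h _ h2, or_true, if_true, if_false]; ring
  · simp [h1, h2]

/-- Plan: `(stp c σ).2 = Pm σ.2 + ∑ u, ε u * κ u • (δ (ev u) - δ (od u))` with
`ε u = if c u then -1 else 1`, `κ u = if touch σ.1 u then (p (lo u) - p (hi u)) / 2 else 0`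
(`stp_ev`, `stp_od`).  `Pm^[s]` is linear; `av (ε u) = 0`, `av (ε u * ε v) = 0` for `u ≠ v` (flip the
coin `u`: `av_equiv` with an involution), so the average of `(a + ∑ ε u * b u)²` is
`a² + ∑ (b u)²`.  By `Pm_iter`, `∑ y, (Pm^[s] (δ (ev u) - δ (od u)) y)² = 2 / 2^s` for `s ≤ d` (the
residues of `2u`, `2u+1` modulo `2^(d+1-s)` differ, each fibre of `y ↦ y / 2^s` has `2^s` points), and
`Van` gives `∑ u, κ u ² = Hq σ / 4` (`sum_lo_hi`). -/
theorem phi_step {d s : ℕ} (hs : s ≤ d) {σ : St (2 ^ d)} (h : Van σ) :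
    av (fun c => Phi s (stp c σ)) = Phi (s + 1) σ + 1 / 2 ^ (s + 1) * Hq σ := by
  simp only [Phi, phi_stp, phi_lin]
  simp only [mul_assoc]
  rw [av_sum]
  simp only [phi_av_sq, Finset.sum_add_distrib, mul_pow]
  rw [Finset.sum_comm (γ := Pos (2 ^ d))]
  simp only [← Finset.mul_sum, phi_D_norm hs, ← Finset.sum_mul, phi_kappa h,
    Function.iterate_succ_apply]
  congr 1
  rw [pow_succ]
  field_simp
  ring

/-- `Pm_iter` with `s = d + 1` -/
lemma phi_top {d : ℕ} {σ : St (2 ^ d)} (h : ∑ x, σ.2 x = 0) : Phi (d + 1) σ = 0 := by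
  refine Finset.sum_eq_zero fun y _ => ?_
  have hy : y.val / 2 ^ (d + 1) = 0 := Nat.div_eq_of_lt (by have := y.isLt; rw [pow_succ]; omega)
  rw [Pm_iter _ le_rfl]
  simp [hy, h, Nat.mod_one]

/-- Plan: by induction on `k ≤ d + 1`,
`ex (w + (d+1)) nsq σ = ex (w + (d+1) - k) (Phi k) σ + ∑ s ∈ range k, 1/2^(s+1) * ex (w + d - s) Hq σ`
(`ex_succ`, `ex_congr` with the invariant `Adm j`, `phi_step`); finish with `phi_top`. -/
theorem renewal {d j : ℕ} {σ : St (2 ^ d)} (h : Adm j σ) (w : ℕ) :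
    ex stp (w + (d + 1)) nsq σ =
      ∑ s ∈ Finset.range (d + 1), 1 / 2 ^ (s + 1) * ex stp (w + d - s) Hq σ := by
  have key : ∀ k ≤ d + 1, ex stp (w + (d + 1)) nsq σ = ex stp (w + (d + 1) - k) (Phi k) σ +
      ∑ s ∈ Finset.range k, 1 / 2 ^ (s + 1) * ex stp (w + d - s) Hq σ := by
    intro k hk
    induction k with
    | zero => simp only [Nat.sub_zero, Finset.range_zero, Finset.sum_empty, add_zero]; rfl
    | succ k ih =>
      rw [ih (by omega), Finset.sum_range_succ,
        show w + (d + 1) - k = (w + d - k) + 1 by omega, ex_succ,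
        ex_congr (I := Adm j) Adm.stp (fun s hs => phi_step (by omega) hs.1) _ h, ex_add, ex_mul_left,
        show w + (d + 1) - (k + 1) = w + d - k by omega]
      ring
  rw [key (d + 1) le_rfl, ex_congr (I := Adm j) Adm.stp (fun s hs => phi_top hs.2.1) _ h, ex_const,
    zero_add]

end Crest.Agent.R155
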