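import Mathlib

/-!
Row 155.  Counting partitions, and functions on the symmetric group with many invariances.
-/

set_option autoImplicit false
set_option linter.unusedSectionVars false

namespace Crest.Agent.R155

open Equiv

variable {β : Type} [Fintype β] [DecidableEq β]

/-- two permutations with the same partial map on `J` lie in the same double coset.  Plan:
`Equiv.Perm.exists_extending_pair` on the index type `J ⊕ {x ∈ J | g x ∉ J}` gives `h₁` fixing `J`
with `h₁ (g x) = g' x` on `J`; put `h₂ = (h₁ * g)⁻¹ * g'`. -/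
lemma double_coset {J : Finset β} {g g' : Perm β} (hD : ∀ x ∈ J, (g x ∈ J ↔ g' x ∈ J))
    (he : ∀ x ∈ J, g x ∈ J → g x = g' x) :
    ∃ h₁ h₂ : Perm β, (∀ x ∈ J, h₁ x = x) ∧ (∀ x ∈ J, h₂ x = x) ∧ g' = h₁ * g * h₂ := by
  have inj : ∀ k : Perm β, (∀ x ∈ J, g x ∉ J → k x ∉ J) → Function.Injective
      (Sum.elim (fun x : J => (x : β)) (fun x : {x : β // x ∈ J ∧ g x ∉ J} => k x)) := by
    rintro k hk (a | a) (b | b) e
    · exact congrArg _ (Subtype.ext e)
    · exact absurd ((show (a : β) = k b from e) ▸ a.2) (hk _ b.2.1 b.2.2)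
    · exact absurd ((show k a = (b : β) from e).symm ▸ b.2) (hk _ a.2.1 a.2.2)
    · exact congrArg _ (Subtype.ext (k.injective e))
  obtain ⟨h₁, hh⟩ := Perm.exists_extending_pair _ _ (inj g fun _ _ h => h)
    (inj g' fun x hx h h' => h ((hD x hx).2 h'))
  have a1 : ∀ x ∈ J, h₁ x = x := fun x hx => hh (Sum.inl ⟨x, hx⟩)
  have a2 : ∀ x ∈ J, h₁ (g x) = g' x := by
    intro x hx
    by_cases h : g x ∈ J
    · rw [a1 _ h, he x hx h]
    · exact hh (Sum.inr ⟨x, hx, h⟩)
  refine ⟨h₁, (h₁ * g)⁻¹ * g', a1, fun x hx => ?_, by group⟩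
  rw [Perm.mul_apply, ← a2 x hx, ← Perm.mul_apply h₁, ← Perm.mul_apply, inv_mul_cancel,
    Perm.one_apply]

/-- A set of at most `p(j) 2^j` permutations meets every class.  Plan: for each partition `P` of
`card J` choose (if it exists) `rep P : Perm J` with `(rep P).partition = P`; for each pair
`(P, D)`, `D : Finset J`, choose (if it exists) a permutation `g` with `g x ∈ J ↔ x ∈ D` and
`g x = rep P x` on `D`.  Given `g`, extend its partial map on `J` to `π : Perm J`
(`exists_extending_pair`), conjugate `π` to `rep π.partition` by `ρ`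
(`Equiv.Perm.partition_eq_of_isConj`), conjugate `g` by `ofSubtype ρ` and use `double_coset`. -/
theorem exists_reps (J : Finset β) :
    ∃ R : Finset (Perm β), R.card ≤ Fintype.card (Nat.Partition J.card) * 2 ^ J.card ∧
      ∀ g : Perm β, ∃ g₀ ∈ R, ∀ F : Perm β → ℂ,
        (∀ h g', (∀ x ∈ J, h x = x) → F (h * g') = F g' ∧ F (g' * h) = F g') →
        (∀ π g', (∀ x, x ∉ J → π x = x) → F (π * g' * π⁻¹) = F g') → F g = F g₀ := by
  classical
  let rp : Nat.Partition (Fintype.card J) → Perm J :=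
    fun P => if h : ∃ π : Perm J, π.partition = P then h.choose else 1
  have hrp : ∀ π : Perm J, (rp π.partition).partition = π.partition := by
    intro π
    have h : ∃ π' : Perm J, π'.partition = π.partition := ⟨π, rfl⟩
    simp only [rp, dif_pos h]
    exact h.choose_spec
  let Cls : Nat.Partition (Fintype.card J) × Finset J → Perm β → Prop :=
    fun PD g => (∀ x : J, g x ∈ J ↔ x ∈ PD.2) ∧ ∀ x ∈ PD.2, g x = rp PD.1 x
  let c : Nat.Partition (Fintype.card J) × Finset J → Perm β :=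
    fun PD => if h : ∃ g, Cls PD g then h.choose else 1
  have hc : ∀ PD g, Cls PD g → Cls PD (c PD) := by
    intro PD g hg
    have h : ∃ g, Cls PD g := ⟨g, hg⟩
    simp only [c, dif_pos h]
    exact h.choose_spec
  refine ⟨Finset.univ.image c, ?_, fun g => ?_⟩
  · refine Finset.card_image_le.trans (le_of_eq ?_)
    rw [Finset.card_univ, Fintype.card_prod, Fintype.card_finset, Fintype.card_coe]
  · obtain ⟨π, hπ⟩ := Perm.exists_extending_pair (fun x : {x : J // g x ∈ J} => x.1)
      (fun x : {x : J // g x ∈ J} => (⟨g x.1, x.2⟩ : J)) Subtype.val_injective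
      (fun x y e => Subtype.ext (Subtype.ext (g.injective (congrArg Subtype.val e))))
    obtain ⟨ρ, hρ⟩ := isConj_iff.1 (Perm.partition_eq_of_isConj.2 (hrp π).symm)
    set g₁ := Perm.ofSubtype ρ * g * (Perm.ofSubtype ρ)⁻¹ with hg₁
    have hcls : Cls (π.partition, Finset.univ.filter fun x : J => g₁ x ∈ J) g₁ := by
      refine ⟨fun x => by simp, fun x hx => ?_⟩
      have hx' : g₁ x ∈ J := by simpa using hx
      have e1 : g₁ x = Perm.ofSubtype ρ (g (ρ⁻¹ x : J)) := by
        rw [hg₁, Perm.mul_apply, Perm.mul_apply, ← map_inv, Perm.ofSubtype_apply_coe]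
      have e2 : g (ρ⁻¹ x : J) ∈ J := by
        by_contra h
        rw [e1, Perm.ofSubtype_apply_of_not_mem _ h] at hx'
        exact h hx'
      have e3 := hπ ⟨ρ⁻¹ x, e2⟩
      rw [e1, Perm.ofSubtype_apply_of_mem _ e2, ← hρ, Perm.mul_apply, Perm.mul_apply, e3]
    have hcls' := hc _ _ hcls
    refine ⟨_, Finset.mem_image_of_mem c (Finset.mem_univ
      (π.partition, Finset.univ.filter fun x : J => g₁ x ∈ J)), fun F h1 h2 => ?_⟩
    obtain ⟨h₁, h₂, b1, b2, b3⟩ := double_coset (J := J)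
      (g := c (π.partition, Finset.univ.filter fun x : J => g₁ x ∈ J)) (g' := g₁)
      (fun x hx => (hcls'.1 ⟨x, hx⟩).trans (hcls.1 ⟨x, hx⟩).symm)
      (fun x hx h => (hcls'.2 ⟨x, hx⟩ ((hcls'.1 ⟨x, hx⟩).1 h)).trans
        (hcls.2 ⟨x, hx⟩ ((hcls'.1 ⟨x, hx⟩).1 h)).symm)
    rw [← h2 (Perm.ofSubtype ρ) g fun x hx => Perm.ofSubtype_apply_of_not_mem _ hx, ← hg₁]
    conv_lhs => rw [b3]
    rw [(h1 _ _ b2).2, (h1 _ _ b1).1]

end Crest.Agent.R155
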