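import Crest.Agent.R155.Coef
import Crest.Agent.R155.Reps

/-!
Row 155.  The span of the small subrepresentations of the regular representation of a symmetric
group has polynomial dimension.
-/

set_option autoImplicit false
set_option linter.unusedSectionVars false

namespace Crest.Agent.R155

open Module Equiv
open scoped InnerProductSpace

variable {β : Type} [Fintype β] [DecidableEq β]

/-- irreducible pieces of dimension at most `X` with a vector fixed by the pointwise stabiliser of `J` -/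
def Plus (J : Finset β) (X : ℕ) : Set (Submodule ℂ (HS (Perm β))) :=
  {V | Irr V ∧ finrank ℂ V ≤ X ∧ ∃ w ∈ V, w ≠ 0 ∧ ∀ g : Perm β, (∀ x ∈ J, g x = x) → Lt g w = w}

/-- the invariances of `exists_reps` -/
private def plInv (J : Finset β) : Submodule ℂ (HS (Perm β)) where
  carrier := {F | (∀ h g', (∀ x ∈ J, h x = x) → F (h * g') = F g' ∧ F (g' * h) = F g') ∧
    (∀ π g', (∀ x, x ∉ J → π x = x) → F (π * g' * π⁻¹) = F g')}
  add_mem' := fun {a b} ha hb => ⟨fun h g' hh => by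
      simp only [PiLp.add_apply, (ha.1 h g' hh).1, (ha.1 h g' hh).2, (hb.1 h g' hh).1,
        (hb.1 h g' hh).2, and_self],
    fun π g' hh => by simp only [PiLp.add_apply, ha.2 π g' hh, hb.2 π g' hh]⟩
  zero_mem' := ⟨fun _ _ _ => ⟨rfl, rfl⟩, fun _ _ _ => rfl⟩
  smul_mem' := fun c a ha => ⟨fun h g' hh => by
      simp only [PiLp.smul_apply, (ha.1 h g' hh).1, (ha.1 h g' hh).2, and_self],
    fun π g' hh => by simp only [PiLp.smul_apply, ha.2 π g' hh]⟩

private lemma pl_exists {J : Finset β} {X : ℕ} {V : Submodule ℂ (HS (Perm β))} (hV : V ∈ Plus J X) :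
    ∃ F ∈ Coef V, F ≠ 0 ∧ F ∈ plInv J := by
  classical
  obtain ⟨hI, -, w, hw, hw0, hfix⟩ := hV
  set T : Finset (Perm β) := Finset.univ.filter fun π => ∀ x, x ∉ J → π x = x with hT
  have hmT : ∀ π, π ∈ T ↔ ∀ x, x ∉ J → π x = x := fun π => by simp [hT]
  have hap : ∀ g, (∑ π ∈ T, coef (Lt π w) (Lt π w)) g =
      ∑ π ∈ T, ⟪Lt g (Lt π w), Lt π w⟫_ℂ := by
    intro g
    rw [WithLp.ofLp_sum, Finset.sum_apply]
    rfl
  have hh : ∀ h : Perm β, (∀ x ∈ J, h x = x) → ∀ π ∈ T, Lt h (Lt π w) = Lt π w := by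
    intro h h1 π hπ
    have hc : Commute h π := Perm.Disjoint.commute fun x => by
      by_cases hx : x ∈ J
      · exact Or.inl (h1 x hx)
      · exact Or.inr ((hmT π).1 hπ x hx)
    rw [← Lt_mul, hc.eq, Lt_mul, hfix h h1]
  refine ⟨∑ π ∈ T, coef (Lt π w) (Lt π w), Submodule.sum_mem _ fun π _ =>
    Submodule.subset_span ⟨_, hI.2.1 _ _ hw, _, hI.2.1 _ _ hw, rfl⟩, fun h0 => ?_,
    fun h g' h1 => ⟨?_, ?_⟩, fun ρ g' h1 => ?_⟩
  · have := hap 1
    rw [h0, Finset.sum_congr rfl (g := fun _ => ⟪w, w⟫_ℂ)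
      (fun π _ => by rw [Lt_one, inner_Lt]), Finset.sum_const, nsmul_eq_mul] at this
    have h2 : (T.card : ℂ) ≠ 0 := by
      have : (1 : Perm β) ∈ T := (hmT 1).2 fun _ _ => rfl
      exact_mod_cast (Finset.card_pos.2 ⟨_, this⟩).ne'
    exact mul_ne_zero h2 (inner_self_ne_zero.2 hw0) this.symm
  · rw [hap, hap]
    refine Finset.sum_congr rfl fun π hπ => ?_
    rw [Lt_mul, inner_Lt_left, hh h⁻¹ (fun x hx => by
      rw [Perm.inv_eq_iff_eq, h1 x hx]) π hπ]
  · rw [hap, hap]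
    refine Finset.sum_congr rfl fun π hπ => ?_
    rw [Lt_mul, hh h h1 π hπ]
  · rw [hap, hap]
    have hmul : ∀ a b : Perm β, (∀ x, x ∉ J → a x = x) → b ∈ T → a * b ∈ T := by
      intro a b ha hb
      refine (hmT _).2 fun x hx => ?_
      rw [Perm.mul_apply, (hmT b).1 hb x hx, ha x hx]
    refine Finset.sum_nbij' (fun π => ρ⁻¹ * π) (fun π => ρ * π) (fun π hπ => hmul _ _ ?_ hπ)
      (fun π hπ => hmul _ _ h1 hπ) (fun π _ => by group) (fun π _ => by group) fun π _ => ?_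
    · intro x hx
      rw [Perm.inv_eq_iff_eq, h1 x hx]
    · rw [Lt_mul, Lt_mul, inner_Lt_left, Lt_mul]

private lemma pl_sup (𝒮 : Finset (Submodule ℂ (HS (Perm β)))) {n : ℕ}
    (h : ∀ V ∈ 𝒮, finrank ℂ (Coef V) ≤ n) :
    finrank ℂ (𝒮.sup Coef : Submodule ℂ (HS (Perm β))) ≤ 𝒮.card * n := by
  classical
  induction 𝒮 using Finset.induction_on with
  | empty => simp
  | insert V 𝒮 hV ih =>
    rw [Finset.sup_insert, Finset.card_insert_of_notMem hV]
    have a1 := Submodule.finrank_add_le_finrank_add_finrank (Coef V) (𝒮.sup Coef)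
    have a2 := ih fun V' hV' => h V' (Finset.mem_insert_of_mem hV')
    have a3 := h V (Finset.mem_insert_self _ _)
    rw [add_mul, one_mul]
    omega

/-- Plan: for `V ∈ Plus J X` with vector `w` let `F = ∑ π (fixing the complement of J pointwise),
coef (Lt π w) (Lt π w) ∈ Coef V`; `F 1 ≠ 0` and `F` has the invariances of `exists_reps`.  For a
finset `𝒮 ⊆ Plus J X` with pairwise orthogonal `Coef` spaces these `F` are orthogonal and non-zero,
hence independent, and restriction to `R` is injective on their span: `𝒮.card ≤ R.card`.  Take `𝒮` of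
maximal cardinality; by `le_Coef_of_not_orth` every `V ∈ Plus J X` is contained in `Coef V₀` for some
`V₀ ∈ 𝒮` (`Coef V` is not orthogonal to itself).  Sum `finrank_Coef`. -/
theorem finrank_plus (J : Finset β) (X : ℕ) :
    finrank ℂ (sSup (Plus J X) : Submodule ℂ (HS (Perm β))) ≤
      Fintype.card (Nat.Partition J.card) * 2 ^ J.card * X ^ 2 := by
  classical
  obtain ⟨R, hR, hrep⟩ := exists_reps J
  let Good : Finset (Submodule ℂ (HS (Perm β))) → Prop := fun 𝒮 => (∀ V ∈ 𝒮, V ∈ Plus J X) ∧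
    ∀ V ∈ 𝒮, ∀ V' ∈ 𝒮, V ≠ V' → ∀ f ∈ Coef V, ∀ f' ∈ Coef V', ⟪f, f'⟫_ℂ = 0
  have hbd : ∀ 𝒮, Good 𝒮 → 𝒮.card ≤ R.card := by
    intro 𝒮 h𝒮
    choose F hF1 hF2 hF3 using fun V : 𝒮 => pl_exists (h𝒮.1 V V.2)
    have hli : LinearIndependent ℂ F := linearIndependent_of_ne_zero_of_inner_eq_zero hF2
      fun V V' hne => h𝒮.2 V V.2 V' V'.2 (fun e => hne (Subtype.ext e)) _ (hF1 V) _ (hF1 V')
    let res : HS (Perm β) →ₗ[ℂ] (R → ℂ) :=
      { toFun := fun f r => f r
        map_add' := fun _ _ => rfl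
        map_smul' := fun _ _ => rfl }
    have hli' := hli.map (f := res) (by
      rw [Submodule.disjoint_def]
      intro f hf hf0
      have hf' : f ∈ plInv J := Submodule.span_le.2 (by rintro _ ⟨V, rfl⟩; exact hF3 V) hf
      ext g
      obtain ⟨g₀, hg₀, h⟩ := hrep g
      rw [h f hf'.1 hf'.2]
      exact congrFun (LinearMap.mem_ker.1 hf0) ⟨g₀, hg₀⟩)
    have := hli'.fintype_card_le_finrank
    simpa using this
  obtain ⟨𝒮, h𝒮, hmax⟩ : ∃ 𝒮, Good 𝒮 ∧ ∀ 𝒮', Good 𝒮' → 𝒮'.card ≤ 𝒮.card := by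
    have h0 : ∃ 𝒮, Good 𝒮 ∧ 𝒮.card = 0 := ⟨∅, ⟨by simp, by simp⟩, rfl⟩
    obtain ⟨𝒮, h1, h2⟩ := Nat.findGreatest_spec (P := fun n => ∃ 𝒮, Good 𝒮 ∧ 𝒮.card = n)
      (Nat.zero_le R.card) h0
    exact ⟨𝒮, h1, fun 𝒮' h' => h2 ▸ Nat.le_findGreatest (hbd _ h') ⟨𝒮', h', rfl⟩⟩
  have hle : sSup (Plus J X) ≤ 𝒮.sup Coef := by
    refine sSup_le fun V hV => ?_
    have : ∃ V₀ ∈ 𝒮, ¬ ∀ f ∈ Coef V₀, ∀ f' ∈ Coef V, ⟪f, f'⟫_ℂ = 0 := by
      by_contra hc
      simp only [not_exists, not_and, not_not] at hc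
      have hn : V ∉ 𝒮 := fun h => by
        obtain ⟨F, h1, h2, -⟩ := pl_exists hV
        exact h2 (inner_self_eq_zero.1 (hc V h F h1 F h1))
      have := hmax (insert V 𝒮) ⟨fun V' hV' => ?_, fun V₁ h₁ V₂ h₂ hne => ?_⟩
      · rw [Finset.card_insert_of_notMem hn] at this
        omega
      · rcases Finset.mem_insert.1 hV' with rfl | h
        · exact hV
        · exact h𝒮.1 V' h
      · rcases Finset.mem_insert.1 h₁ with rfl | k₁ <;> rcases Finset.mem_insert.1 h₂ with rfl | k₂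
        · exact absurd rfl hne
        · exact fun f hf f' hf' => inner_eq_zero_symm.1 (hc _ k₂ f' hf' f hf)
        · exact hc _ k₁
        · exact h𝒮.2 _ k₁ _ k₂ hne
    obtain ⟨V₀, h1, h2⟩ := this
    exact (le_Coef_of_not_orth (h𝒮.1 V₀ h1).1.2.1 hV.1 h2).trans (Finset.le_sup (f := Coef) h1)
  refine (Submodule.finrank_mono hle).trans ((pl_sup 𝒮 (n := X ^ 2) fun V hV => ?_).trans ?_)
  · exact (finrank_Coef V).trans (Nat.pow_le_pow_left (h𝒮.1 V hV).2.1 2)
  · exact Nat.mul_le_mul_right _ ((hbd _ h𝒮).trans hR)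

end Crest.Agent.R155
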