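import Crest.Agent.R155.Lin

/-!
Row 155.  The left regular representation of a finite group.
-/

set_option autoImplicit false

namespace Crest.Agent.R155

open Module
open scoped InnerProductSpace

abbrev HS (G : Type) := EuclideanSpace ℂ G

variable {G : Type} [Group G] [Fintype G]

/-- left translation -/
def Lt (g : G) : Module.End ℂ (HS G) where
  toFun f := WithLp.toLp 2 (fun x => f (g⁻¹ * x))
  map_add' _ _ := rfl
  map_smul' _ _ := rfl

omit [Fintype G] in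
@[simp] lemma Lt_apply (g : G) (f : HS G) (x : G) : Lt g f x = f (g⁻¹ * x) := rfl
omit [Fintype G] in
lemma Lt_mul (g h : G) (f : HS G) : Lt (g * h) f = Lt g (Lt h f) := by
  ext x; simp [mul_assoc]
omit [Fintype G] in
lemma Lt_one (f : HS G) : Lt (1 : G) f = f := by
  ext x; simp
lemma inner_Lt (g : G) (f f' : HS G) : ⟪Lt g f, Lt g f'⟫_ℂ = ⟪f, f'⟫_ℂ := by
  simp only [PiLp.inner_apply, Lt_apply]
  exact Equiv.sum_comp (Equiv.mulLeft g⁻¹) (fun x => ⟪f x, f' x⟫_ℂ)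
lemma inner_Lt_left (g : G) (f f' : HS G) : ⟪Lt g f, f'⟫_ℂ = ⟪f, Lt g⁻¹ f'⟫_ℂ := by
  rw [← inner_Lt g f, ← Lt_mul, mul_inv_cancel, Lt_one]
lemma norm_Lt (g : G) (f : HS G) : ‖Lt g f‖ = ‖f‖ := by
  rw [@norm_eq_sqrt_re_inner ℂ, inner_Lt, ← @norm_eq_sqrt_re_inner ℂ]

/-- left invariant subspaces -/
def LInv (U : Submodule ℂ (HS G)) : Prop := ∀ g : G, ∀ u ∈ U, Lt g u ∈ U

/-- irreducible left invariant subspaces -/
def Irr (U : Submodule ℂ (HS G)) : Prop :=
  U ≠ ⊥ ∧ LInv U ∧ ∀ U' ≤ U, LInv U' → U' = ⊥ ∨ U' = U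

/-- the span of all invariant subspaces of dimension at most `X` -/
def Low (G : Type) [Group G] (X : ℕ) : Submodule ℂ (HS G) :=
  sSup {U | LInv U ∧ finrank ℂ U ≤ X}

/-- left convolution by a real weight -/
noncomputable def Cv (μ : G → ℝ) : Module.End ℂ (HS G) := ∑ g, (μ g : ℂ) • Lt g

lemma Cv_apply (μ : G → ℝ) (f : HS G) : Cv μ f = ∑ g, (μ g : ℂ) • Lt g f := by
  simp [Cv, LinearMap.sum_apply]

lemma LInv.orth {U : Submodule ℂ (HS G)} (h : LInv U) : LInv Uᗮ := by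
  intro g v hv
  rw [Submodule.mem_orthogonal] at hv ⊢
  intro u hu
  have := inner_Lt_left g⁻¹ u v
  rw [inv_inv] at this
  rw [← this]
  exact hv _ (h _ u hu)
omit [Fintype G] in
lemma LInv.inf {U U' : Submodule ℂ (HS G)} (h : LInv U) (h' : LInv U') : LInv (U ⊓ U') :=
  fun g u hu => ⟨h g u hu.1, h' g u hu.2⟩
lemma LInv.cv {U : Submodule ℂ (HS G)} (h : LInv U) (μ : G → ℝ) {u : HS G} (hu : u ∈ U) :
    Cv μ u ∈ U := by
  rw [Cv_apply]
  exact U.sum_mem fun g _ => U.smul_mem _ (h g u hu)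
omit [Fintype G] in
lemma low_linv (X : ℕ) : LInv (Low G X) := by
  intro g
  have : Low G X ≤ (Low G X).comap (Lt g) :=
    sSup_le fun U hU u hu => (le_sSup (s := {U | LInv U ∧ finrank ℂ U ≤ X}) hU) (hU.1 g u hu)
  exact fun u hu => this hu
omit [Fintype G] in
lemma le_low {U : Submodule ℂ (HS G)} (h : LInv U) {X : ℕ} (hX : finrank ℂ U ≤ X) :
    U ≤ Low G X := le_sSup ⟨h, hX⟩

/-- the orthogonal projection onto a subspace commutes with every unitary-like map preserving the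
subspace and its complement -/
lemma reg_proj_comm {U : Submodule ℂ (HS G)} {T : Module.End ℂ (HS G)} (h1 : ∀ u ∈ U, T u ∈ U)
    (h2 : ∀ u ∈ Uᗮ, T u ∈ Uᗮ) (f : HS G) : U.starProjection (T f) = T (U.starProjection f) := by
  refine Submodule.eq_starProjection_of_mem_orthogonal (h1 _ (U.starProjection_apply_mem f)) ?_
  rw [← map_sub]
  exact h2 _ (Submodule.sub_starProjection_mem_orthogonal f)

omit [Group G] in
lemma reg_onb (U : Submodule ℂ (HS G)) (f : HS G) :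
    ∑ i, ‖⟪((stdOrthonormalBasis ℂ U i : U) : HS G), f⟫_ℂ‖ ^ 2 = ‖U.starProjection f‖ ^ 2 := by
  have := (stdOrthonormalBasis ℂ U).sum_sq_norm_inner_right (U.orthogonalProjectionOnto f)
  simp only [Submodule.inner_orthogonalProjectionOnto_eq_of_mem_left] at this
  exact this

omit [Group G] in
lemma reg_onb_norm (U : Submodule ℂ (HS G)) (i : Fin (finrank ℂ U)) :
    ‖((stdOrthonormalBasis ℂ U i : U) : HS G)‖ = 1 :=
  (stdOrthonormalBasis ℂ U).norm_eq_one i

/-- Reproducing kernel bound.  Plan: let `b` be an orthonormal basis of `U`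
(`stdOrthonormalBasis ℂ U`), `K x = ∑ᵢ ‖bᵢ x‖²`; `∑ₓ K x = finrank U`;
`K x = ‖P δₓ‖²` (`P` the orthogonal projection onto `U`) does not depend on `x` since `P` commutes
with `Lt g`; `ψ x = ⟪P δₓ, ψ⟫`, Cauchy–Schwarz. -/
lemma rk_bound {U : Submodule ℂ (HS G)} (h : LInv U) {ψ : HS G} (hψ : ψ ∈ U) (x : G) :
    ‖ψ x‖ ^ 2 ≤ (finrank ℂ U : ℝ) / Fintype.card G * ‖ψ‖ ^ 2 := by
  classical
  have hG : (0 : ℝ) < Fintype.card G := by exact_mod_cast Fintype.card_pos
  let δ : G → HS G := fun x => EuclideanSpace.single x 1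
  have h1 : ∀ y, δ y = Lt (y * x⁻¹) (δ x) := fun y => by
    ext z
    simp only [δ, Lt_apply, PiLp.single_apply]
    congr 1
    apply propext
    constructor
    · rintro rfl
      simp
    · intro h
      rw [inv_mul_eq_iff_eq_mul] at h
      simpa using h
  have h2 : ∀ y, ‖U.starProjection (δ y)‖ = ‖U.starProjection (δ x)‖ := fun y => by
    rw [h1 y, reg_proj_comm (h _) (h.orth _), norm_Lt]
  have h3 : ∑ y, ‖U.starProjection (δ y)‖ ^ 2 = finrank ℂ U := by
    simp only [← reg_onb]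
    rw [Finset.sum_comm]
    have : ∀ i, ∑ y, ‖⟪((stdOrthonormalBasis ℂ U i : U) : HS G), δ y⟫_ℂ‖ ^ 2 = 1 := fun i => by
      simp only [δ, EuclideanSpace.inner_single_right, one_mul, RCLike.norm_conj]
      rw [← EuclideanSpace.norm_sq_eq, reg_onb_norm, one_pow]
    simp [this]
  simp only [h2, Finset.sum_const, Finset.card_univ, nsmul_eq_mul] at h3
  have h4 : ψ x = ⟪U.starProjection (δ x), ψ⟫_ℂ := by
    rw [Submodule.inner_starProjection_left_eq_right, Submodule.starProjection_eq_self_iff.2 hψ]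
    simp only [δ, EuclideanSpace.inner_single_left, map_one, one_mul]
  rw [h4, ← h3, mul_div_cancel_left₀ _ hG.ne', ← mul_pow]
  exact pow_le_pow_left₀ (norm_nonneg _) (norm_inner_le_norm _ _) 2

/-- Schur orthogonality.  Plan: `A u = ∑ g, ⟪Lt g v, u⟫ • Lt g v` maps `V` to `V` and commutes with
`Lt`, so it is a scalar `c` on `V` (`schur` with `𝒜 = Set.range Lt`); summing `⟪b, A b⟫` over an
orthonormal basis of `V` gives `c * finrank V = card G * ‖v‖²`. -/
lemma schur_orth {V : Submodule ℂ (HS G)} (hV : Irr V) {u v : HS G} (hu : u ∈ V) (hv : v ∈ V) :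
    ∑ g : G, ‖⟪u, Lt g v⟫_ℂ‖ ^ 2 = (Fintype.card G : ℝ) / finrank ℂ V * (‖u‖ ^ 2 * ‖v‖ ^ 2) := by
  let A : Module.End ℂ (HS G) := ∑ g : G, ((innerₛₗ ℂ) (Lt g v)).smulRight (Lt g v)
  have hA : ∀ u, A u = ∑ g : G, ⟪Lt g v, u⟫_ℂ • Lt g v := fun u => by
    simp [A, LinearMap.sum_apply]
  obtain ⟨c, hc⟩ := schur (𝒜 := Set.range Lt) (U := V)
    (by rintro _ ⟨g, rfl⟩; exact hV.2.1 g)
    (fun U' h1 h2 => hV.2.2 U' h1 fun g => h2 _ ⟨g, rfl⟩) A
    (fun u _ => by
      rw [hA]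
      exact V.sum_mem fun g _ => V.smul_mem _ (hV.2.1 g v hv))
    (by
      rintro _ ⟨h, rfl⟩ u -
      rw [hA, hA, map_sum, ← Equiv.sum_comp (Equiv.mulLeft h)]
      refine Finset.sum_congr rfl fun g _ => ?_
      simp only [Equiv.coe_mulLeft, Lt_mul, inner_Lt, map_smul])
  have h1 : ∀ u ∈ V, ∑ g : G, ‖⟪u, Lt g v⟫_ℂ‖ ^ 2 = c.re * ‖u‖ ^ 2 := fun u hu => by
    have e1 : ⟪u, A u⟫_ℂ = ((∑ g : G, ‖⟪u, Lt g v⟫_ℂ‖ ^ 2 : ℝ) : ℂ) := by
      rw [hA, inner_sum]
      push_cast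
      refine Finset.sum_congr rfl fun g _ => ?_
      rw [inner_smul_right, ← inner_conj_symm (Lt g v) u, Complex.conj_mul']
    rw [hc u hu, inner_smul_right, inner_self_eq_norm_sq_to_K] at e1
    have e2 := congrArg Complex.re e1
    rw [Complex.ofReal_re] at e2
    rw [← e2]
    have : ((‖u‖ : ℂ)) ^ 2 = ((‖u‖ ^ 2 : ℝ) : ℂ) := by push_cast; rfl
    erw [this]
    simp only [Complex.mul_re, Complex.ofReal_re, Complex.ofReal_im, mul_zero, sub_zero]
  have hd : (0 : ℝ) < finrank ℂ V := by exact_mod_cast Submodule.one_le_finrank_iff.2 hV.1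
  have h2 : c.re * finrank ℂ V = Fintype.card G * ‖v‖ ^ 2 := by
    have e1 : ∑ i, ∑ g : G, ‖⟪((stdOrthonormalBasis ℂ V i : V) : HS G), Lt g v⟫_ℂ‖ ^ 2 =
        c.re * finrank ℂ V := by
      rw [Finset.sum_congr rfl fun i _ => h1 _ (stdOrthonormalBasis ℂ V i).2]
      simp only [reg_onb_norm, one_pow, mul_one, Finset.sum_const, Finset.card_univ,
        Fintype.card_fin, nsmul_eq_mul]
      ring
    rw [← e1, Finset.sum_comm]
    simp only [reg_onb, Submodule.starProjection_eq_self_iff.2 (hV.2.1 _ v hv), norm_Lt,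
      Finset.sum_const, Finset.card_univ, nsmul_eq_mul]
  rw [h1 u hu, (eq_div_iff hd.ne').2 h2]
  ring

/-- Orthogonal decomposition into irreducible pieces.  Plan: strong induction on `finrank R`; take a
minimal invariant `V₀ ≤ R` (`exists_minimal`), `R' = R ⊓ V₀ᗮ`, `f = P f + (f - P f)`, `Fin.cons`. -/
lemma decomp {R : Submodule ℂ (HS G)} (hR : LInv R) {f : HS G} (hf : f ∈ R) :
    ∃ (k : ℕ) (V : Fin k → Submodule ℂ (HS G)) (v : Fin k → HS G),
      (∀ a, Irr (V a) ∧ V a ≤ R ∧ v a ∈ V a) ∧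
      (∀ a b, a ≠ b → ∀ x ∈ V a, ∀ y ∈ V b, ⟪x, y⟫_ℂ = 0) ∧ f = ∑ a, v a := by
  induction hn : finrank ℂ R using Nat.strong_induction_on generalizing R f with
  | _ n ih =>
    by_cases h0 : R = ⊥
    · refine ⟨0, Fin.elim0, Fin.elim0, fun a => a.elim0, fun a => a.elim0, ?_⟩
      rw [h0, Submodule.mem_bot] at hf
      simp [hf]
    · obtain ⟨V₀, h1, h2, h3, h4⟩ := exists_minimal (𝒜 := Set.range Lt) h0
        (by rintro _ ⟨g, rfl⟩; exact hR g)
      have h5 : LInv V₀ := fun g => h3 _ ⟨g, rfl⟩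
      have hI : Irr V₀ := ⟨h2, h5, fun U' a b => h4 U' a (by rintro _ ⟨g, rfl⟩; exact b g)⟩
      have hlt : R ⊓ V₀ᗮ < R := by
        refine lt_of_le_of_ne inf_le_left fun h => h2 ?_
        have : V₀ ≤ V₀ᗮ := h1.trans (h ▸ inf_le_right)
        rw [← V₀.inf_orthogonal_eq_bot, inf_eq_left.2 this]
      have hP := V₀.starProjection_apply_mem f
      obtain ⟨k, V, v, a1, a2, a3⟩ := ih _ (hn ▸ Submodule.finrank_lt_finrank_of_lt hlt)
        (hR.inf h5.orth) (f := f - V₀.starProjection f)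
        ⟨R.sub_mem hf (h1 hP), Submodule.sub_starProjection_mem_orthogonal f⟩ rfl
      refine ⟨k + 1, Fin.cons V₀ V, Fin.cons (V₀.starProjection f) v, fun a => ?_, fun a b => ?_, ?_⟩
      · refine Fin.cases ⟨hI, h1, hP⟩ (fun a => ?_) a
        exact ⟨(a1 a).1, (a1 a).2.1.trans inf_le_left, (a1 a).2.2⟩
      · refine Fin.cases ?_ (fun a => ?_) a <;> refine Fin.cases ?_ (fun b => ?_) b
        · exact fun h => absurd rfl h
        · exact fun _ x hx y hy => ((a1 b).2.1 hy).2 x hx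
        · exact fun _ x hx y hy => inner_eq_zero_symm.1 (((a1 a).2.1 hx).2 y hy)
        · exact fun h => a2 a b fun e => h (e ▸ rfl)
      · rw [Fin.sum_univ_succ]
        simp only [Fin.cons_zero, Fin.cons_succ]
        rw [← a3, add_sub_cancel]

end Crest.Agent.R155
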