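import Crest.Agent.R155.Reg
import Crest.Agent.R189.Tri

/-!
Row 155.  Small representations of symmetric groups: vectors fixed by most three-cycles.
-/

set_option autoImplicit false
set_option linter.unusedSectionVars false

namespace Crest.Agent.R155

open Module Equiv
open Crest.Agent.R189 (cyc D3)

variable {β : Type} [Fintype β] [DecidableEq β]

/-- `w` is fixed by all three-cycles supported outside `J` -/
def Fix3 (J : Finset β) (w : HS (Perm β)) : Prop :=
  ∀ p q r : β, D3 p q r → p ∉ J → q ∉ J → r ∉ J → Lt (cyc p q r) w = w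

/-- `1 + c + c²` -/
def Q3 (c : Perm β) (w : HS (Perm β)) : HS (Perm β) := w + Lt c w + Lt (c * c) w

lemma Q3_conj (g c : Perm β) (w : HS (Perm β)) :
    Q3 (g * c * g⁻¹) (Lt g w) = Lt g (Q3 c w) := by
  unfold Q3
  rw [map_add, map_add, ← Lt_mul, ← Lt_mul, ← Lt_mul, ← Lt_mul]
  congr 3 <;> group

lemma Q3_comm {g c : Perm β} (h : Commute g c) (w : HS (Perm β)) :
    Q3 c (Lt g w) = Lt g (Q3 c w) := by
  rw [← Q3_conj, h.eq, mul_inv_cancel_right]

lemma Q3_inv {c : Perm β} (h : c ^ 3 = 1) (w : HS (Perm β)) : Q3 c⁻¹ w = Q3 c w := by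
  have h1 : c⁻¹ = c * c := by
    rw [inv_eq_iff_mul_eq_one, ← h]; simp only [pow_succ, pow_zero, one_mul, mul_assoc]
  have h2 : c⁻¹ * c⁻¹ = c := by
    rw [← mul_inv_rev, inv_eq_iff_mul_eq_one, ← h]; simp only [pow_succ, pow_zero, one_mul]
  unfold Q3
  rw [h2, h1]
  abel

lemma Lt_Q3 {c : Perm β} (h : c ^ 3 = 1) (w : HS (Perm β)) : Lt c (Q3 c w) = Q3 c w := by
  have h2 : c * (c * c) = 1 := by
    rw [← h]; simp only [pow_succ, pow_zero, one_mul, mul_assoc]
  unfold Q3
  rw [map_add, map_add, ← Lt_mul, ← Lt_mul, h2, Lt_one]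
  abel

lemma Q3_of_fix {c : Perm β} {w : HS (Perm β)} (h : Lt c w = w) : Q3 c w = (3 : ℂ) • w := by
  unfold Q3
  rw [Lt_mul, h, h]
  module

/-- `Q3` as a linear map -/
def Q3L (c : Perm β) : Module.End ℂ (HS (Perm β)) := 1 + Lt c + Lt (c * c)

lemma Q3L_apply (c : Perm β) (w : HS (Perm β)) : Q3L c w = Q3 c w := rfl

lemma Q3_mem {V : Submodule ℂ (HS (Perm β))} (hV : LInv V) (c : Perm β) {w : HS (Perm β)}
    (hw : w ∈ V) : Q3 c w ∈ V :=
  V.add_mem (V.add_mem hw (hV _ _ hw)) (hV _ _ hw)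

private def stPts (t : β × β × β) : Finset β := {t.1, t.2.1, t.2.2}

private def stCy (t : β × β × β) : Perm β := cyc t.1 t.2.1 t.2.2

private def stW (V : Submodule ℂ (HS (Perm β))) (s : Finset (β × β × β)) :
    Submodule ℂ (HS (Perm β)) := V ⊓ ⨅ t ∈ s, LinearMap.ker (Q3L (stCy t))

private lemma mem_stW {V : Submodule ℂ (HS (Perm β))} {s : Finset (β × β × β)}
    {w : HS (Perm β)} : w ∈ stW V s ↔ w ∈ V ∧ ∀ t ∈ s, Q3 (stCy t) w = 0 := by
  simp only [stW, Submodule.mem_inf, Submodule.mem_iInf, LinearMap.mem_ker, Q3L_apply]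

private def stGood (V : Submodule ℂ (HS (Perm β))) (s : Finset (β × β × β)) : Prop :=
  (∀ t ∈ s, D3 t.1 t.2.1 t.2.2) ∧
    (∀ t ∈ s, ∀ t' ∈ s, t ≠ t' → Disjoint (stPts t) (stPts t')) ∧ stW V s ≠ ⊥

omit [Fintype β] in
private lemma st_comm {A B : Finset β} (h : Disjoint A B) {f g : Perm β}
    (hf : ∀ x, x ∉ A → f x = x) (hg : ∀ x, x ∉ B → g x = x) : Commute f g := by
  refine Perm.Disjoint.commute fun x => ?_
  by_cases hx : x ∈ A
  · exact Or.inr (hg x (Finset.disjoint_left.1 h hx))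
  · exact Or.inl (hf x hx)

omit [Fintype β] in
private lemma stCy_supp (t : β × β × β) (x : β) (hx : x ∉ stPts t) : stCy t x = x := by
  simp only [stPts, Finset.mem_insert, Finset.mem_singleton, not_or] at hx
  exact R189.cyc_apply_of_ne hx.1 hx.2.1 hx.2.2

omit [Fintype β] in
private lemma stSw_supp (t : β × β × β) (x : β) (hx : x ∉ stPts t) :
    swap t.2.1 t.2.2 x = x := by
  simp only [stPts, Finset.mem_insert, Finset.mem_singleton, not_or] at hx
  exact swap_apply_of_ne_of_ne hx.2.1 hx.2.2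

omit [Fintype β] in
private lemma st_swap_conj {p q r : β} (h : D3 p q r) :
    swap q r * cyc p q r * (swap q r)⁻¹ = (cyc p q r)⁻¹ := by
  rw [R189.cyc_conj, swap_apply_left, swap_apply_right, swap_apply_of_ne_of_ne h.1 h.2.1,
    R189.cyc_inv h]

private lemma st_dim {V : Submodule ℂ (HS (Perm β))} (hV : LInv V) {s : Finset (β × β × β)}
    (hs : stGood V s) : 2 ^ s.card ≤ finrank ℂ (stW V s) := by
  obtain ⟨h1, h2, h3⟩ := hs
  let 𝒜 : β × β × β → Set (Module.End ℂ (HS (Perm β))) :=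
    fun t => {Lt (stCy t), Lt (swap t.2.1 t.2.2)}
  have hA : ∀ t, ∀ a ∈ 𝒜 t, ∃ g : Perm β, a = Lt g ∧ (∀ x, x ∉ stPts t → g x = x) ∧
      (g = stCy t ∨ g = swap t.2.1 t.2.2) := by
    rintro t a (rfl | rfl)
    · exact ⟨_, rfl, stCy_supp t, Or.inl rfl⟩
    · exact ⟨_, rfl, stSw_supp t, Or.inr rfl⟩
  refine prod_dim 2 s _ 𝒜 _ h3 ?_ ?_ ?_
  · intro t ht a ha u hu
    obtain ⟨g, rfl, hg, hg'⟩ := hA t a ha
    rw [mem_stW] at hu ⊢
    refine ⟨hV _ _ hu.1, fun t' ht' => ?_⟩
    by_cases e : t = t'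
    · subst e
      rcases hg' with rfl | rfl
      · rw [Q3_comm (Commute.refl _), hu.2 t ht, map_zero]
      · rw [stCy, ← Q3_inv (R189.cyc_cube (h1 t ht)), ← st_swap_conj (h1 t ht), Q3_conj]
        exact (congrArg _ (hu.2 t ht)).trans (map_zero _)
    · rw [Q3_comm (st_comm (h2 t ht t' ht' e) hg (stCy_supp t')), hu.2 t' ht', map_zero]
  · intro t ht t' ht' e a ha b hb
    obtain ⟨g, rfl, hg, -⟩ := hA t a ha
    obtain ⟨g', rfl, hg', -⟩ := hA t' b hb
    refine LinearMap.ext fun u => ?_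
    rw [Module.End.mul_apply, Module.End.mul_apply, ← Lt_mul, ← Lt_mul,
      (st_comm (h2 t ht t' ht' e) hg hg').eq]
  · intro t ht U hU hU0 hUi
    by_contra hlt
    have hle : finrank ℂ U ≤ 1 := by omega
    obtain ⟨u, hu, hu0⟩ := (Submodule.ne_bot_iff U).1 hU0
    have hall : ∀ v ∈ U, ∃ z : ℂ, z • u = v := by
      intro v hv
      obtain ⟨u₀, hu₀⟩ := finrank_le_one_iff.1 hle
      obtain ⟨a, ha⟩ := hu₀ ⟨u, hu⟩
      obtain ⟨b, hb⟩ := hu₀ ⟨v, hv⟩
      have ha' : a • (u₀ : HS (Perm β)) = u := congrArg Subtype.val ha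
      have hb' : b • (u₀ : HS (Perm β)) = v := congrArg Subtype.val hb
      have a0 : a ≠ 0 := by
        rintro rfl
        exact hu0 (by rw [← ha', zero_smul])
      exact ⟨b / a, by rw [← ha', ← hb', smul_smul, div_mul_cancel₀ _ a0]⟩
    obtain ⟨z, hz⟩ := hall _ (hUi (Lt (stCy t)) (Or.inl rfl) u hu)
    obtain ⟨y, hy⟩ := hall _ (hUi (Lt (swap t.2.1 t.2.2)) (Or.inr rfl) u hu)
    have e1 : stCy t * (swap t.2.1 t.2.2 * stCy t) = swap t.2.1 t.2.2 := by
      have := st_swap_conj (h1 t ht)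
      rw [mul_inv_eq_iff_eq_mul] at this
      rw [stCy, this, mul_inv_cancel_left]
    have e2 : (z * y * z) • u = y • u := by
      rw [hy, ← e1, Lt_mul, Lt_mul, ← hz, map_smul, ← hy, map_smul, map_smul, ← hz, smul_smul,
        smul_smul]
    have e3 : (y * y) • u = u := by
      rw [← smul_smul, hy, ← map_smul, hy, ← Lt_mul, swap_mul_self, Lt_one]
    have e4 : (z * z * z) • u = u := by
      have : stCy t * (stCy t * stCy t) = 1 := by
        rw [← R189.cyc_cube (h1 t ht)]; simp only [stCy, pow_succ, pow_zero, one_mul, mul_assoc]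
      conv_rhs => rw [← Lt_one u, ← this, Lt_mul, Lt_mul, ← hz, map_smul, ← hz, map_smul, map_smul,
        ← hz, smul_smul, smul_smul]
    have f2 : z * y * z = y := smul_left_injective ℂ hu0 e2
    have f3 : y * y = 1 := smul_left_injective ℂ hu0 (e3.trans (one_smul _ _).symm)
    have f4 : z * z * z = 1 := smul_left_injective ℂ hu0 (e4.trans (one_smul _ _).symm)
    have f5 : z = 1 := by
      have : z * z = 1 := by linear_combination y * f2 + (1 - z * z) * f3
      linear_combination f4 - z * this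
    rw [f5, one_smul] at hz
    have := (mem_stW.1 (hU hu)).2 t ht
    rw [Q3_of_fix hz.symm] at this
    exact hu0 ((smul_eq_zero.1 this).resolve_left (by norm_num))

private lemma st_fix {V : Submodule ℂ (HS (Perm β))} (hV : LInv V) {s : Finset (β × β × β)}
    (hs : stGood V s) (hmax : ∀ s', stGood V s' → s'.card ≤ s.card) {w : HS (Perm β)}
    (hw : w ∈ stW V s) : Fix3 (s.biUnion stPts) w := by
  intro p q r hd hp hq hr
  obtain ⟨h1, h2, h3⟩ := hs
  have hdis : ∀ t ∈ s, Disjoint (stPts (p, q, r)) (stPts t) := by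
    intro t ht
    rw [Finset.disjoint_left]
    intro x hx hx'
    have : x ∈ s.biUnion stPts := Finset.mem_biUnion.2 ⟨t, ht, hx'⟩
    simp only [stPts, Finset.mem_insert, Finset.mem_singleton] at hx
    rcases hx with rfl | rfl | rfl
    · exact hp this
    · exact hq this
    · exact hr this
  have hn : (p, q, r) ∉ s := fun h =>
    Finset.disjoint_left.1 (hdis _ h) (Finset.mem_insert_self p _) (Finset.mem_insert_self p _)
  have hbot : stW V (insert (p, q, r) s) = ⊥ := by
    by_contra hne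
    have := hmax (insert (p, q, r) s) ⟨?_, ?_, hne⟩
    · rw [Finset.card_insert_of_notMem hn] at this
      omega
    · intro t ht
      rcases Finset.mem_insert.1 ht with rfl | ht
      · exact hd
      · exact h1 t ht
    · intro t ht t' ht' e
      rcases Finset.mem_insert.1 ht with rfl | ht <;> rcases Finset.mem_insert.1 ht' with rfl | ht'
      · exact absurd rfl e
      · exact hdis _ ht'
      · exact (hdis _ ht).symm
      · exact h2 t ht t' ht' e
  have hc := R189.cyc_cube hd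
  rw [mem_stW] at hw
  have hmem : w - (1 / 3 : ℂ) • Q3 (cyc p q r) w ∈ stW V (insert (p, q, r) s) := by
    rw [mem_stW]
    refine ⟨V.sub_mem hw.1 (V.smul_mem _ (Q3_mem hV _ hw.1)), fun t ht => ?_⟩
    rw [← Q3L_apply, map_sub, map_smul, Q3L_apply, Q3L_apply]
    rcases Finset.mem_insert.1 ht with rfl | ht
    · rw [show stCy (p, q, r) = cyc p q r from rfl, Q3_of_fix (Lt_Q3 hc w), smul_smul]
      norm_num
    · have hcm : Commute (cyc p q r) (stCy t) :=
        st_comm (hdis t ht) (stCy_supp (p, q, r)) (stCy_supp t)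
      have : Q3 (stCy t) (Q3 (cyc p q r) w) = 0 := by
        rw [← Q3L_apply (stCy t), Q3, map_add, map_add, Q3L_apply, Q3L_apply, Q3L_apply, Q3_comm hcm,
          Q3_comm (hcm.mul_left hcm), hw.2 t ht]
        simp
      rw [this, hw.2 t ht]
      simp
  rw [hbot, Submodule.mem_bot, sub_eq_zero] at hmem
  rw [hmem, map_smul, Lt_Q3 hc]

/-- Structure lemma.  Plan: consider finsets `s` of triples `(p, q, r)` with `D3 p q r` and pairwise
disjoint point sets such that `W s = {w ∈ V | Q3 (cyc p q r) w = 0 for all triples of s} ≠ ⊥`, and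
take one of maximal cardinality `l` (`Finset.exists_max_image` on the filter of `univ`; `∅`
qualifies).  `J` is the union of the point sets.  `prod_dim` with `X = 2` and
`𝒜 (p,q,r) = {Lt (cyc p q r), Lt (swap q r)}` gives `2 ^ l ≤ finrank (W s) ≤ finrank V`
(`cyc_conj`, `cyc_inv`, `cyc_cube`; on an invariant line `cyc p q r` acts by `z` with `z³ = 1`,
`z² = 1`, so `Q3 w = 3 w ≠ 0`).  For a triple outside `J`, `w - (1/3) Q3 c w ∈ W (insert _ s) = ⊥`,
hence `Lt c w = w`.  If `s = ∅` then `W s = V`. -/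
theorem struct {V : Submodule ℂ (HS (Perm β))} (hV : LInv V) (h0 : V ≠ ⊥) :
    ∃ (l : ℕ) (J : Finset β) (w : HS (Perm β)), J.card ≤ 3 * l ∧ 2 ^ l ≤ finrank ℂ V ∧ w ∈ V ∧
      w ≠ 0 ∧ Fix3 J w ∧ ((∀ v ∈ V, Fix3 ∅ v) ∨
        ∃ p ∈ J, ∃ q ∈ J, ∃ r ∈ J, D3 p q r ∧ Q3 (cyc p q r) w = 0) := by
  classical
  have hempty : stW V ∅ = V := by
    ext w; rw [mem_stW]; simp
  obtain ⟨s, hs, hmax⟩ := Finset.exists_max_image
    (Finset.univ.filter fun s : Finset (β × β × β) => stGood V s) Finset.card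
    ⟨∅, by
      simp only [Finset.mem_filter, Finset.mem_univ, true_and]
      exact ⟨by simp, by simp, by rwa [hempty]⟩⟩
  simp only [Finset.mem_filter, Finset.mem_univ, true_and] at hs hmax
  obtain ⟨w, hw, hw0⟩ := (Submodule.ne_bot_iff _).1 hs.2.2
  refine ⟨s.card, s.biUnion stPts, w, ?_, ?_, (mem_stW.1 hw).1, hw0, st_fix hV hs hmax hw, ?_⟩
  · rw [mul_comm]
    exact Finset.card_biUnion_le_card_mul _ _ _ fun t _ => Finset.card_le_three
  · exact (st_dim hV hs).trans (Submodule.finrank_mono inf_le_left)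
  · rcases s.eq_empty_or_nonempty with rfl | ⟨t, ht⟩
    · left
      intro v hv
      have := st_fix hV hs hmax (w := v) (by rwa [hempty])
      simpa using this
    · right
      have hm : ∀ x ∈ stPts t, x ∈ s.biUnion stPts := fun x hx => Finset.mem_biUnion.2 ⟨t, ht, hx⟩
      exact ⟨t.1, hm _ (by simp [stPts]), t.2.1, hm _ (by simp [stPts]), t.2.2,
        hm _ (by simp [stPts]), hs.1 t ht, (mem_stW.1 hw).2 t ht⟩

end Crest.Agent.R155
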